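import Crest.Agent.AD.Defs

set_option autoImplicit false
open Crest.Quantum Crest.MathPhysics.AmpDamp
open scoped ComplexOrder Kronecker

namespace Crest.Agent.AD

variable {d e : Type} [Fintype d] [Fintype e] [DecidableEq d] [DecidableEq e]

/-- a map in Kraus form with `∑ Kᴴ K = 1` is a channel. -/
theorem kraus_channel {κ : Type} [Fintype κ] (K : κ → Matrix d d ℂ)
    (h : ∑ k, (K k).conjTranspose * K k = 1) (Φ : Matrix d d ℂ → Matrix d d ℂ)
    (hΦ : ∀ M, Φ M = ∑ k, K k * M * (K k).conjTranspose) : IsChannel Φ := by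
  refine ⟨⟨?_, ?_⟩, ?_, ?_⟩
  · intro A B
    rw [hΦ, hΦ, hΦ, ← Finset.sum_add_distrib]
    refine Finset.sum_congr rfl fun k _ => ?_
    rw [Matrix.mul_add, Matrix.add_mul]
  · intro c A
    rw [hΦ, hΦ, Finset.smul_sum]
    refine Finset.sum_congr rfl fun k _ => ?_
    rw [Matrix.mul_smul, Matrix.smul_mul]
  · intro m M hM
    have key : blockwise (k := Fin m) Φ M
        = ∑ k, ((1 : Matrix (Fin m) (Fin m) ℂ) ⊗ₖ K k) * M *
            ((1 : Matrix (Fin m) (Fin m) ℂ) ⊗ₖ K k).conjTranspose := by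
      ext ⟨a, i⟩ ⟨b, j⟩
      simp only [blockwise, Matrix.of_apply, hΦ, Matrix.sum_apply]
      refine Finset.sum_congr rfl fun k _ => ?_
      simp only [Matrix.mul_apply, Matrix.conjTranspose_apply, Matrix.kroneckerMap_apply,
        Fintype.sum_prod_type, Matrix.one_apply, block, Matrix.of_apply]
      simp only [ite_mul, one_mul, zero_mul, star_mul', apply_ite star, star_one, star_zero,
        mul_ite, mul_zero, Finset.sum_ite_irrel, Finset.sum_const_zero]
      rw [Finset.sum_eq_single b]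
      · simp only [if_true]
        refine Finset.sum_congr rfl fun x _ => ?_
        congr 1
        rw [Finset.sum_eq_single a]
        · simp
        · intro c _ hc; simp [hc.symm]
        · intro hc; exact absurd (Finset.mem_univ _) hc
      · intro c _ hc; simp [hc.symm]
      · intro hc; exact absurd (Finset.mem_univ _) hc
    rw [key]
    refine Matrix.posSemidef_sum _ fun k _ => ?_
    exact hM.mul_mul_conjTranspose_same _
  · intro M
    rw [hΦ, Matrix.trace_sum]
    have h1 : ∀ k, (K k * M * (K k).conjTranspose).trace = ((K k).conjTranspose * K k * M).trace := by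
      intro k
      rw [Matrix.trace_mul_comm, ← Matrix.mul_assoc]
    simp only [h1]
    rw [← Matrix.trace_sum, ← Finset.sum_mul, h, one_mul]

/-- Kraus operators of the generalized amplitude damping channel (real entries). -/
noncomputable def kr (γ ν : ℝ) : Bool × Bool → Bool → Bool → ℝ
  | (false, false), false, false => Real.sqrt (1 - ν)
  | (false, false), true, true => Real.sqrt (1 - ν) * Real.sqrt (1 - γ)
  | (false, true), false, true => Real.sqrt (1 - ν) * Real.sqrt γ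
  | (true, false), false, false => Real.sqrt ν * Real.sqrt (1 - γ)
  | (true, false), true, true => Real.sqrt ν
  | (true, true), true, false => Real.sqrt ν * Real.sqrt γ
  | _, _, _ => 0

/-- the transfer coefficients in terms of the Kraus operators. -/
theorem coeff_eq {γ ν : ℝ} (hγ : γ ∈ Set.Icc (0 : ℝ) 1) (hν : ν ∈ Set.Icc (0 : ℝ) 1)
    (s t s' t' : Bool) :
    qubitCoeff (gadMap γ ν) s t s' t' = ((∑ k, kr γ ν k s s' * kr γ ν k t t' : ℝ) : ℂ) := by
  have e1 : Real.sqrt (1 - ν) ^ 2 = 1 - ν := Real.sq_sqrt (by linarith [hν.2])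
  have e2 : Real.sqrt (1 - γ) ^ 2 = 1 - γ := Real.sq_sqrt (by linarith [hγ.2])
  have e3 : Real.sqrt ν ^ 2 = ν := Real.sq_sqrt hν.1
  have e4 : Real.sqrt γ ^ 2 = γ := Real.sq_sqrt hγ.1
  have e5 : Real.sqrt (1 - γ) * (Real.sqrt ν ^ 2 + Real.sqrt (1 - ν) ^ 2) = Real.sqrt (1 - γ) := by
    rw [e1, e3]; ring
  rw [Fintype.sum_prod_type]
  simp only [Fintype.sum_bool]
  cases s <;> cases t <;> cases s' <;> cases t' <;>
    simp only [qubitCoeff, gadMap, Matrix.of_apply, kr, Matrix.single_apply] <;>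
    norm_num <;> norm_cast <;> nlinarith [e1, e2, e3, e4, e5]

/-- trace preservation of the Kraus operators. -/
theorem kr_tp {γ ν : ℝ} (hγ : γ ∈ Set.Icc (0 : ℝ) 1) (hν : ν ∈ Set.Icc (0 : ℝ) 1)
    (s' t' : Bool) :
    ∑ k, ∑ s, kr γ ν k s s' * kr γ ν k s t' = if s' = t' then 1 else 0 := by
  have e1 : Real.sqrt (1 - ν) ^ 2 = 1 - ν := Real.sq_sqrt (by linarith [hν.2])
  have e2 : Real.sqrt (1 - γ) ^ 2 = 1 - γ := Real.sq_sqrt (by linarith [hγ.2])
  have e3 : Real.sqrt ν ^ 2 = ν := Real.sq_sqrt hν.1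
  have e4 : Real.sqrt γ ^ 2 = γ := Real.sq_sqrt hγ.1
  rw [Fintype.sum_prod_type]
  simp only [Fintype.sum_bool]
  cases s' <;> cases t' <;> simp only [kr] <;> norm_num <;> nlinarith [e1, e2, e3, e4]

theorem power_channel {γ ν : ℝ} (hγ : γ ∈ Set.Icc (0 : ℝ) 1) (hν : ν ∈ Set.Icc (0 : ℝ) 1) (n : ℕ) :
    IsChannel (qubitPower n (gadMap γ ν)) := by
  refine kraus_channel (κ := Fin n → Bool × Bool)
    (fun k => Matrix.of fun σ σ' => ((∏ i, kr γ ν (k i) (σ i) (σ' i) : ℝ) : ℂ)) ?_ _ ?_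
  · ext σ' τ'
    simp only [Matrix.sum_apply, Matrix.mul_apply, Matrix.conjTranspose_apply, Matrix.of_apply,
      RCLike.star_def, Complex.conj_ofReal, ← Complex.ofReal_mul, ← Complex.ofReal_sum,
      ← Finset.prod_mul_distrib]
    have h1 : ∀ k : Fin n → Bool × Bool,
        ∑ σ : Fin n → Bool, ∏ i, kr γ ν (k i) (σ i) (σ' i) * kr γ ν (k i) (σ i) (τ' i)
          = ∏ i, ∑ s, kr γ ν (k i) s (σ' i) * kr γ ν (k i) s (τ' i) := by
      intro k
      rw [Finset.prod_univ_sum, Fintype.piFinset_univ]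
    simp only [h1]
    have h2 : ∑ k : Fin n → Bool × Bool, ∏ i, ∑ s, kr γ ν (k i) s (σ' i) * kr γ ν (k i) s (τ' i)
          = ∏ i, ∑ k, ∑ s, kr γ ν k s (σ' i) * kr γ ν k s (τ' i) := by
      rw [Finset.prod_univ_sum, Fintype.piFinset_univ]
    rw [h2]
    simp only [kr_tp hγ hν, Matrix.one_apply]
    by_cases hst : σ' = τ'
    · subst hst; simp
    · rw [if_neg hst]
      obtain ⟨i, hi⟩ := Function.ne_iff.mp hst
      rw [Finset.prod_eq_zero (Finset.mem_univ i) (by rw [if_neg hi])]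
      simp
  · intro M
    ext σ τ
    simp only [qubitPower, Matrix.of_apply, Matrix.sum_apply, Matrix.mul_apply,
      Matrix.conjTranspose_apply, RCLike.star_def, Complex.conj_ofReal, coeff_eq hγ hν]
    have h1 : ∀ σ' τ' : Fin n → Bool,
        ∏ i, ((∑ k, kr γ ν k (σ i) (σ' i) * kr γ ν k (τ i) (τ' i) : ℝ) : ℂ)
          = ∑ k : Fin n → Bool × Bool, ((∏ i, kr γ ν (k i) (σ i) (σ' i) : ℝ) : ℂ) *
              ((∏ i, kr γ ν (k i) (τ i) (τ' i) : ℝ) : ℂ) := by
      intro σ' τ'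
      rw [← Complex.ofReal_prod, Finset.prod_univ_sum, Fintype.piFinset_univ, Complex.ofReal_sum]
      refine Finset.sum_congr rfl fun k _ => ?_
      rw [← Complex.ofReal_mul, Finset.prod_mul_distrib]
    simp only [h1, Finset.sum_mul]
    rw [Finset.sum_comm]
    have : ∀ τ' : Fin n → Bool, (∑ σ' : Fin n → Bool, ∑ k : Fin n → Bool × Bool,
        ((∏ i, kr γ ν (k i) (σ i) (σ' i) : ℝ) : ℂ) * ((∏ i, kr γ ν (k i) (τ i) (τ' i) : ℝ) : ℂ) * M σ' τ')
        = ∑ k : Fin n → Bool × Bool, ∑ σ' : Fin n → Bool,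
        ((∏ i, kr γ ν (k i) (σ i) (σ' i) : ℝ) : ℂ) * M σ' τ' * ((∏ i, kr γ ν (k i) (τ i) (τ' i) : ℝ) : ℂ) := by
      intro τ'
      rw [Finset.sum_comm]
      refine Finset.sum_congr rfl fun k _ => Finset.sum_congr rfl fun σ' _ => ?_
      ring
    simp only [this]
    rw [Finset.sum_comm]

theorem gad_channel {γ ν : ℝ} (hγ : γ ∈ Set.Icc (0 : ℝ) 1) (hν : ν ∈ Set.Icc (0 : ℝ) 1) :
    IsChannel (gadMap γ ν) := by
  refine kraus_channel (κ := Bool × Bool)
    (fun k => Matrix.of fun s s' => ((kr γ ν k s s' : ℝ) : ℂ)) ?_ _ ?_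
  · ext s' t'
    simp only [Matrix.sum_apply, Matrix.mul_apply, Matrix.conjTranspose_apply, Matrix.of_apply,
      RCLike.star_def, Complex.conj_ofReal, ← Complex.ofReal_mul, ← Complex.ofReal_sum,
      kr_tp hγ hν, Matrix.one_apply]
    split_ifs <;> simp
  · intro M
    have e1 : Real.sqrt (1 - ν) ^ 2 = 1 - ν := Real.sq_sqrt (by linarith [hν.2])
    have e2 : Real.sqrt (1 - γ) ^ 2 = 1 - γ := Real.sq_sqrt (by linarith [hγ.2])
    have e3 : Real.sqrt ν ^ 2 = ν := Real.sq_sqrt hν.1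
    have e4 : Real.sqrt γ ^ 2 = γ := Real.sq_sqrt hγ.1
    have c1 : ((Real.sqrt (1 - ν) : ℝ) : ℂ) ^ 2 = 1 - (ν : ℂ) := by
      rw [← Complex.ofReal_pow, e1]; push_cast; ring
    have c2 : ((Real.sqrt (1 - γ) : ℝ) : ℂ) ^ 2 = 1 - (γ : ℂ) := by
      rw [← Complex.ofReal_pow, e2]; push_cast; ring
    have c3 : ((Real.sqrt ν : ℝ) : ℂ) ^ 2 = (ν : ℂ) := by rw [← Complex.ofReal_pow, e3]
    have c4 : ((Real.sqrt γ : ℝ) : ℂ) ^ 2 = (γ : ℂ) := by rw [← Complex.ofReal_pow, e4]
    ext s t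
    rw [Fintype.sum_prod_type]
    simp only [Fintype.sum_bool, Matrix.add_apply, Matrix.mul_apply, Matrix.conjTranspose_apply,
      Matrix.of_apply, RCLike.star_def, Complex.conj_ofReal]
    cases s <;> cases t
    · simp only [gadMap, Matrix.of_apply, kr]
      push_cast
      simp only [and_self, if_true]
      linear_combination (-(M false false)) * c1 - (M true true) * ((Real.sqrt γ : ℝ) : ℂ) ^ 2 * c1
        - (M true true) * (1 - (ν : ℂ)) * c4 - (M false false) * ((Real.sqrt (1 - γ) : ℝ) : ℂ) ^ 2 * c3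
        - (M false false) * (ν : ℂ) * c2
    · simp only [gadMap, Matrix.of_apply, kr]
      push_cast
      simp
      linear_combination (-(M false true)) * ((Real.sqrt (1 - γ) : ℝ) : ℂ) * (c1 + c3)
    · simp only [gadMap, Matrix.of_apply, kr]
      push_cast
      simp
      linear_combination (-(M true false)) * ((Real.sqrt (1 - γ) : ℝ) : ℂ) * (c1 + c3)
    · simp only [gadMap, Matrix.of_apply, kr]
      push_cast
      simp
      linear_combination (-(M true true)) * c3 - (M false false) * ((Real.sqrt γ : ℝ) : ℂ) ^ 2 * c3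
        - (M false false) * (ν : ℂ) * c4 - (M true true) * ((Real.sqrt (1 - γ) : ℝ) : ℂ) ^ 2 * c1
        - (M true true) * (1 - (ν : ℂ)) * c2

theorem power_succ (Φ : Matrix Bool Bool ℂ → Matrix Bool Bool ℂ) (n : ℕ)
    (M : Matrix (Fin (n + 1) → Bool) (Fin (n + 1) → Bool) ℂ) :
    qubitPower (n + 1) Φ M =
      Matrix.reindex (Fin.consEquiv (fun _ : Fin (n + 1) => Bool)) (Fin.consEquiv (fun _ : Fin (n + 1) => Bool))
        (qubitTensor Φ (qubitPower n Φ)
          (Matrix.reindex (Fin.consEquiv (fun _ : Fin (n + 1) => Bool)).symm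
            (Fin.consEquiv (fun _ : Fin (n + 1) => Bool)).symm M)) := by
  ext σ τ
  have hs : ∀ f : (Fin (n + 1) → Bool) → ℂ,
      ∑ σ' : Fin (n + 1) → Bool, f σ' = ∑ s' : Bool, ∑ σ'' : Fin n → Bool, f (Fin.cons s' σ'') := by
    intro f
    rw [← Fintype.sum_prod_type', ← (Fin.consEquiv (fun _ : Fin (n + 1) => Bool)).sum_comp]
    rfl
  simp only [qubitPower, qubitTensor, Matrix.of_apply, Matrix.reindex_apply, Matrix.submatrix_apply,
    Equiv.symm_symm, block, hs, Fin.prod_univ_succ, Fin.cons_zero, Fin.cons_succ]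
  refine Finset.sum_congr rfl fun s' _ => ?_
  rw [Finset.sum_comm]
  refine Finset.sum_congr rfl fun t' _ => ?_
  rw [Finset.mul_sum]
  refine Finset.sum_congr rfl fun σ'' _ => ?_
  rw [Finset.mul_sum]
  refine Finset.sum_congr rfl fun τ'' _ => ?_
  rw [mul_assoc]
  rfl

end Crest.Agent.AD
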