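import Crest.Agent.AD.Defs

set_option autoImplicit false
set_option linter.unusedSectionVars false
set_option linter.unusedVariables false
open Crest.Quantum Crest.MathPhysics.AmpDamp
open scoped ComplexOrder Kronecker

namespace Crest.Agent.AD

variable {d e : Type} [Fintype d] [Fintype e] [DecidableEq d] [DecidableEq e]

theorem chan_density {Ψ : Matrix d d ℂ → Matrix e e ℂ} (hΨ : IsChannel Ψ) {ρ : Matrix d d ℂ}
    (h : IsDensity ρ) : IsDensity (Ψ ρ) := by
  refine ⟨?_, ?_⟩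
  · have h1 : (ρ.submatrix (Prod.snd : Fin 1 × d → d) Prod.snd).PosSemidef := h.1.submatrix _
    have h2 := hΨ.2.1 1 _ h1
    have h3 := h2.submatrix (fun i : e => ((0 : Fin 1), i))
    have h4 : (blockwise (k := Fin 1) Ψ (ρ.submatrix (Prod.snd : Fin 1 × d → d) Prod.snd)).submatrix
        (fun i : e => ((0 : Fin 1), i)) (fun i : e => ((0 : Fin 1), i)) = Ψ ρ := by
      ext i j
      rfl
    rw [h4] at h3
    exact h3
  · rw [hΨ.2.2, h.2]

theorem blockwise_density {Ψ : Matrix d d ℂ → Matrix e e ℂ} (hΨ : IsChannel Ψ)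
    {ρ : Matrix (Bool × d) (Bool × d) ℂ} (h : IsDensity ρ) :
    IsDensity (blockwise (k := Bool) Ψ ρ) := by
  refine ⟨?_, ?_⟩
  · have h1 : (ρ.submatrix (Prod.map finTwoEquiv id : Fin 2 × d → Bool × d)
        (Prod.map finTwoEquiv id)).PosSemidef := h.1.submatrix _
    have h2 := hΨ.2.1 2 _ h1
    have h3 := h2.submatrix (Prod.map finTwoEquiv.symm id : Bool × e → Fin 2 × e)
    have h4 : (blockwise (k := Fin 2) Ψ (ρ.submatrix (Prod.map finTwoEquiv id : Fin 2 × d → Bool × d)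
        (Prod.map finTwoEquiv id))).submatrix
        (Prod.map finTwoEquiv.symm id : Bool × e → Fin 2 × e) (Prod.map finTwoEquiv.symm id) =
        blockwise (k := Bool) Ψ ρ := by
      ext ⟨s, i⟩ ⟨t, j⟩
      have : block (ρ.submatrix (Prod.map finTwoEquiv id : Fin 2 × d → Bool × d)
        (Prod.map finTwoEquiv id)) (finTwoEquiv.symm s) (finTwoEquiv.symm t) = block ρ s t := by
        ext a b
        simp [block]
      simp only [Matrix.submatrix_apply, blockwise, Matrix.of_apply, Prod.map_apply, id]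
      rw [this]
    rw [h4] at h3
    exact h3
  · have h1 : ∀ s, (Ψ (block ρ s s)).trace = (block ρ s s).trace := fun s => hΨ.2.2 _
    have h2 : (blockwise (k := Bool) Ψ ρ).trace = ∑ s, (Ψ (block ρ s s)).trace := by
      simp only [Matrix.trace, Matrix.diag, blockwise, Matrix.of_apply, Fintype.sum_prod_type]
    have h3 : ρ.trace = ∑ s, (block ρ s s).trace := by
      simp only [Matrix.trace, Matrix.diag, block, Matrix.of_apply, Fintype.sum_prod_type]
    rw [h2, ← h.2, h3]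
    exact Finset.sum_congr rfl fun s _ => h1 s

theorem qubitTensor_eq (Φ : Matrix Bool Bool ℂ → Matrix Bool Bool ℂ) (Ψ : Matrix d d ℂ → Matrix e e ℂ)
    (ρ : Matrix (Bool × d) (Bool × d) ℂ) :
    qubitTensor Φ Ψ ρ = qubitTensor Φ (fun M => M) (blockwise (k := Bool) Ψ ρ) := by
  ext p q
  rfl

theorem coeff_gad (γ ν : ℝ) (s t s' t' : Bool) :
    qubitCoeff (gadMap γ ν) s t s' t' =
      if s = false ∧ t = false then
        (if s' = false ∧ t' = false then ((1 - γ * ν : ℝ) : ℂ) else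
          if s' = true ∧ t' = true then ((γ * (1 - ν) : ℝ) : ℂ) else 0)
      else if s = true ∧ t = true then
        (if s' = false ∧ t' = false then ((γ * ν : ℝ) : ℂ) else
          if s' = true ∧ t' = true then ((1 - γ + γ * ν : ℝ) : ℂ) else 0)
      else if s' = s ∧ t' = t then ((Real.sqrt (1 - γ) : ℝ) : ℂ) else 0 := by
  cases s <;> cases t <;> cases s' <;> cases t' <;>
    simp [qubitCoeff, gadMap, Matrix.single_apply]

/-- explicit entries of the tensor map. -/
theorem tensor_apply (γ ν : ℝ) (Ψ : Matrix d d ℂ → Matrix e e ℂ)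
    (ρ : Matrix (Bool × d) (Bool × d) ℂ) (s t : Bool) (i j : e) :
    qubitTensor (gadMap γ ν) Ψ ρ (s, i) (t, j) =
      if s = false ∧ t = false then
        ((1 - γ * ν : ℝ) : ℂ) * Ψ (block ρ false false) i j +
          ((γ * (1 - ν) : ℝ) : ℂ) * Ψ (block ρ true true) i j
      else if s = true ∧ t = true then
        ((γ * ν : ℝ) : ℂ) * Ψ (block ρ false false) i j +
          ((1 - γ + γ * ν : ℝ) : ℂ) * Ψ (block ρ true true) i j
      else ((Real.sqrt (1 - γ) : ℝ) : ℂ) * Ψ (block ρ s t) i j := by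
  simp only [qubitTensor, Matrix.of_apply, Fintype.sum_bool, coeff_gad]
  cases s <;> cases t <;> simp <;> ring

/-- conjugation by `K ⊗ 1`. -/
theorem kron_one_conj (K : Matrix Bool Bool ℂ) (N : Matrix (Bool × e) (Bool × e) ℂ)
    (s t : Bool) (i j : e) :
    ((K ⊗ₖ (1 : Matrix e e ℂ)) * N * (K ⊗ₖ (1 : Matrix e e ℂ)).conjTranspose) (s, i) (t, j) =
      ∑ s' : Bool, ∑ t' : Bool, K s s' * N (s', i) (t', j) * star (K t t') := by
  rw [Matrix.mul_apply, Fintype.sum_prod_type]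
  rw [Finset.sum_comm]
  simp only [Matrix.mul_apply, Fintype.sum_prod_type, Matrix.kroneckerMap_apply,
    Matrix.conjTranspose_apply, Matrix.one_apply]
  simp only [mul_ite, mul_one, mul_zero, ite_mul, zero_mul, Finset.sum_ite_eq, Finset.mem_univ,
    if_true, apply_ite (star : ℂ → ℂ), star_zero, Fintype.sum_bool]
  simp only [Finset.sum_add_distrib, add_mul, Finset.sum_ite_eq, Finset.mem_univ, if_true]
  ring

theorem tensor_density {γ ν : ℝ} (hγ : γ ∈ Set.Icc (0 : ℝ) 1) (hν : ν ∈ Set.Icc (0 : ℝ) 1)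
    {Ψ : Matrix d d ℂ → Matrix e e ℂ} (hΨ : IsChannel Ψ)
    {ρ : Matrix (Bool × d) (Bool × d) ℂ} (h : IsDensity ρ) :
    IsDensity (qubitTensor (gadMap γ ν) Ψ ρ) := by
  have hN := blockwise_density hΨ h
  set N := blockwise (k := Bool) Ψ ρ with hNdef
  have hg0 := hγ.1
  have hg1 : 0 ≤ 1 - γ := by linarith [hγ.2]
  have hn0 := hν.1
  have hn1 : 0 ≤ 1 - ν := by linarith [hν.2]
  have sg := Real.mul_self_sqrt hg0
  have sg1 := Real.mul_self_sqrt hg1
  have sn := Real.mul_self_sqrt hn0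
  have sn1 := Real.mul_self_sqrt hn1
  have key : ∀ K : Matrix Bool Bool ℂ,
      ((K ⊗ₖ (1 : Matrix e e ℂ)) * N * (K ⊗ₖ (1 : Matrix e e ℂ)).conjTranspose).PosSemidef :=
    fun K => hN.1.mul_mul_conjTranspose_same _
  set K1 : Matrix Bool Bool ℂ := Matrix.of fun s t =>
    if s = false ∧ t = false then ((Real.sqrt (1 - ν) : ℝ) : ℂ) else
    if s = true ∧ t = true then ((Real.sqrt (1 - ν) * Real.sqrt (1 - γ) : ℝ) : ℂ) else 0 with hK1
  set K2 : Matrix Bool Bool ℂ := Matrix.of fun s t =>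
    if s = false ∧ t = true then ((Real.sqrt (1 - ν) * Real.sqrt γ : ℝ) : ℂ) else 0 with hK2
  set K3 : Matrix Bool Bool ℂ := Matrix.of fun s t =>
    if s = false ∧ t = false then ((Real.sqrt ν * Real.sqrt (1 - γ) : ℝ) : ℂ) else
    if s = true ∧ t = true then ((Real.sqrt ν : ℝ) : ℂ) else 0 with hK3
  set K4 : Matrix Bool Bool ℂ := Matrix.of fun s t =>
    if s = true ∧ t = false then ((Real.sqrt ν * Real.sqrt γ : ℝ) : ℂ) else 0 with hK4
  have hsum : qubitTensor (gadMap γ ν) Ψ ρ =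
      ((K1 ⊗ₖ (1 : Matrix e e ℂ)) * N * (K1 ⊗ₖ (1 : Matrix e e ℂ)).conjTranspose) +
      ((K2 ⊗ₖ (1 : Matrix e e ℂ)) * N * (K2 ⊗ₖ (1 : Matrix e e ℂ)).conjTranspose) +
      ((K3 ⊗ₖ (1 : Matrix e e ℂ)) * N * (K3 ⊗ₖ (1 : Matrix e e ℂ)).conjTranspose) +
      ((K4 ⊗ₖ (1 : Matrix e e ℂ)) * N * (K4 ⊗ₖ (1 : Matrix e e ℂ)).conjTranspose) := by
    have e1 : ((Real.sqrt (1 - ν) : ℝ) : ℂ) * ((Real.sqrt (1 - ν) : ℝ) : ℂ) = 1 - (ν : ℂ) := by
      rw [← Complex.ofReal_mul, sn1]; push_cast; ring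
    have e2 : ((Real.sqrt ν : ℝ) : ℂ) * ((Real.sqrt ν : ℝ) : ℂ) = (ν : ℂ) := by
      rw [← Complex.ofReal_mul, sn]
    have e3 : ((Real.sqrt (1 - γ) : ℝ) : ℂ) * ((Real.sqrt (1 - γ) : ℝ) : ℂ) = 1 - (γ : ℂ) := by
      rw [← Complex.ofReal_mul, sg1]; push_cast; ring
    have e4 : ((Real.sqrt γ : ℝ) : ℂ) * ((Real.sqrt γ : ℝ) : ℂ) = (γ : ℂ) := by
      rw [← Complex.ofReal_mul, sg]
    ext ⟨s, i⟩ ⟨t, j⟩
    rw [tensor_apply]
    simp only [Matrix.add_apply, kron_one_conj]
    have hb : ∀ s t : Bool, Ψ (block ρ s t) i j = N (s, i) (t, j) := fun s t => rfl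
    simp only [hb]
    have s1 : (starRingEnd ℂ) ((Real.sqrt (1 - γ) : ℝ) : ℂ) = ((Real.sqrt (1 - γ) : ℝ) : ℂ) :=
      Complex.conj_ofReal _
    have s2 : (starRingEnd ℂ) ((Real.sqrt γ : ℝ) : ℂ) = ((Real.sqrt γ : ℝ) : ℂ) :=
      Complex.conj_ofReal _
    have s3 : (starRingEnd ℂ) ((Real.sqrt ν : ℝ) : ℂ) = ((Real.sqrt ν : ℝ) : ℂ) :=
      Complex.conj_ofReal _
    have s4 : (starRingEnd ℂ) ((Real.sqrt (1 - ν) : ℝ) : ℂ) = ((Real.sqrt (1 - ν) : ℝ) : ℂ) :=
      Complex.conj_ofReal _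
    set c := ((Real.sqrt (1 - γ) : ℝ) : ℂ) with hc
    set g := ((Real.sqrt γ : ℝ) : ℂ) with hg
    set n := ((Real.sqrt ν : ℝ) : ℂ) with hn
    set n1 := ((Real.sqrt (1 - ν) : ℝ) : ℂ) with hn1
    cases s <;> cases t <;>
      simp [hK1, hK2, hK3, hK4, Matrix.of_apply, s1, s2, s3, s4, ← hc, ← hg, ← hn, ← hn1]
    · linear_combination (-N (false, i) (false, j)) * e1 -
        (N (false, i) (false, j)) * (c * c) * e2 - (N (false, i) (false, j)) * (ν : ℂ) * e3
        - (N (true, i) (true, j)) * (g * g) * e1 - (N (true, i) (true, j)) * (1 - (ν : ℂ)) * e4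
    · linear_combination (-N (false, i) (true, j)) * c * e1 - (N (false, i) (true, j)) * c * e2
    · linear_combination (-N (true, i) (false, j)) * c * e1 - (N (true, i) (false, j)) * c * e2
    · linear_combination (-N (true, i) (true, j)) * e2 -
        (N (true, i) (true, j)) * (c * c) * e1 - (N (true, i) (true, j)) * (1 - (ν : ℂ)) * e3
        - (N (false, i) (false, j)) * (g * g) * e2 - (N (false, i) (false, j)) * (ν : ℂ) * e4
  refine ⟨?_, ?_⟩
  · rw [hsum]
    exact (((key K1).add (key K2)).add (key K3)).add (key K4)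
  · have h1 : (qubitTensor (gadMap γ ν) Ψ ρ).trace =
        (Ψ (block ρ false false)).trace + (Ψ (block ρ true true)).trace := by
      simp only [Matrix.trace, Matrix.diag, Fintype.sum_prod_type, Fintype.sum_bool, tensor_apply]
      simp only [Bool.true_eq_false, and_self, if_false, if_true]
      rw [← Finset.sum_add_distrib, ← Finset.sum_add_distrib]
      apply Finset.sum_congr rfl
      intro i _
      push_cast
      ring
    have h3 : ρ.trace = (block ρ false false).trace + (block ρ true true).trace := by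
      simp only [Matrix.trace, Matrix.diag, block, Matrix.of_apply, Fintype.sum_prod_type,
        Fintype.sum_bool]
      ring
    rw [h1, hΨ.2.2, hΨ.2.2, ← h3, h.2]

theorem trL_tensor {γ ν : ℝ} {Ψ : Matrix d d ℂ → Matrix e e ℂ} (hΨ : IsChannel Ψ)
    (ρ : Matrix (Bool × d) (Bool × d) ℂ) :
    trL (qubitTensor (gadMap γ ν) Ψ ρ) = Ψ (block ρ false false) + Ψ (block ρ true true) := by
  ext i j
  simp only [trL, Fintype.sum_bool, Matrix.add_apply, block, Matrix.of_apply, tensor_apply]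
  simp only [Bool.true_eq_false, and_self, if_false, if_true]
  push_cast
  have : ∀ s t : Bool, Ψ (Matrix.of fun i j => ρ (s, i) (t, j)) = Ψ (block ρ s t) := fun s t => rfl
  simp only [this]
  ring

theorem trR_tensor {γ ν : ℝ} {Ψ : Matrix d d ℂ → Matrix e e ℂ} (hΨ : IsChannel Ψ)
    (ρ : Matrix (Bool × d) (Bool × d) ℂ) :
    trR (qubitTensor (gadMap γ ν) Ψ ρ) = gadMap γ ν (trR ρ) := by
  have h1 : ∀ s t : Bool, ∑ i, Ψ (block ρ s t) i i = (block ρ s t).trace := by
    intro s t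
    rw [← hΨ.2.2 (block ρ s t)]
    rfl
  ext s t
  simp only [trR, gadMap, Matrix.of_apply]
  rw [Matrix.trace]
  simp only [Matrix.diag, block, Matrix.of_apply, tensor_apply]
  have hb : ∀ s t : Bool, Ψ (Matrix.of fun i j => ρ (s, i) (t, j)) = Ψ (block ρ s t) := fun s t => rfl
  have hb' : ∀ s t : Bool, (Matrix.of fun i j => ρ (s, i) (t, j)) = (block ρ s t) := fun s t => rfl
  simp only [hb']
  cases s <;> cases t <;>
    simp only [Bool.true_eq_false, Bool.false_eq_true, and_self, if_false, if_true, false_and,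
      and_false, Finset.sum_add_distrib, ← Finset.mul_sum, h1]

theorem tensor_kron {γ ν : ℝ} {Ψ : Matrix d d ℂ → Matrix e e ℂ} (hΨ : IsChannel Ψ)
    (A : Matrix Bool Bool ℂ) (B : Matrix d d ℂ) :
    qubitTensor (gadMap γ ν) Ψ (A ⊗ₖ B) = (gadMap γ ν A) ⊗ₖ (Ψ B) := by
  have hb : ∀ s t : Bool, Ψ (block (A ⊗ₖ B) s t) = A s t • Ψ B := by
    intro s t
    rw [← hΨ.1.map_smul]
    congr 1
  ext ⟨s, i⟩ ⟨t, j⟩
  rw [tensor_apply]
  simp only [hb, Matrix.smul_apply, smul_eq_mul, Matrix.kroneckerMap_apply, gadMap, Matrix.of_apply]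
  cases s <;> cases t <;>
    simp only [Bool.true_eq_false, Bool.false_eq_true, and_self, if_false, if_true, false_and,
      and_false] <;> ring

theorem tensor_linear {γ ν : ℝ} {Ψ : Matrix d d ℂ → Matrix e e ℂ} (hΨ : IsChannel Ψ) :
    IsLinearMap ℂ (qubitTensor (gadMap γ ν) Ψ) := by
  have hadd : ∀ (x y : Matrix (Bool × d) (Bool × d) ℂ) (s t : Bool),
      Ψ (block (x + y) s t) = Ψ (block x s t) + Ψ (block y s t) := by
    intro x y s t
    rw [← hΨ.1.map_add]
    rfl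
  have hsm : ∀ (c : ℂ) (x : Matrix (Bool × d) (Bool × d) ℂ) (s t : Bool),
      Ψ (block (c • x) s t) = c • Ψ (block x s t) := by
    intro c x s t
    rw [← hΨ.1.map_smul]
    rfl
  refine ⟨fun x y => ?_, fun c x => ?_⟩
  · ext ⟨s, i⟩ ⟨t, j⟩
    simp only [tensor_apply, Matrix.add_apply, hadd]
    split_ifs <;> ring
  · ext ⟨s, i⟩ ⟨t, j⟩
    simp only [tensor_apply, Matrix.smul_apply, hsm, smul_eq_mul]
    split_ifs <;> ring

end Crest.Agent.AD
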