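import Crest.Prelude.Def_AmpDamp

/-! Row 341 (S0534, S0535), fact (**): the output entropy of the generalized amplitude-damping
channel on the pure state with excited population `p` is a convex function of `p`. -/

set_option autoImplicit false

namespace Crest.Agent.AD

open Real

/-- entropy of a qubit state with `4 det = y ^ 2` -/
noncomputable def chi (y : ℝ) : ℝ := Real.binEntropy ((1 + √(1 - y ^ 2)) / 2)

theorem arsinh_concaveOn : ConcaveOn ℝ (Set.Ici (0 : ℝ)) arsinh := by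
  refine AntitoneOn.concaveOn_of_deriv (convex_Ici 0) continuous_arsinh.continuousOn
    differentiable_arsinh.differentiableOn ?_
  intro x hx y hy hxy
  rw [interior_Ici] at hx hy
  simp only [Set.mem_Ioi] at hx hy
  rw [(hasDerivAt_arsinh x).deriv, (hasDerivAt_arsinh y).deriv]
  have h1 : 0 < √(1 + x ^ 2) := Real.sqrt_pos.2 (by positivity)
  refine inv_anti₀ h1 (Real.sqrt_le_sqrt ?_)
  nlinarith

theorem arsinh_div_antitone {a b : ℝ} (ha : 0 < a) (hab : a ≤ b) :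
    arsinh b / b ≤ arsinh a / a := by
  have hb : 0 < b := lt_of_lt_of_le ha hab
  have q1 : 0 ≤ a / b := by positivity
  have q2 : 0 ≤ 1 - a / b := by rw [sub_nonneg, div_le_one hb]; exact hab
  have q3 : a / b + (1 - a / b) = 1 := by ring
  have h := arsinh_concaveOn.2 (Set.mem_Ici.2 hb.le) (Set.mem_Ici.2 (le_refl (0 : ℝ))) q1 q2 q3
  simp only [smul_eq_mul, arsinh_zero, mul_zero, add_zero] at h
  rw [div_mul_cancel₀ a hb.ne'] at h
  rw [div_le_div_iff₀ hb ha]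
  have h2 : a / b * arsinh b * b = arsinh b * a := by field_simp
  nlinarith

theorem hasDerivAt_chi {y : ℝ} (h0 : 0 < y) (h1 : y < 1) :
    HasDerivAt chi (arsinh (√(1 - y ^ 2) / y) / (√(1 - y ^ 2) / y)) y := by
  have hy2 : 0 < 1 - y ^ 2 := by nlinarith
  set r := √(1 - y ^ 2) with hr
  have hr0 : 0 < r := Real.sqrt_pos.2 hy2
  have hr2 : r ^ 2 = 1 - y ^ 2 := Real.sq_sqrt hy2.le
  have hr1 : r < 1 := by nlinarith
  have hd1 : HasDerivAt (fun y : ℝ => 1 - y ^ 2) (-(2 * y)) y := by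
    have := (hasDerivAt_pow 2 y).const_sub 1
    simpa using this
  have hd2 : HasDerivAt (fun y : ℝ => √(1 - y ^ 2)) (-(2 * y) / (2 * r)) y :=
    hd1.sqrt hy2.ne'
  have hd3 : HasDerivAt (fun y : ℝ => (1 + √(1 - y ^ 2)) / 2) (-(2 * y) / (2 * r) / 2) y :=
    (hd2.const_add 1).div_const 2
  have hb : HasDerivAt Real.binEntropy (log (1 - (1 + r) / 2) - log ((1 + r) / 2)) ((1 + r) / 2) :=
    Real.hasDerivAt_binEntropy (by positivity) (by intro h; linarith)
  have hc := HasDerivAt.comp y hb hd3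
  have hval : (log (1 - (1 + r) / 2) - log ((1 + r) / 2)) * (-(2 * y) / (2 * r) / 2) =
      arsinh (r / y) / (r / y) := by
    have e1 : (1 - (1 + r) / 2) = (1 - r) / 2 := by ring
    have e2 : arsinh (r / y) = (log (1 + r) - log (1 - r)) / 2 := by
      have hs : √(1 + (r / y) ^ 2) = 1 / y := by
        rw [show 1 + (r / y) ^ 2 = (1 / y) ^ 2 by
          rw [div_pow, hr2]; field_simp; ring]
        exact Real.sqrt_sq (by positivity)
      have h2 : log (1 + r) - log (1 - r) = 2 * log ((1 + r) / y) := by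
        rw [Real.log_div (by positivity) h0.ne']
        have h3 : log (1 - r) + log (1 + r) = 2 * log y := by
          rw [← Real.log_mul (by linarith) (by positivity),
            show (1 - r) * (1 + r) = y ^ 2 by nlinarith]
          rw [Real.log_pow]; norm_num
        linarith
      rw [arsinh, hs, h2, ← add_div, add_comm r 1]
      ring
    rw [e1, e2, Real.log_div (by linarith) two_ne_zero, Real.log_div (by positivity) two_ne_zero]
    field_simp
    ring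
  rw [← hval]
  exact hc

theorem continuous_chi : Continuous chi := by
  unfold chi
  exact Real.binEntropy_continuous.comp (by fun_prop)

theorem chi_convexOn : ConvexOn ℝ (Set.Icc (0 : ℝ) 1) chi := by
  refine MonotoneOn.convexOn_of_deriv (convex_Icc 0 1) continuous_chi.continuousOn ?_ ?_
  · rw [interior_Icc]
    intro y hy
    exact (hasDerivAt_chi hy.1 hy.2).differentiableAt.differentiableWithinAt
  · rw [interior_Icc]
    intro x hx y hy hxy
    rw [(hasDerivAt_chi hx.1 hx.2).deriv, (hasDerivAt_chi hy.1 hy.2).deriv]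
    have hy2 : 0 < 1 - y ^ 2 := by nlinarith [hy.1, hy.2]
    have hyr : 0 < √(1 - y ^ 2) := Real.sqrt_pos.2 hy2
    refine arsinh_div_antitone (div_pos hyr hy.1) ?_
    refine div_le_div₀ (Real.sqrt_nonneg _) (Real.sqrt_le_sqrt ?_) hx.1 hxy
    nlinarith [hx.1, hy.1]

theorem chi_monotoneOn : MonotoneOn chi (Set.Icc (0 : ℝ) 1) := by
  refine monotoneOn_of_deriv_nonneg (convex_Icc 0 1) continuous_chi.continuousOn ?_ ?_
  · rw [interior_Icc]
    intro y hy
    exact (hasDerivAt_chi hy.1 hy.2).differentiableAt.differentiableWithinAt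
  · rw [interior_Icc]
    intro y hy
    rw [(hasDerivAt_chi hy.1 hy.2).deriv]
    have hz : 0 ≤ √(1 - y ^ 2) / y := div_nonneg (Real.sqrt_nonneg _) hy.1.le
    exact div_nonneg (arsinh_nonneg_iff.2 hz) hz

/-- `x ↦ √(a + c (x - ν)²)` is convex. -/
theorem sqrt_quad_convexOn (a c ν : ℝ) (ha : 0 ≤ a) (hc : 0 ≤ c) :
    ConvexOn ℝ (Set.univ : Set ℝ) (fun p => √(a + c * (p - ν) ^ 2)) := by
  refine ⟨convex_univ, ?_⟩
  intro x _ y _ s t hs ht hst
  simp only [smul_eq_mul]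
  set X := √(a + c * (x - ν) ^ 2)
  set Y := √(a + c * (y - ν) ^ 2)
  have hX0 : 0 ≤ X := Real.sqrt_nonneg _
  have hY0 : 0 ≤ Y := Real.sqrt_nonneg _
  have hX : X ^ 2 = a + c * (x - ν) ^ 2 := Real.sq_sqrt (by positivity)
  have hY : Y ^ 2 = a + c * (y - ν) ^ 2 := Real.sq_sqrt (by positivity)
  have hXY : a + c * ((x - ν) * (y - ν)) ≤ X * Y := by
    refine le_of_sq_le_sq ?_ (mul_nonneg hX0 hY0) 
    rw [mul_pow, hX, hY]
    nlinarith [mul_nonneg (mul_nonneg ha hc) (sq_nonneg ((x - ν) - (y - ν)))]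
  refine Real.sqrt_le_iff.2 ⟨by positivity, ?_⟩
  have e : s * x + t * y - ν = s * (x - ν) + t * (y - ν) := by
    have : ν = (s + t) * ν := by rw [hst, one_mul]
    linear_combination (-1 : ℝ) * this
  rw [e]
  have h2 : a = a * (s + t) ^ 2 := by rw [hst]; ring
  have h3 : (s * X + t * Y) ^ 2 = s ^ 2 * X ^ 2 + t ^ 2 * Y ^ 2 + 2 * (s * t) * (X * Y) := by ring
  rw [h3, hX, hY]
  have h4 := mul_le_mul_of_nonneg_left hXY (mul_nonneg (mul_nonneg (by norm_num : (0:ℝ) ≤ 2) hs) ht)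
  nlinarith [h4, h2]

/-- `g p`: entropy of the channel output on the pure state with excited population `p`. -/
noncomputable def gE (γ ν p : ℝ) : ℝ :=
  Real.binEntropy ((1 + √(1 - 4 * (γ * ν * (1 - ν) + γ * (1 - γ) * (p - ν) ^ 2))) / 2)

theorem four_v_le_one {γ ν p : ℝ} (hγ : γ ∈ Set.Icc (0 : ℝ) 1) (hp : p ∈ Set.Icc (0 : ℝ) 1) :
    4 * (γ * ν * (1 - ν) + γ * (1 - γ) * (p - ν) ^ 2) ≤ 1 := by
  have h : 1 - 4 * (γ * ν * (1 - ν) + γ * (1 - γ) * (p - ν) ^ 2) =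
      (1 - 2 * ((1 - γ) * p + γ * ν)) ^ 2 + 4 * ((1 - γ) * (p * (1 - p))) := by ring
  have h2 : 0 ≤ (1 - γ) * (p * (1 - p)) :=
    mul_nonneg (by linarith [hγ.2]) (mul_nonneg hp.1 (by linarith [hp.2]))
  nlinarith [sq_nonneg (1 - 2 * ((1 - γ) * p + γ * ν))]

theorem four_v_nonneg {γ ν p : ℝ} (hγ : γ ∈ Set.Icc (0 : ℝ) 1) (hν : ν ∈ Set.Icc (0 : ℝ) 1) :
    0 ≤ 4 * (γ * ν * (1 - ν) + γ * (1 - γ) * (p - ν) ^ 2) := by
  have h1 : 0 ≤ γ * ν * (1 - ν) := mul_nonneg (mul_nonneg hγ.1 hν.1) (by linarith [hν.2])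
  have h2 : 0 ≤ γ * (1 - γ) * (p - ν) ^ 2 :=
    mul_nonneg (mul_nonneg hγ.1 (by linarith [hγ.2])) (sq_nonneg _)
  linarith

theorem gE_eq_chi {γ ν p : ℝ} (hγ : γ ∈ Set.Icc (0 : ℝ) 1) (hν : ν ∈ Set.Icc (0 : ℝ) 1) :
    gE γ ν p = chi (√(4 * (γ * ν * (1 - ν)) + 4 * (γ * (1 - γ)) * (p - ν) ^ 2)) := by
  unfold gE chi
  rw [Real.sq_sqrt]
  · congr 5; ring
  · have := four_v_nonneg (p := p) hγ hν
    linarith

/-- Fact (**): `g` is convex on `[0, 1]`. -/
theorem gE_convexOn {γ ν : ℝ} (hγ : γ ∈ Set.Icc (0 : ℝ) 1) (hν : ν ∈ Set.Icc (0 : ℝ) 1) :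
    ConvexOn ℝ (Set.Icc (0 : ℝ) 1) (gE γ ν) := by
  refine ⟨convex_Icc 0 1, ?_⟩
  intro x hx y hy s t hs ht hst
  have ha : 0 ≤ 4 * (γ * ν * (1 - ν)) := by
    have : 0 ≤ γ * ν * (1 - ν) := mul_nonneg (mul_nonneg hγ.1 hν.1) (by linarith [hν.2])
    linarith
  have hc : 0 ≤ 4 * (γ * (1 - γ)) := by
    have : 0 ≤ γ * (1 - γ) := mul_nonneg hγ.1 (by linarith [hγ.2])
    linarith
  have hmem : ∀ p ∈ Set.Icc (0 : ℝ) 1,
      √(4 * (γ * ν * (1 - ν)) + 4 * (γ * (1 - γ)) * (p - ν) ^ 2) ∈ Set.Icc (0 : ℝ) 1 := by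
    intro p hp
    refine ⟨Real.sqrt_nonneg _, ?_⟩
    have := four_v_le_one (ν := ν) hγ hp
    exact Real.sqrt_le_iff.2 ⟨zero_le_one, by linarith⟩
  have hz : s • x + t • y ∈ Set.Icc (0 : ℝ) 1 := convex_Icc 0 1 hx hy hs ht hst
  rw [gE_eq_chi hγ hν, gE_eq_chi hγ hν, gE_eq_chi hγ hν]
  have h1 := (sqrt_quad_convexOn _ _ ν ha hc).2 (Set.mem_univ x) (Set.mem_univ y) hs ht hst
  simp only at h1
  have h2 := chi_convexOn.2 (hmem x hx) (hmem y hy) hs ht hst
  refine le_trans (chi_monotoneOn (hmem _ hz) ?_ h1) h2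
  exact convex_Icc 0 1 (hmem x hx) (hmem y hy) hs ht hst

theorem gE_sub_binEntropy_convexOn {γ ν : ℝ} (hγ : γ ∈ Set.Icc (0 : ℝ) 1)
    (hν : ν ∈ Set.Icc (0 : ℝ) 1) :
    ConvexOn ℝ (Set.Icc (0 : ℝ) 1) (fun p => gE γ ν p - Real.binEntropy p) :=
  (gE_convexOn hγ hν).sub Real.strictConcave_binEntropy.concaveOn

/-- perspective function `G(x,y) = (x+y) (g - h₂)(y/(x+y))`. -/
noncomputable def persp (f : ℝ → ℝ) (x y : ℝ) : ℝ := (x + y) * f (y / (x + y))

theorem div_add_mem_Icc {x y : ℝ} (hx : 0 ≤ x) (hy : 0 ≤ y) :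
    y / (x + y) ∈ Set.Icc (0 : ℝ) 1 :=
  ⟨by positivity, div_le_one_of_le₀ (by linarith) (by positivity)⟩

/-- The perspective of a convex function on `[0,1]` is subadditive (finite sums). -/
theorem persp_sum_le {f : ℝ → ℝ} (hf : ConvexOn ℝ (Set.Icc (0 : ℝ) 1) f) {ι : Type*}
    (s : Finset ι) (x y : ι → ℝ) (hx : ∀ i ∈ s, 0 ≤ x i) (hy : ∀ i ∈ s, 0 ≤ y i) :
    persp f (∑ i ∈ s, x i) (∑ i ∈ s, y i) ≤ ∑ i ∈ s, persp f (x i) (y i) := by
  unfold persp
  rw [← Finset.sum_add_distrib]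
  set T := ∑ i ∈ s, (x i + y i) with hT
  have hT0 : 0 ≤ T := Finset.sum_nonneg fun i hi => add_nonneg (hx i hi) (hy i hi)
  rcases hT0.eq_or_lt with h0 | h0
  · rw [← h0, zero_mul]
    have hz : ∀ i ∈ s, x i + y i = 0 :=
      (Finset.sum_eq_zero_iff_of_nonneg fun i hi => add_nonneg (hx i hi) (hy i hi)).1 h0.symm
    refine le_of_eq (Finset.sum_eq_zero fun i hi => ?_).symm
    rw [hz i hi, zero_mul]
  · have h := hf.map_sum_le (t := s) (w := fun i => (x i + y i) / T)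
      (p := fun i => y i / (x i + y i))
      (fun i hi => div_nonneg (add_nonneg (hx i hi) (hy i hi)) hT0)
      (by rw [← Finset.sum_div, ← hT, div_self h0.ne'])
      (fun i hi => div_add_mem_Icc (hx i hi) (hy i hi))
    simp only [smul_eq_mul] at h
    have e : ∑ i ∈ s, (x i + y i) / T * (y i / (x i + y i)) = (∑ i ∈ s, y i) / T := by
      rw [Finset.sum_div]
      refine Finset.sum_congr rfl fun i hi => ?_
      rcases (add_nonneg (hx i hi) (hy i hi)).eq_or_lt with h1 | h1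
      · have : y i = 0 := by linarith [hx i hi, hy i hi]
        rw [← h1, this]; simp
      · field_simp
    rw [e] at h
    calc T * f ((∑ i ∈ s, y i) / T) ≤ T * ∑ i ∈ s, (x i + y i) / T * f (y i / (x i + y i)) :=
          mul_le_mul_of_nonneg_left h hT0
      _ = ∑ i ∈ s, (x i + y i) * f (y i / (x i + y i)) := by
          rw [Finset.mul_sum]
          refine Finset.sum_congr rfl fun i _ => ?_
          field_simp

end Crest.Agent.AD
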