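import Mathlib
import Crest.Agent.AD.ConvexG

set_option autoImplicit false
open Crest.Quantum Crest.MathPhysics.AmpDamp
open scoped ComplexOrder

namespace Crest.Agent.AD

theorem gadRate_eq (γ ν p : ℝ) :
    gadRate γ ν p = Real.binEntropy ((1 - γ) * p + γ * ν) - gE γ ν p := rfl

/-- reduced state on the second system (trace over the first). -/
noncomputable def trL {k d : Type} [Fintype k] (M : Matrix (k × d) (k × d) ℂ) : Matrix d d ℂ :=
  ∑ s, block M s s

/-- reduced state on the first system (trace over the second). -/
noncomputable def trR {k d : Type} [Fintype d] (M : Matrix (k × d) (k × d) ℂ) : Matrix k k ℂ :=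
  Matrix.of fun s t => (block M s t).trace

/-- excited population of a matrix on `Bool × d`. -/
noncomputable def pop {d : Type} [Fintype d] (M : Matrix (Bool × d) (Bool × d) ℂ) : ℝ :=
  ((block M true true).trace).re

end Crest.Agent.AD
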