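import Crest.Agent.AD.E3Defs

set_option autoImplicit false
open Matrix
open scoped ComplexOrder

namespace Crest.Agent.AD

variable {n : Type} [Fintype n] [DecidableEq n]

theorem det_smul_one_add {A : Matrix n n ℂ} (hA : A.IsHermitian) (t : ℂ) :
    (t • (1 : Matrix n n ℂ) + A).det = ∏ i, (t + (hA.eigenvalues i : ℂ)) := by
  set U : Matrix n n ℂ := (hA.eigenvectorUnitary : Matrix n n ℂ) with hU
  have hUU : U * star U = 1 := Unitary.mul_star_self_of_mem hA.eigenvectorUnitary.2
  have hs : A = U * diagonal (fun i => (hA.eigenvalues i : ℂ)) * star U := by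
    conv_lhs => rw [hA.spectral_theorem, Unitary.conjStarAlgAut_apply]
    rfl
  have h1 : t • (1 : Matrix n n ℂ) + A
      = U * diagonal (fun i => t + (hA.eigenvalues i : ℂ)) * star U := by
    have h2 : diagonal (fun i => t + (hA.eigenvalues i : ℂ))
        = t • (1 : Matrix n n ℂ) + diagonal (fun i => (hA.eigenvalues i : ℂ)) := by
      ext i j
      by_cases h : i = j
      · subst h; simp
      · simp [h]
    rw [h2, mul_add, add_mul, ← hs, mul_smul_comm, mul_one, smul_mul_assoc, hUU]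
  rw [h1, det_mul, det_mul, det_diagonal]
  have hd : U.det * (star U).det = 1 := by rw [← det_mul, hUU, det_one]
  linear_combination (∏ i, (t + (hA.eigenvalues i : ℂ))) * hd

theorem one_le_det_one_add {B : Matrix n n ℂ} (hB : B.PosSemidef) : (1 : ℂ) ≤ (1 + B).det := by
  have h := det_smul_one_add hB.1 1
  rw [one_smul] at h
  rw [h]
  have : ∀ i, (1 : ℂ) + (hB.1.eigenvalues i : ℂ) = ((1 + hB.1.eigenvalues i : ℝ) : ℂ) := by
    intro i; push_cast; ring
  simp only [this]
  rw [← Complex.ofReal_prod]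
  have h1 : (1 : ℝ) ≤ ∏ i, (1 + hB.1.eigenvalues i) := by
    have h2 : ∏ _i : n, (1 : ℝ) ≤ ∏ i, (1 + hB.1.eigenvalues i) :=
      Finset.prod_le_prod (fun i _ => zero_le_one) (fun i _ => by
        have := hB.eigenvalues_nonneg i
        linarith)
    simpa using h2
  exact_mod_cast h1

open scoped MatrixOrder in
theorem exists_factor {A : Matrix n n ℂ} (hA : A.PosSemidef) : ∃ C : Matrix n n ℂ, A = Cᴴ * C := by
  obtain ⟨C, hC⟩ := CStarAlgebra.nonneg_iff_eq_star_mul_self.mp hA.nonneg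
  exact ⟨C, hC⟩

theorem det_le_det_add {A B : Matrix n n ℂ} (hA : A.PosDef) (hB : B.PosSemidef) :
    A.det ≤ (A + B).det := by
  obtain ⟨C, hC⟩ := exists_factor hA.posSemidef
  have hdet : A.det ≠ 0 := by
    have := hA.det_pos
    exact this.ne'
  have hCdet : C.det ≠ 0 := by
    intro h
    apply hdet
    rw [hC, det_mul, h, mul_zero]
  have hCu : IsUnit C.det := isUnit_iff_ne_zero.2 hCdet
  have hCinv : C⁻¹ * C = 1 := nonsing_inv_mul C hCu
  have hCinv' : Cᴴ * (C⁻¹)ᴴ = 1 := by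
    rw [← conjTranspose_mul, hCinv, conjTranspose_one]
  set D : Matrix n n ℂ := (C⁻¹)ᴴ * B * C⁻¹ with hD
  have hDpsd : D.PosSemidef := hB.conjTranspose_mul_mul_same C⁻¹
  have hsum : A + B = Cᴴ * (1 + D) * C := by
    rw [mul_add, add_mul, mul_one, ← hC, hD]
    congr 1
    calc B = (Cᴴ * (C⁻¹)ᴴ) * B * (C⁻¹ * C) := by rw [hCinv', hCinv, one_mul, mul_one]
      _ = Cᴴ * ((C⁻¹)ᴴ * B * C⁻¹) * C := by simp only [Matrix.mul_assoc]
  have h1 := one_le_det_one_add hDpsd
  have e1 : (A + B).det = A.det * (1 + D).det := by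
    rw [hsum, det_mul, det_mul, hC, det_mul]; ring
  rw [e1]
  have hpos := hA.det_pos
  calc A.det = A.det * 1 := (mul_one _).symm
    _ ≤ A.det * (1 + D).det := by
        apply mul_le_mul_of_nonneg_left h1 hpos.le

theorem det_mono_le {A B : Matrix n n ℂ} (hA : A.PosDef) (hB : (B - A).PosSemidef) :
    A.det ≤ B.det := by
  have := det_le_det_add hA hB
  rwa [add_sub_cancel] at this

/-- algebraic core (Hua): `‖det (1 - Y²)‖ ≥ det (1 - Yᴴ Y)` for a strict contraction `Y`. -/
theorem hua {Y : Matrix n n ℂ} (h1 : (1 - Yᴴ * Y).PosDef) (h2 : (1 - Y * Yᴴ).PosDef) :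
    (1 - Yᴴ * Y).det.re ≤ ‖(1 - Y * Y).det‖ := by
  set a : Matrix n n ℂ := (1 - Yᴴ * Y)⁻¹ with ha
  set b : Matrix n n ℂ := (1 - Y * Yᴴ)⁻¹ with hb
  have hu1 : IsUnit (1 - Yᴴ * Y).det := isUnit_iff_ne_zero.2 h1.det_pos.ne'
  have hu2 : IsUnit (1 - Y * Yᴴ).det := isUnit_iff_ne_zero.2 h2.det_pos.ne'
  have ha1 : (1 - Yᴴ * Y) * a = 1 := mul_nonsing_inv _ hu1
  have ha2 : a * (1 - Yᴴ * Y) = 1 := nonsing_inv_mul _ hu1
  have hb1 : (1 - Y * Yᴴ) * b = 1 := mul_nonsing_inv _ hu2
  have hb2 : b * (1 - Y * Yᴴ) = 1 := nonsing_inv_mul _ hu2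
  -- Y a = b Y
  have hYa : Y * a = b * Y := by
    have : (1 - Y * Yᴴ) * (Y * a) = Y := by
      calc (1 - Y * Yᴴ) * (Y * a) = Y * ((1 - Yᴴ * Y) * a) := by noncomm_ring
        _ = Y := by rw [ha1, mul_one]
    calc Y * a = (b * (1 - Y * Yᴴ)) * (Y * a) := by rw [hb2, one_mul]
      _ = b * ((1 - Y * Yᴴ) * (Y * a)) := by rw [mul_assoc]
      _ = b * Y := by rw [this]
  have haY : a * Yᴴ = Yᴴ * b := by
    have : (1 - Yᴴ * Y) * (Yᴴ * b) = Yᴴ := by
      calc (1 - Yᴴ * Y) * (Yᴴ * b) = Yᴴ * ((1 - Y * Yᴴ) * b) := by noncomm_ring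
        _ = Yᴴ := by rw [hb1, mul_one]
    calc a * Yᴴ = a * ((1 - Yᴴ * Y) * (Yᴴ * b)) := by rw [this]
      _ = (a * (1 - Yᴴ * Y)) * (Yᴴ * b) := by rw [mul_assoc]
      _ = Yᴴ * b := by rw [ha2, one_mul]
  have e1 : Yᴴ * Y * a = a - 1 := by
    have : (1 - Yᴴ * Y) * a = a - Yᴴ * Y * a := by noncomm_ring
    rw [this] at ha1
    rw [← ha1]; noncomm_ring
  have e2 : Y * Yᴴ * b = b - 1 := by
    have : (1 - Y * Yᴴ) * b = b - Y * Yᴴ * b := by noncomm_ring
    rw [this] at hb1
    rw [← hb1]; noncomm_ring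
  -- the identity
  have hid : (1 - Yᴴ * Y) + (Y - Yᴴ)ᴴ * a * (Y - Yᴴ) = (1 - Yᴴ * Yᴴ) * b * (1 - Y * Y) := by
    rw [conjTranspose_sub, conjTranspose_conjTranspose]
    have r1 : Y * a * Yᴴ = b - 1 := by
      rw [mul_assoc, haY, ← mul_assoc, e2]
    have r2 : Yᴴ * Yᴴ * b = Yᴴ * a * Yᴴ := by
      rw [mul_assoc, ← haY, ← mul_assoc]
    have r3 : b * (Y * Y) = Y * a * Y := by
      rw [← mul_assoc, ← hYa]
    have r4 : Yᴴ * a * Yᴴ * (Y * Y) = Yᴴ * a * Y - Yᴴ * Y := by
      have : Yᴴ * a * Yᴴ * (Y * Y) = Yᴴ * (a * (Yᴴ * Y)) * Y := by simp only [mul_assoc]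
      rw [this]
      have e3 : a * (Yᴴ * Y) = a - 1 := by
        have : a * (1 - Yᴴ * Y) = a - a * (Yᴴ * Y) := by noncomm_ring
        rw [this] at ha2
        rw [← ha2]; noncomm_ring
      rw [e3]; noncomm_ring
    have l1 : (1 - Yᴴ * Yᴴ) * b * (1 - Y * Y)
        = b - Yᴴ * Yᴴ * b - b * (Y * Y) + Yᴴ * Yᴴ * b * (Y * Y) := by noncomm_ring
    rw [l1, r2, r3, r4]
    have l2 : (Yᴴ - Y) * a * (Y - Yᴴ) = Yᴴ * a * Y - Yᴴ * a * Yᴴ - Y * a * Y + Y * a * Yᴴ := by
      noncomm_ring
    rw [l2, r1]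
    noncomm_ring
  have hapd : a.PosDef := h1.inv
  have hpsd : ((Y - Yᴴ)ᴴ * a * (Y - Yᴴ)).PosSemidef :=
    hapd.posSemidef.conjTranspose_mul_mul_same (Y - Yᴴ)
  have hle := det_le_det_add h1 hpsd
  rw [hid, det_mul, det_mul] at hle
  have hdet2 : (1 - Y * Yᴴ).det = (1 - Yᴴ * Y).det := by
    rw [det_one_sub_mul_comm]
  have hbdet : b.det * (1 - Yᴴ * Y).det = 1 := by
    rw [← hdet2, ← det_mul, hb2, det_one]
  have hconj : (1 - Yᴴ * Yᴴ).det = star ((1 - Y * Y).det) := by
    rw [← det_conjTranspose, conjTranspose_sub, conjTranspose_one, conjTranspose_mul]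
  rw [hconj] at hle
  -- now reals
  have hpos := h1.det_pos
  set x := (1 - Yᴴ * Y).det with hx
  set z := (1 - Y * Y).det with hz
  have hxre : x = (x.re : ℂ) := by
    rw [Complex.lt_def] at hpos
    apply Complex.ext
    · simp
    · simp [← hpos.2]
  have hxpos : 0 < x.re := by
    rw [Complex.lt_def] at hpos; simpa using hpos.1
  have hmul : x * x ≤ star z * z := by
    have := mul_le_mul_of_nonneg_right hle hpos.le
    calc x * x ≤ star z * b.det * z * x := this
      _ = star z * z * (b.det * x) := by ring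
      _ = star z * z := by rw [hbdet, mul_one]
  have h3 : star z * z = ((‖z‖ ^ 2 : ℝ) : ℂ) := by
    rw [Complex.star_def, Complex.conj_mul']; push_cast; rfl
  rw [h3, hxre, ← Complex.ofReal_mul] at hmul
  have h4 : x.re * x.re ≤ ‖z‖ ^ 2 := by exact_mod_cast hmul
  nlinarith [norm_nonneg z, abs_nonneg (‖z‖ - x.re)]


/-- midpoint lemma, normalised: `J` skew-Hermitian, `1 ± H` positive definite. -/
theorem mid_one {J H : Matrix n n ℂ} (hJ : Jᴴ = -J) (hH : H.IsHermitian)
    (hp : (1 + H).PosDef) (hm : (1 - H).PosDef) :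
    ‖(1 + J).det‖ ^ 2 * ((1 + H).det.re * (1 - H).det.re)
      ≤ ‖(1 + J + H).det‖ * ‖(1 + J - H).det‖ := by
  -- K = (1+J)⁻¹
  have hJJ : (1 + J)ᴴ * (1 + J) = 1 + Jᴴ * J := by
    rw [conjTranspose_add, conjTranspose_one, hJ]; noncomm_ring
  have hJpd : (1 + Jᴴ * J).PosDef := PosDef.add_posSemidef PosDef.one (posSemidef_conjTranspose_mul_self J)
  have hJdet : (1 + J).det ≠ 0 := by
    intro h
    have := hJpd.det_pos.ne'
    rw [← hJJ, det_mul, h, mul_zero] at this
    exact this rfl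
  have hJu : IsUnit (1 + J).det := isUnit_iff_ne_zero.2 hJdet
  set K : Matrix n n ℂ := (1 + J)⁻¹ with hK
  have hK1 : (1 + J) * K = 1 := mul_nonsing_inv _ hJu
  have hK2 : K * (1 + J) = 1 := nonsing_inv_mul _ hJu
  set Y : Matrix n n ℂ := K * H with hY
  -- H² < 1
  have hpd : (1 - H * H).PosDef := by
    have u1 : IsUnit (1 + H) := hp.isUnit
    have u2 : IsUnit (1 - H) := hm.isUnit
    have q1 : ((1 + H)ᴴ * (1 - H) * (1 + H)).PosDef :=
      hm.conjTranspose_mul_mul_same (mulVec_injective_iff_isUnit.2 u1)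
    have q2 : ((1 - H)ᴴ * (1 + H) * (1 - H)).PosDef :=
      hp.conjTranspose_mul_mul_same (mulVec_injective_iff_isUnit.2 u2)
    have hH' : Hᴴ = H := hH
    have e : (1 + H)ᴴ * (1 - H) * (1 + H) + (1 - H)ᴴ * (1 + H) * (1 - H)
        = (2 : ℂ) • (1 - H * H) := by
      rw [conjTranspose_add, conjTranspose_sub, conjTranspose_one, hH', two_smul]
      noncomm_ring
    have q3 := q1.add q2
    rw [e] at q3
    have q4 := q3.smul (a := (1 / 2 : ℂ)) (by norm_num)
    rwa [smul_smul, show (1 / 2 : ℂ) * 2 = 1 by norm_num, one_smul] at q4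
  have hHdet : (1 + H).det * (1 - H).det = (1 - H * H).det := by
    rw [← det_mul]; congr 1; noncomm_ring
  -- K^H K ≤ 1 and K K^H ≤ 1
  have hJK : (1 + J) * (1 + J)ᴴ = 1 + Jᴴ * J := by
    rw [conjTranspose_add, conjTranspose_one, hJ]; noncomm_ring
  have hKH1 : Kᴴ * (1 + J)ᴴ = 1 := by rw [← conjTranspose_mul, hK1, conjTranspose_one]
  have hKH2 : (1 + J)ᴴ * Kᴴ = 1 := by rw [← conjTranspose_mul, hK2, conjTranspose_one]
  have hKK : 1 - Kᴴ * K = (J * K)ᴴ * (J * K) := by
    have : Kᴴ * ((1 + J)ᴴ * (1 + J)) * K = 1 := by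
      calc Kᴴ * ((1 + J)ᴴ * (1 + J)) * K = (Kᴴ * (1 + J)ᴴ) * ((1 + J) * K) := by
            simp only [mul_assoc]
        _ = 1 := by rw [hKH1, hK1, mul_one]
    rw [hJJ] at this
    rw [conjTranspose_mul]
    rw [← this]; noncomm_ring
  have hYY : (1 - Yᴴ * Y) = (1 - H * H) + (J * K * H)ᴴ * (J * K * H) := by
    have hH' : Hᴴ = H := hH
    rw [hY, conjTranspose_mul, hH', conjTranspose_mul, hH']
    have : (1 : Matrix n n ℂ) - H * Kᴴ * (K * H) = (1 - H * H) + H * (1 - Kᴴ * K) * H := by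
      noncomm_ring
    rw [this, hKK]
    noncomm_ring
  have hYpd : (1 - Yᴴ * Y).PosDef := by
    rw [hYY]; exact hpd.add_posSemidef (posSemidef_conjTranspose_mul_self _)
  have hYpd' : (1 - Y * Yᴴ).PosDef := by
    have hps : (1 - Y * Yᴴ).PosSemidef := by
      -- Y Yᴴ = K H² Kᴴ ≤ K Kᴴ ≤ 1
      have hH' : Hᴴ = H := hH
      have e3 : 1 - Y * Yᴴ = K * (1 - H * H) * Kᴴ + (1 - K * Kᴴ) := by
        rw [hY, conjTranspose_mul, hH']; noncomm_ring
      have e4 : 1 - K * Kᴴ = (K * J) * (K * J)ᴴ := by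
        have : K * ((1 + J) * (1 + J)ᴴ) * Kᴴ = 1 := by
          calc K * ((1 + J) * (1 + J)ᴴ) * Kᴴ = (K * (1 + J)) * ((1 + J)ᴴ * Kᴴ) := by
                simp only [mul_assoc]
            _ = 1 := by rw [hK2, hKH2, mul_one]
        rw [hJK, hJ] at this
        rw [conjTranspose_mul, hJ]
        rw [← this]; noncomm_ring
      rw [e3, e4]
      exact (hpd.posSemidef.mul_mul_conjTranspose_same K).add (posSemidef_self_mul_conjTranspose _)
    rw [hps.posDef_iff_det_ne_zero]
    rw [det_one_sub_mul_comm]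
    exact hYpd.det_pos.ne'
  have hh := hua hYpd hYpd'
  have hdle : (1 - H * H).det.re ≤ (1 - Yᴴ * Y).det.re := by
    have := det_le_det_add hpd (posSemidef_conjTranspose_mul_self (J * K * H))
    rw [← hYY] at this
    exact (Complex.le_def.1 this).1
  have f1 : (1 + J + H).det = (1 + J).det * (1 + Y).det := by
    rw [← det_mul]; congr 1
    rw [mul_add, mul_one, hY, ← mul_assoc, hK1, one_mul]
  have f2 : (1 + J - H).det = (1 + J).det * (1 - Y).det := by
    rw [← det_mul]; congr 1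
    rw [mul_sub, mul_one, hY, ← mul_assoc, hK1, one_mul]
  have f3 : (1 + Y).det * (1 - Y).det = (1 - Y * Y).det := by
    rw [← det_mul]; congr 1; noncomm_ring
  have rp := hp.det_pos
  have rm := hm.det_pos
  have hre : (1 + H).det.re * (1 - H).det.re = (1 - H * H).det.re := by
    rw [← hHdet]
    rw [Complex.lt_def] at rp rm
    rw [Complex.mul_re, ← rp.2, ← rm.2]; simp
  rw [hre, f1, f2, norm_mul, norm_mul]
  have f4 : ‖(1 + Y).det‖ * ‖(1 - Y).det‖ = ‖(1 - Y * Y).det‖ := by rw [← norm_mul, f3]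
  have : ‖(1 + J).det‖ ^ 2 * (1 - H * H).det.re ≤ ‖(1 + J).det‖ ^ 2 * ‖(1 - Y * Y).det‖ :=
    mul_le_mul_of_nonneg_left (hdle.trans hh) (by positivity)
  calc _ ≤ ‖(1 + J).det‖ ^ 2 * ‖(1 - Y * Y).det‖ := this
    _ = _ := by rw [← f4]; ring


theorem re_pos_of_posDef {A : Matrix n n ℂ} (hA : A.PosDef) : 0 < A.det.re ∧ A.det = (A.det.re : ℂ) := by
  have h := hA.det_pos
  rw [Complex.lt_def] at h
  refine ⟨by simpa using h.1, ?_⟩
  apply Complex.ext
  · simp
  · simp [← h.2]

theorem mid_gen {E G J : Matrix n n ℂ} (hJ : Jᴴ = -J) (hE : E.PosDef)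
    (hp : (E + G).PosDef) (hm : (E - G).PosDef) :
    ‖(E + J).det‖ ^ 2 * ((E + G).det.re * (E - G).det.re)
      ≤ ‖(E + G + J).det‖ * ‖(E - G + J).det‖ * E.det.re ^ 2 := by
  obtain ⟨C, hC⟩ := exists_factor hE.posSemidef
  have hdet : E.det ≠ 0 := hE.det_pos.ne'
  have hCdet : C.det ≠ 0 := by
    intro h
    apply hdet
    rw [hC, det_mul, h, mul_zero]
  have hCu : IsUnit C.det := isUnit_iff_ne_zero.2 hCdet
  have hCinv : C⁻¹ * C = 1 := nonsing_inv_mul C hCu
  have hCinv2 : C * C⁻¹ = 1 := mul_nonsing_inv C hCu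
  have hCinv' : Cᴴ * (C⁻¹)ᴴ = 1 := by
    rw [← conjTranspose_mul, hCinv, conjTranspose_one]
  have hCinv3 : (C⁻¹)ᴴ * Cᴴ = 1 := by
    rw [← conjTranspose_mul, hCinv2, conjTranspose_one]
  -- congruence
  set c : Matrix n n ℂ → Matrix n n ℂ := fun X => (C⁻¹)ᴴ * X * C⁻¹ with hc
  have hcX : ∀ X, Cᴴ * c X * C = X := by
    intro X
    calc Cᴴ * ((C⁻¹)ᴴ * X * C⁻¹) * C = (Cᴴ * (C⁻¹)ᴴ) * X * (C⁻¹ * C) := by
          simp only [mul_assoc]
      _ = X := by rw [hCinv', hCinv, one_mul, mul_one]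
  have hadd : ∀ X Y, c (X + Y) = c X + c Y := by
    intro X Y; simp only [hc]; noncomm_ring
  have hsub : ∀ X Y, c (X - Y) = c X - c Y := by
    intro X Y; simp only [hc]; noncomm_ring
  have hcE : c E = 1 := by
    simp only [hc, hC]
    calc (C⁻¹)ᴴ * (Cᴴ * C) * C⁻¹ = ((C⁻¹)ᴴ * Cᴴ) * (C * C⁻¹) := by simp only [mul_assoc]
      _ = 1 := by rw [hCinv3, hCinv2, mul_one]
  have hpd : ∀ X : Matrix n n ℂ, X.PosDef → (c X).PosDef := by
    intro X hX
    apply hX.conjTranspose_mul_mul_same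
    apply mulVec_injective_iff_isUnit.2
    exact (isUnit_iff_isUnit_det _).2 (by rw [det_nonsing_inv]; exact isUnit_ringInverse.2 hCu)
  have hJ' : (c J)ᴴ = -(c J) := by
    simp only [hc]
    rw [conjTranspose_mul, conjTranspose_mul, conjTranspose_conjTranspose, hJ]; noncomm_ring
  have hGh : (c G).IsHermitian := by
    have e : c G = c (E + G) - c E := by rw [hadd]; noncomm_ring
    rw [e]
    exact (hpd _ hp).1.sub (hpd _ hE).1
  have key := mid_one (J := c J) (H := c G) hJ' hGh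
    (by rw [← hcE, ← hadd]; exact hpd _ hp) (by rw [← hcE, ← hsub]; exact hpd _ hm)
  rw [← hcE, ← hadd, ← hadd, ← hsub, ← hadd, ← hsub] at key
  -- determinants
  set r : ℝ := ‖C.det‖ ^ 2 with hr
  have hrpos : 0 < r := by positivity
  have hn : ∀ X, ‖X.det‖ = r * ‖(c X).det‖ := by
    intro X
    conv_lhs => rw [← hcX X, det_mul, det_mul, det_conjTranspose, norm_mul, norm_mul]
    rw [norm_star, hr]; ring
  have hre : ∀ X, X.det.re = r * (c X).det.re := by
    intro X
    have : X.det = (r : ℂ) * (c X).det := by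
      conv_lhs => rw [← hcX X, det_mul, det_mul, det_conjTranspose]
      have : star C.det * C.det = ((‖C.det‖ ^ 2 : ℝ) : ℂ) := by
        rw [Complex.star_def, Complex.conj_mul']; push_cast; rfl
      rw [hr, ← this]; ring
    rw [this, Complex.re_ofReal_mul]
  have hEre : E.det.re = r := by rw [hre, hcE]; simp
  have e1 : E + J + G = E + G + J := by abel
  have e2 : E + J - G = E - G + J := by abel
  rw [e1, e2] at key
  rw [hn (E + J), hn (E + G + J), hn (E - G + J), hre (E + G), hre (E - G), hEre]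
  nlinarith [mul_le_mul_of_nonneg_left key (by positivity : (0 : ℝ) ≤ r ^ 4)]

/-- sign-flip step -/
theorem flip_step {E J : Matrix n n ℂ} (hJ : Jᴴ = -J) (hE : E.PosDef) (σ : n → ℝ)
    (hσ : ∀ i, σ i = 1 ∨ σ i = -1) (hJσ : ∀ i j, σ i ≠ σ j → J i j = 0) :
    (Matrix.of fun i j => if σ i = σ j then E i j else 0).PosDef ∧
    ‖((Matrix.of fun i j => if σ i = σ j then E i j else 0) + J).det‖ * E.det.re
      ≤ ‖(E + J).det‖ * (Matrix.of fun i j => if σ i = σ j then E i j else 0 : Matrix n n ℂ).det.re := by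
  set Eb : Matrix n n ℂ := Matrix.of fun i j => if σ i = σ j then E i j else 0 with hEb
  set S : Matrix n n ℂ := diagonal (fun i => (σ i : ℂ)) with hS
  have hσ2 : ∀ i, (σ i : ℂ) * (σ i : ℂ) = 1 := by
    intro i
    rcases hσ i with h | h <;> rw [h] <;> norm_num
  have hSS : S * S = 1 := by
    rw [hS, diagonal_mul_diagonal]
    simp only [hσ2]
    exact diagonal_one
  have hSh : Sᴴ = S := by
    rw [hS, diagonal_conjTranspose]
    congr 1
    funext i
    simp
  have hSdet : S.det * S.det = 1 := by rw [← det_mul, hSS, det_one]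
  have hent : ∀ (X : Matrix n n ℂ) (i j : n), (S * X * S) i j = (σ i : ℂ) * X i j * (σ j : ℂ) := by
    intro X i j
    rw [hS, mul_diagonal, diagonal_mul]
  have hSinj : IsUnit S := IsUnit.of_mul_eq_one S hSS
  have hSE : (S * E * S).PosDef := by
    have := hE.conjTranspose_mul_mul_same (B := S) (mulVec_injective_iff_isUnit.2 hSinj)
    rwa [hSh] at this
  have havg : Eb = (1 / 2 : ℂ) • (E + S * E * S) := by
    ext i j
    rw [Matrix.smul_apply, Matrix.add_apply, hent, hEb, Matrix.of_apply, smul_eq_mul]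
    rcases hσ i with h | h <;> rcases hσ j with h' | h' <;> rw [h, h'] <;> norm_num
    · ring
    · ring
  have hEbpd : Eb.PosDef := by
    rw [havg]
    exact (hE.add hSE).smul (by norm_num)
  refine ⟨hEbpd, ?_⟩
  set G : Matrix n n ℂ := E - Eb with hG
  have hEG : Eb + G = E := by rw [hG]; abel
  have hEmG : Eb - G = S * E * S := by
    rw [hG]
    have : Eb - (E - Eb) = (2 : ℂ) • Eb - E := by rw [two_smul]; abel
    rw [this, havg, smul_smul]
    norm_num
  have key := mid_gen (E := Eb) (G := G) (J := J) hJ hEbpd (by rw [hEG]; exact hE)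
    (by rw [hEmG]; exact hSE)
  rw [hEG, hEmG] at key
  have hSJ : S * J * S = J := by
    ext i j
    rw [hent]
    by_cases h : σ i = σ j
    · rw [h]
      have := hσ2 j
      linear_combination (J i j) * this
    · rw [hJσ i j h]; simp
  have hd1 : (S * E * S + J).det = (E + J).det := by
    have : S * E * S + J = S * (E + J) * S := by
      rw [mul_add, add_mul, hSJ]
    rw [this, det_mul, det_mul]
    linear_combination (E + J).det * hSdet
  have hd2 : (S * E * S).det = E.det := by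
    rw [det_mul, det_mul]
    linear_combination E.det * hSdet
  rw [hd1, hd2] at key
  have hEre := (re_pos_of_posDef hE).1
  have hEbre := (re_pos_of_posDef hEbpd).1
  have k2 : (‖(Eb + J).det‖ * E.det.re) ^ 2 ≤ (‖(E + J).det‖ * Eb.det.re) ^ 2 := by
    calc _ = ‖(Eb + J).det‖ ^ 2 * (E.det.re * E.det.re) := by ring
      _ ≤ _ := key
      _ = _ := by ring
  exact abs_le_of_sq_le_sq' k2 (by positivity) |>.2

/-- pinching with respect to the fibres of `π` on `s` -/
theorem pinch_all {N n : Type} [Fintype N] [DecidableEq N] [DecidableEq n] (π : N → n)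
    {E J : Matrix N N ℂ} (hJ : Jᴴ = -J) (hE : E.PosDef) (hJπ : ∀ i j, π i ≠ π j → J i j = 0)
    (s : Finset n) :
    (Matrix.of fun i j => if π i = π j ∨ (π i ∉ s ∧ π j ∉ s) then E i j else 0 :
        Matrix N N ℂ).PosDef ∧
    ‖((Matrix.of fun i j => if π i = π j ∨ (π i ∉ s ∧ π j ∉ s) then E i j else 0 :
        Matrix N N ℂ) + J).det‖ * E.det.re
      ≤ ‖(E + J).det‖ * (Matrix.of fun i j =>
          if π i = π j ∨ (π i ∉ s ∧ π j ∉ s) then E i j else 0 : Matrix N N ℂ).det.re := by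
  induction s using Finset.induction_on with
  | empty =>
    have : (Matrix.of fun i j => if π i = π j ∨ (π i ∉ (∅ : Finset n) ∧ π j ∉ (∅ : Finset n))
        then E i j else 0 : Matrix N N ℂ) = E := by
      ext i j; simp
    rw [this]
    exact ⟨hE, le_rfl⟩
  | insert k s hk ih =>
    obtain ⟨ih1, ih2⟩ := ih
    set Es : Matrix N N ℂ := Matrix.of fun i j =>
      if π i = π j ∨ (π i ∉ s ∧ π j ∉ s) then E i j else 0 with hEs
    have hst := flip_step (E := Es) (J := J) hJ ih1 (fun i => if π i = k then -1 else 1)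
      (by intro i; by_cases h : π i = k <;> simp [h])
      (by
        intro i j h
        apply hJπ
        intro h'
        apply h
        simp only [h'])
    have e : (Matrix.of fun i j => if π i = π j ∨ (π i ∉ insert k s ∧ π j ∉ insert k s)
        then E i j else 0 : Matrix N N ℂ)
        = Matrix.of fun i j => if (if π i = k then (-1 : ℝ) else 1) = (if π j = k then -1 else 1)
          then Es i j else 0 := by
      ext i j
      simp only [Matrix.of_apply, hEs, Finset.mem_insert, not_or]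
      by_cases hi : π i = k <;> by_cases hj : π j = k
      · simp [hi, hj]
      · have : ¬ (k = π j) := fun h => hj h.symm
        have h2 : ¬ ((-1 : ℝ) = 1) := by norm_num
        simp [hi, hj, this, h2]
      · have : ¬ (k = π j) ∨ k = π j := by tauto
        have h2 : ¬ ((1 : ℝ) = -1) := by norm_num
        simp [hi, hj, h2]
      · simp [hi, hj]
    rw [e]
    refine ⟨hst.1, ?_⟩
    have h1 := (re_pos_of_posDef ih1).1
    have h2 := (re_pos_of_posDef hst.1).1
    have h3 := (re_pos_of_posDef hE).1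
    have hs2 := hst.2
    set Et : Matrix N N ℂ := Matrix.of fun i j =>
      if (if π i = k then (-1 : ℝ) else 1) = (if π j = k then -1 else 1)
          then Es i j else 0 with hEt
    have h4 : (‖(Et + J).det‖ * E.det.re) * Es.det.re ≤ (‖(E + J).det‖ * Et.det.re) * Es.det.re := by
      calc (‖(Et + J).det‖ * E.det.re) * Es.det.re = (‖(Et + J).det‖ * Es.det.re) * E.det.re := by
            ring
        _ ≤ (‖(Es + J).det‖ * Et.det.re) * E.det.re := by
            apply mul_le_mul_of_nonneg_right hs2 h3.le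
        _ = (‖(Es + J).det‖ * E.det.re) * Et.det.re := by ring
        _ ≤ (‖(E + J).det‖ * Es.det.re) * Et.det.re := by
            apply mul_le_mul_of_nonneg_right ih2 h2.le
        _ = _ := by ring
    exact le_of_mul_le_mul_right h4 h1

theorem posDef_fromBlocks {U V : Matrix n n ℂ} (hU : U.PosDef) (hV : V.PosDef) :
    (fromBlocks U 0 0 V).PosDef := by
  have h1 : (fromBlocks U 0 (0 : Matrix n n ℂ)ᴴ V).PosSemidef := by
    haveI : Invertible U := hU.isUnit.invertible
    rw [PosDef.fromBlocks₁₁ _ _ hU]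
    simpa using hV.posSemidef
  rw [conjTranspose_zero] at h1
  rw [h1.posDef_iff_isUnit]
  apply (isUnit_iff_isUnit_det _).2
  rw [det_fromBlocks_zero₂₁]
  exact IsUnit.mul ((isUnit_iff_isUnit_det _).1 hU.isUnit) ((isUnit_iff_isUnit_det _).1 hV.isUnit)

theorem pin {n : Type} [Fintype n] [DecidableEq n] {U V : Matrix n n ℂ} (hU : U.PosDef)
    (hV : V.PosDef) (δ : n → ℝ) (hδ : ∀ k, 0 ≤ δ k) :
    V.det.re * ∏ k, (1 + δ k ^ 2 / ((U k k).re * (V k k).re)) ≤
      (V + Matrix.diagonal (fun k => (δ k : ℂ)) * U⁻¹ * Matrix.diagonal (fun k => (δ k : ℂ))).det.re := by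
  set D : Matrix n n ℂ := Matrix.diagonal (fun k => (δ k : ℂ)) with hD
  have hDh : Dᴴ = D := by
    rw [hD, diagonal_conjTranspose]
    congr 1
    funext i
    simp
  have hJ : (fromBlocks 0 D (-D) 0)ᴴ = -(fromBlocks 0 D (-D) 0 : Matrix (n ⊕ n) (n ⊕ n) ℂ) := by
    rw [fromBlocks_conjTranspose, fromBlocks_neg]
    simp [hDh]
  have hE := posDef_fromBlocks hU hV
  obtain ⟨hEu, key⟩ := pinch_all (Sum.elim id id : n ⊕ n → n) hJ hE (by
    intro i j h
    rcases i with i | i <;> rcases j with j | j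
    · simp
    · simp only [fromBlocks_apply₁₂, hD]
      apply diagonal_apply_ne
      simpa using h
    · simp only [fromBlocks_apply₂₁, hD, Matrix.neg_apply, neg_eq_zero]
      apply diagonal_apply_ne
      simpa using h
    · simp) Finset.univ
  have hUk : ∀ k, 0 < (U k k).re ∧ U k k = ((U k k).re : ℂ) := by
    intro k
    have := hU.diag_pos (i := k)
    rw [Complex.pos_iff] at this
    exact ⟨this.1, by apply Complex.ext <;> simp [← this.2]⟩
  have hVk : ∀ k, 0 < (V k k).re ∧ V k k = ((V k k).re : ℂ) := by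
    intro k
    have := hV.diag_pos (i := k)
    rw [Complex.pos_iff] at this
    exact ⟨this.1, by apply Complex.ext <;> simp [← this.2]⟩
  have hEe : (Matrix.of fun i j => if (Sum.elim id id : n ⊕ n → n) i = (Sum.elim id id : n ⊕ n → n) j ∨
      ((Sum.elim id id : n ⊕ n → n) i ∉ (Finset.univ : Finset n) ∧
        (Sum.elim id id : n ⊕ n → n) j ∉ (Finset.univ : Finset n))
      then (fromBlocks U 0 0 V) i j else 0 : Matrix (n ⊕ n) (n ⊕ n) ℂ)
      = fromBlocks (diagonal fun k => ((U k k).re : ℂ)) 0 0 (diagonal fun k => ((V k k).re : ℂ)) := by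
    ext i j
    rcases i with i | i <;> rcases j with j | j
    · by_cases h : i = j
      · subst h; simp [← (hUk i).2]
      · simp [h]
    · simp only [of_apply, fromBlocks_apply₁₂, Matrix.zero_apply, ite_self]
    · simp only [of_apply, fromBlocks_apply₂₁, Matrix.zero_apply, ite_self]
    · by_cases h : i = j
      · subst h; simp [← (hVk i).2]
      · simp [h]
  rw [hEe] at key hEu
  haveI : Invertible U := hU.isUnit.invertible
  have hu : IsUnit (diagonal fun k => ((U k k).re : ℂ)) := by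
    rw [isUnit_iff_isUnit_det, det_diagonal, isUnit_iff_ne_zero, Finset.prod_ne_zero_iff]
    intro k _
    exact_mod_cast (hUk k).1.ne'
  haveI : Invertible (diagonal fun k => ((U k k).re : ℂ)) := hu.invertible
  have d1 : (fromBlocks U 0 0 V + fromBlocks 0 D (-D) 0).det = U.det * (V + D * U⁻¹ * D).det := by
    rw [fromBlocks_add, add_zero, zero_add, zero_add, add_zero, det_fromBlocks₁₁, invOf_eq_nonsing_inv]
    congr 2
    noncomm_ring
  have d2 : (fromBlocks (diagonal fun k => ((U k k).re : ℂ)) 0 0 (diagonal fun k => ((V k k).re : ℂ))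
      + fromBlocks 0 D (-D) 0).det
      = (((∏ k, (U k k).re) * ∏ k, ((V k k).re + δ k ^ 2 / (U k k).re) : ℝ) : ℂ) := by
    rw [fromBlocks_add, add_zero, zero_add, zero_add, add_zero, det_fromBlocks₁₁,
      invOf_eq_nonsing_inv]
    have hinv : (diagonal fun k => ((U k k).re : ℂ))⁻¹ = diagonal fun k => (((U k k).re)⁻¹ : ℂ) := by
      apply inv_eq_right_inv
      rw [diagonal_mul_diagonal]
      rw [← diagonal_one]
      congr 1
      funext k
      exact mul_inv_cancel₀ (by exact_mod_cast (hUk k).1.ne')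
    rw [hinv, hD, diagonal_neg, diagonal_mul_diagonal, diagonal_mul_diagonal, diagonal_sub,
      det_diagonal, det_diagonal]
    push_cast
    congr 1
    apply Finset.prod_congr rfl
    intro k _
    have : ((U k k).re : ℂ) ≠ 0 := by exact_mod_cast (hUk k).1.ne'
    field_simp
    ring
  have d3 : (fromBlocks U 0 0 V).det = U.det * V.det := det_fromBlocks_zero₂₁ _ _ _
  have d4 : (fromBlocks (diagonal fun k => ((U k k).re : ℂ)) 0 0
      (diagonal fun k => ((V k k).re : ℂ))).det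
      = (((∏ k, (U k k).re) * ∏ k, (V k k).re : ℝ) : ℂ) := by
    rw [det_fromBlocks_zero₂₁, det_diagonal, det_diagonal]
    push_cast
    rfl
  have hK : (V + D * U⁻¹ * D).PosDef := by
    apply hV.add_posSemidef
    have := hU.inv.posSemidef.conjTranspose_mul_mul_same D
    rwa [hDh] at this
  obtain ⟨kU, kU'⟩ := re_pos_of_posDef hU
  obtain ⟨kV, kV'⟩ := re_pos_of_posDef hV
  obtain ⟨kK, kK'⟩ := re_pos_of_posDef hK
  have pU : 0 < ∏ k, (U k k).re := Finset.prod_pos fun k _ => (hUk k).1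
  have pV : 0 < ∏ k, (V k k).re := Finset.prod_pos fun k _ => (hVk k).1
  have pK : 0 < ∏ k, ((V k k).re + δ k ^ 2 / (U k k).re) := Finset.prod_pos fun k _ => by
    have := (hUk k).1
    have := (hVk k).1
    positivity
  rw [d1, d2, d3, d4, kU', kV', kK'] at key
  rw [← Complex.ofReal_mul, ← Complex.ofReal_mul, Complex.norm_real, Complex.norm_real,
    Complex.ofReal_re, Complex.ofReal_re, Real.norm_of_nonneg (by positivity),
    Real.norm_of_nonneg (by positivity)] at key
  have hprod : (∏ k, ((V k k).re + δ k ^ 2 / (U k k).re))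
      = (∏ k, (V k k).re) * ∏ k, (1 + δ k ^ 2 / ((U k k).re * (V k k).re)) := by
    rw [← Finset.prod_mul_distrib]
    apply Finset.prod_congr rfl
    intro k _
    have h1 := (hUk k).1.ne'
    have h2 := (hVk k).1.ne'
    field_simp
  rw [hprod] at key
  have hc : 0 < (∏ k, (U k k).re) * (∏ k, (V k k).re) * U.det.re := by positivity
  have : ((∏ k, (U k k).re) * (∏ k, (V k k).re) * U.det.re)
        * (V.det.re * ∏ k, (1 + δ k ^ 2 / ((U k k).re * (V k k).re)))
      ≤ ((∏ k, (U k k).re) * (∏ k, (V k k).re) * U.det.re) * (V + D * U⁻¹ * D).det.re := by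
    calc _ = (∏ k, (U k k).re) * ((∏ k, (V k k).re)
          * ∏ k, (1 + δ k ^ 2 / ((U k k).re * (V k k).re))) * (U.det.re * V.det.re) := by ring
      _ ≤ _ := key
      _ = _ := by ring
  exact le_of_mul_le_mul_left this hc

end Crest.Agent.AD
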