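import Mathlib

set_option autoImplicit false
open scoped ComplexOrder

namespace Crest.Agent.AD

/-- rectangular singular value decomposition in the eigenbasis of `B Bᴴ`. -/
theorem svd_rect {e R : Type} [Fintype e] [DecidableEq e] [Fintype R] [DecidableEq R]
    (f : e ↪ R) (B : Matrix e R ℂ) {Y : Matrix e e ℂ} (hY : Y.IsHermitian) (h : Y = B * B.conjTranspose) :
    ∃ W ∈ Matrix.unitaryGroup R ℂ,
      (star (hY.eigenvectorUnitary : Matrix e e ℂ)) * B * W =
        Matrix.of fun k r => if f k = r then ((Real.sqrt (hY.eigenvalues k) : ℝ) : ℂ) else 0 := by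
  classical
  set U : Matrix e e ℂ := (hY.eigenvectorUnitary : Matrix e e ℂ) with hU
  set C : Matrix e R ℂ := star U * B with hC
  have hCC : C * C.conjTranspose = Matrix.diagonal (fun k => ((hY.eigenvalues k : ℝ) : ℂ)) := by
    have h1 := Matrix.IsHermitian.conjStarAlgAut_star_eigenvectorUnitary hY
    rw [Unitary.conjStarAlgAut_star_apply] at h1
    have h2 : C * C.conjTranspose = star U * Y * U := by
      rw [hC, Matrix.conjTranspose_mul, Matrix.star_eq_conjTranspose, Matrix.conjTranspose_conjTranspose]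
      conv_rhs => rw [h]
      simp only [Matrix.mul_assoc]
    rw [h2, hU]
    exact h1
  have hent : ∀ k l, ∑ j, C k j * star (C l j) = if k = l then ((hY.eigenvalues k : ℝ) : ℂ) else 0 := by
    intro k l
    have := congrFun (congrFun hCC k) l
    rw [Matrix.mul_apply, Matrix.diagonal_apply] at this
    simpa using this
  let y : e → ℝ := hY.eigenvalues
  let v : R → EuclideanSpace ℂ R := fun r =>
    if hr : ∃ k, f k = r then
      WithLp.toLp 2 (fun j => star (C hr.choose j) / ((Real.sqrt (y hr.choose) : ℝ) : ℂ)) else 0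
  have hv : ∀ k, v (f k) = WithLp.toLp 2 (fun j => star (C k j) / ((Real.sqrt (y k) : ℝ) : ℂ)) := by
    intro k
    have hr : ∃ k', f k' = f k := ⟨k, rfl⟩
    have : hr.choose = k := f.injective hr.choose_spec
    simp only [v, dif_pos hr, this]
  let s : Set R := {r | ∃ k, f k = r ∧ y k ≠ 0}
  have hy0 : ∀ k, 0 ≤ y k := by
    intro k
    have := hent k k
    rw [if_pos rfl] at this
    have h3 : ((∑ j, Complex.normSq (C k j) : ℝ) : ℂ) = ((y k : ℝ) : ℂ) := by
      rw [← this]
      push_cast
      refine Finset.sum_congr rfl fun j _ => ?_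
      rw [Complex.star_def, Complex.mul_conj]
    have h4 := Complex.ofReal_injective h3
    rw [← h4]
    exact Finset.sum_nonneg fun j _ => Complex.normSq_nonneg _
  have hon : Orthonormal ℂ (s.domRestrict v) := by
    rw [orthonormal_iff_ite]
    rintro ⟨r, k, rfl, hk⟩ ⟨r', l, rfl, hl⟩
    rw [Set.domRestrict_apply, Set.domRestrict_apply, hv, hv]
    rw [PiLp.inner_apply]
    have h5 : ∀ j, inner ℂ (star (C k j) / ((Real.sqrt (y k) : ℝ) : ℂ)) (star (C l j) / ((Real.sqrt (y l) : ℝ) : ℂ))
        = (C k j * star (C l j)) * ((1 / (Real.sqrt (y k) * Real.sqrt (y l)) : ℝ) : ℂ) := by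
      intro j
      rw [RCLike.inner_apply]
      simp only [map_div₀, Complex.conj_ofReal, Complex.star_def, Complex.conj_conj]
      push_cast
      ring
    simp only [h5]
    rw [← Finset.sum_mul, hent]
    by_cases hkl : k = l
    · subst hkl
      rw [if_pos rfl, if_pos rfl]
      rw [Real.mul_self_sqrt (hy0 k)]
      rw [← Complex.ofReal_mul]
      have : hY.eigenvalues k * (1 / y k) = 1 := mul_one_div_cancel hk
      rw [this]; simp
    · have h8 : (⟨f k, ⟨k, rfl, hk⟩⟩ : s) ≠ ⟨f l, ⟨l, rfl, hl⟩⟩ :=
        fun h => hkl (f.injective (Subtype.ext_iff.mp h))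
      rw [if_neg hkl, if_neg h8, zero_mul]
  obtain ⟨b, hb⟩ := Orthonormal.exists_orthonormalBasis_extension_of_card_eq
    (ι := R) (𝕜 := ℂ) (E := EuclideanSpace ℂ R) (by simp) (v := v) (s := s) hon
  refine ⟨Matrix.of fun j r => b r j, ?_, ?_⟩
  · rw [Matrix.mem_unitaryGroup_iff']
    ext r r'
    rw [Matrix.mul_apply, Matrix.one_apply]
    have := (orthonormal_iff_ite.mp b.orthonormal) r r'
    rw [← this, PiLp.inner_apply]
    refine Finset.sum_congr rfl fun j _ => ?_
    rw [RCLike.inner_apply, Matrix.star_apply]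
    simp [mul_comm]
  · ext k r
    rw [Matrix.mul_apply]
    simp only [Matrix.of_apply]
    by_cases hk : y k = 0
    · have hz : ∀ j, C k j = 0 := by
        have := hent k k
        rw [if_pos rfl] at this
        have h3 : ((∑ j, Complex.normSq (C k j) : ℝ) : ℂ) = ((y k : ℝ) : ℂ) := by
          rw [← this]
          push_cast
          refine Finset.sum_congr rfl fun j _ => ?_
          rw [Complex.star_def, Complex.mul_conj]
        have h4 := Complex.ofReal_injective h3
        rw [hk] at h4
        intro j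
        have := (Finset.sum_eq_zero_iff_of_nonneg (fun j _ => Complex.normSq_nonneg (C k j))).mp h4 j (Finset.mem_univ _)
        exact Complex.normSq_eq_zero.mp this
      have hk' : hY.eigenvalues k = 0 := hk
      simp [hz, hk']
    · have hin : f k ∈ s := ⟨k, rfl, hk⟩
      have hbk := hb (f k) hin
      rw [hv] at hbk
      have h6 := (orthonormal_iff_ite.mp b.orthonormal) (f k) r
      rw [PiLp.inner_apply] at h6
      have hsq : ((Real.sqrt (y k) : ℝ) : ℂ) ≠ 0 := by
        rw [Ne, Complex.ofReal_eq_zero, Real.sqrt_eq_zero (hy0 k)]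
        exact hk
      have h7 : ∀ j, C k j * b r j = ((Real.sqrt (y k) : ℝ) : ℂ) * inner ℂ (b (f k) j) (b r j) := by
        intro j
        rw [hbk, RCLike.inner_apply]
        simp only [map_div₀, Complex.conj_ofReal, Complex.star_def, Complex.conj_conj]
        field_simp
      simp only [h7]
      rw [← Finset.mul_sum, h6]
      split_ifs <;> simp [y]

/-- square singular value decomposition. -/
theorem svd {n : Type} [Fintype n] [DecidableEq n] (B : Matrix n n ℂ) :
    ∃ U ∈ Matrix.unitaryGroup n ℂ, ∃ W ∈ Matrix.unitaryGroup n ℂ, ∃ s : n → ℝ, (∀ k, 0 ≤ s k) ∧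
      U.conjTranspose * B * W = Matrix.diagonal (fun k => ((s k : ℝ) : ℂ)) := by
  have hY : (B * B.conjTranspose).IsHermitian := Matrix.isHermitian_mul_conjTranspose_self B
  obtain ⟨W, hW, h⟩ := svd_rect (Function.Embedding.refl n) B hY rfl
  refine ⟨(hY.eigenvectorUnitary : Matrix n n ℂ), hY.eigenvectorUnitary.2, W, hW,
    fun k => Real.sqrt (hY.eigenvalues k), fun k => Real.sqrt_nonneg _, ?_⟩
  rw [← Matrix.star_eq_conjTranspose, h]
  ext k r
  simp [Matrix.diagonal_apply]

end Crest.Agent.AD
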