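import Mathlib
import Crest.Prelude.Def_QState
import Crest.Prelude.Def_QChannel

set_option autoImplicit false
set_option linter.unusedSectionVars false

namespace Crest.Agent.AD

open Matrix Crest.Quantum
open scoped ComplexOrder BigOperators

/-- A function of the eigenvalues may be computed from any factorisation of the characteristic
polynomial. -/
theorem sum_eig_of_charpoly {d ι : Type*} [Fintype d] [DecidableEq d] [Fintype ι]
    {A : Matrix d d ℂ} (hA : A.IsHermitian) (m : ι → ℝ)
    (h : A.charpoly = ∏ j, (Polynomial.X - Polynomial.C ((m j : ℝ) : ℂ))) (f : ℝ → ℝ) :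
    ∑ i, f (hA.eigenvalues i) = ∑ j, f (m j) := by
  have h1 := hA.roots_charpoly_eq_eigenvalues
  have h2 : A.charpoly.roots = Multiset.map (fun j => ((m j : ℝ) : ℂ)) Finset.univ.val := by
    rw [h, Polynomial.roots_prod]
    · simp [Multiset.bind_singleton]
    · exact Finset.prod_ne_zero_iff.mpr fun j _ => Polynomial.X_sub_C_ne_zero _
  rw [h2] at h1
  have h3 := congrArg (fun s : Multiset ℂ => (s.map (fun z => f z.re)).sum) h1
  simp only [Multiset.map_map, Function.comp_def] at h3
  have e1 : ∑ j, f (m j) = (Multiset.map (fun j => f (m j)) Finset.univ.val).sum := rfl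
  have e2 : ∑ i, f (hA.eigenvalues i) =
    (Multiset.map (fun i => f (hA.eigenvalues i)) Finset.univ.val).sum := rfl
  rw [e1, e2]
  exact h3.symm

theorem vn_of_charpoly {d ι : Type*} [Fintype d] [DecidableEq d] [Fintype ι]
    {A : Matrix d d ℂ} (hA : A.IsHermitian) (m : ι → ℝ)
    (h : A.charpoly = ∏ j, (Polynomial.X - Polynomial.C ((m j : ℝ) : ℂ))) :
    vnEntropy A = -∑ j, m j * Real.log (m j) := by
  unfold vnEntropy
  rw [dif_pos hA, sum_eig_of_charpoly hA m h (fun x => x * Real.log x)]

theorem vn_of_diag {d : Type*} [Fintype d] [DecidableEq d]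
    {A : Matrix d d ℂ} (hA : A.IsHermitian) (V : unitaryGroup d ℂ) (m : d → ℝ)
    (h : A = (V : Matrix d d ℂ) * diagonal (fun j => ((m j : ℝ) : ℂ)) * star (V : Matrix d d ℂ)) :
    vnEntropy A = -∑ j, m j * Real.log (m j) := by
  apply vn_of_charpoly hA
  rw [h, charpoly_mul_comm, ← mul_assoc]
  simp [charpoly_diagonal]

theorem vn_diagonal {d : Type*} [Fintype d] [DecidableEq d] (m : d → ℝ) :
    vnEntropy (diagonal (fun j => ((m j : ℝ) : ℂ))) = -∑ j, m j * Real.log (m j) := by
  have hH : (diagonal (fun j => ((m j : ℝ) : ℂ))).IsHermitian := by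
    apply isHermitian_diagonal_of_self_adjoint
    ext j; simp
  exact vn_of_charpoly hH m (charpoly_diagonal _)

/-- Unitary invariance. -/
theorem vn_unitary {d : Type*} [Fintype d] [DecidableEq d]
    (A : Matrix d d ℂ) (hA : A.IsHermitian) (V : unitaryGroup d ℂ) :
    vnEntropy ((V : Matrix d d ℂ) * A * star (V : Matrix d d ℂ)) = vnEntropy A := by
  have hB : ((V : Matrix d d ℂ) * A * star (V : Matrix d d ℂ)).IsHermitian := by
    have := isHermitian_mul_mul_conjTranspose (V : Matrix d d ℂ) hA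
    simpa [star_eq_conjTranspose] using this
  rw [vn_of_charpoly hB hA.eigenvalues, vn_of_charpoly hA hA.eigenvalues]
  · exact hA.charpoly_eq
  · rw [charpoly_mul_comm, ← mul_assoc]
    simp [hA.charpoly_eq]

section klein

variable {d : Type*} [Fintype d] [DecidableEq d]

theorem klein_scalar {l m : ℝ} (hl : 0 ≤ l) (hm : 0 < m) :
    0 ≤ l * Real.log l - l * Real.log m - l + m := by
  rcases hl.eq_or_lt with h | h
  · subst h; simp; exact hm.le
  · have h1 : Real.log (m / l) ≤ m / l - 1 := Real.log_le_sub_one_of_pos (div_pos hm h)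
    rw [Real.log_div hm.ne' h.ne'] at h1
    have h2 := mul_le_mul_of_nonneg_left h1 h.le
    have h3 : l * (m / l - 1) = m - l := by field_simp
    nlinarith

/-- entries of `star V * ρ * V` through the spectral decomposition. -/
theorem diag_entry (ρ : Matrix d d ℂ) (hρ : ρ.IsHermitian) (V : unitaryGroup d ℂ) (j : d) :
    ((star (V : Matrix d d ℂ) * ρ * (V : Matrix d d ℂ)) j j).re =
      ∑ i, hρ.eigenvalues i *
        Complex.normSq ((star (V : Matrix d d ℂ) * (hρ.eigenvectorUnitary : Matrix d d ℂ)) j i) := by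
  set U : Matrix d d ℂ := (hρ.eigenvectorUnitary : Matrix d d ℂ) with hU
  set W : Matrix d d ℂ := star (V : Matrix d d ℂ) * U with hW
  have h1 : star (V : Matrix d d ℂ) * ρ * (V : Matrix d d ℂ) =
      W * diagonal (fun i => ((hρ.eigenvalues i : ℝ) : ℂ)) * star W := by
    conv_lhs => rw [hρ.spectral_theorem, Unitary.conjStarAlgAut_apply]
    rw [hW, StarMul.star_mul, star_star, hU]
    simp only [Matrix.mul_assoc]
    rfl
  rw [h1, Matrix.mul_apply, Complex.re_sum]
  refine Finset.sum_congr rfl fun i _ => ?_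
  rw [Matrix.mul_diagonal, Matrix.star_apply, Complex.normSq_apply]
  simp only [Complex.mul_re, Complex.mul_im, Complex.ofReal_re, Complex.ofReal_im,
    Complex.star_def, Complex.conj_re, Complex.conj_im]
  ring

theorem unit_row (W : Matrix d d ℂ) (hW : W ∈ unitaryGroup d ℂ) (j : d) :
    ∑ i, Complex.normSq (W j i) = 1 := by
  have h := mem_unitaryGroup_iff.mp hW
  have h2 := congrFun (congrFun h j) j
  rw [Matrix.mul_apply, Matrix.one_apply_eq] at h2
  have h3 := congrArg Complex.re h2
  rw [Complex.re_sum, Complex.one_re] at h3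
  rw [← h3]
  refine Finset.sum_congr rfl fun i _ => ?_
  rw [Matrix.star_apply, Complex.normSq_apply]
  simp only [Complex.mul_re, Complex.star_def, Complex.conj_re, Complex.conj_im]
  ring

theorem unit_col (W : Matrix d d ℂ) (hW : W ∈ unitaryGroup d ℂ) (i : d) :
    ∑ j, Complex.normSq (W j i) = 1 := by
  have h := mem_unitaryGroup_iff'.mp hW
  have h2 := congrFun (congrFun h i) i
  rw [Matrix.mul_apply, Matrix.one_apply_eq] at h2
  have h3 := congrArg Complex.re h2
  rw [Complex.re_sum, Complex.one_re] at h3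
  rw [← h3]
  refine Finset.sum_congr rfl fun j _ => ?_
  rw [Matrix.star_apply, Complex.normSq_apply]
  simp only [Complex.mul_re, Complex.star_def, Complex.conj_re, Complex.conj_im]
  ring

/-- Klein's inequality against an arbitrary orthonormal basis `V` and weights `m`. -/
theorem klein (ρ : Matrix d d ℂ) (hρ : ρ.PosSemidef) (V : unitaryGroup d ℂ) (m : d → ℝ)
    (hm : ∀ j, 0 ≤ m j)
    (hsupp : ∀ j, m j = 0 → ((star (V : Matrix d d ℂ) * ρ * (V : Matrix d d ℂ)) j j).re = 0) :
    vnEntropy ρ ≤ -(∑ j, ((star (V : Matrix d d ℂ) * ρ * (V : Matrix d d ℂ)) j j).re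
      * Real.log (m j)) + ((∑ j, m j) - ρ.trace.re) := by
  have hH := hρ.1
  set W : Matrix d d ℂ := star (V : Matrix d d ℂ) * (hH.eigenvectorUnitary : Matrix d d ℂ) with hW
  have hWm : W ∈ unitaryGroup d ℂ := by
    have : W = ((star V * hH.eigenvectorUnitary : unitaryGroup d ℂ) : Matrix d d ℂ) := rfl
    rw [this]; exact Subtype.mem _
  have hl : ∀ i, 0 ≤ hH.eigenvalues i := fun i => hρ.eigenvalues_nonneg i
  have hterm : ∀ j i, 0 ≤ Complex.normSq (W j i) *
      (hH.eigenvalues i * Real.log (hH.eigenvalues i) - hH.eigenvalues i * Real.log (m j)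
        - hH.eigenvalues i + m j) := by
    intro j i
    rcases (hm j).eq_or_lt with h | h
    · have h0 := hsupp j h.symm
      rw [diag_entry ρ hH V j] at h0
      have h1 := (Finset.sum_eq_zero_iff_of_nonneg
        (fun i _ => mul_nonneg (hl i) (Complex.normSq_nonneg (W j i)))).mp h0 i (Finset.mem_univ _)
      rcases mul_eq_zero.mp h1 with h2 | h2
      · rw [h2, ← h]; simp
      · rw [h2]; simp
    · exact mul_nonneg (Complex.normSq_nonneg _) (klein_scalar (hl i) h)
  have hsum : 0 ≤ ∑ j, ∑ i, Complex.normSq (W j i) *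
      (hH.eigenvalues i * Real.log (hH.eigenvalues i) - hH.eigenvalues i * Real.log (m j)
        - hH.eigenvalues i + m j) :=
    Finset.sum_nonneg fun j _ => Finset.sum_nonneg fun i _ => hterm j i
  have e1 : ∑ j, ∑ i, Complex.normSq (W j i) *
      (hH.eigenvalues i * Real.log (hH.eigenvalues i) - hH.eigenvalues i * Real.log (m j)
        - hH.eigenvalues i + m j) =
      (∑ i, hH.eigenvalues i * Real.log (hH.eigenvalues i))
      - (∑ j, ((star (V : Matrix d d ℂ) * ρ * (V : Matrix d d ℂ)) j j).re * Real.log (m j))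
      - (∑ i, hH.eigenvalues i) + ∑ j, m j := by
    have a1 : ∑ j, ∑ i, Complex.normSq (W j i) *
        (hH.eigenvalues i * Real.log (hH.eigenvalues i)) =
        ∑ i, hH.eigenvalues i * Real.log (hH.eigenvalues i) := by
      rw [Finset.sum_comm]
      refine Finset.sum_congr rfl fun i _ => ?_
      rw [← Finset.sum_mul, unit_col W hWm i, one_mul]
    have a2 : ∑ j, ∑ i, Complex.normSq (W j i) * (hH.eigenvalues i * Real.log (m j)) =
        ∑ j, ((star (V : Matrix d d ℂ) * ρ * (V : Matrix d d ℂ)) j j).re * Real.log (m j) := by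
      refine Finset.sum_congr rfl fun j _ => ?_
      rw [diag_entry ρ hH V j, Finset.sum_mul]
      refine Finset.sum_congr rfl fun i _ => ?_
      ring
    have a3 : ∑ j, ∑ i, Complex.normSq (W j i) * (hH.eigenvalues i) = ∑ i, hH.eigenvalues i := by
      rw [Finset.sum_comm]
      refine Finset.sum_congr rfl fun i _ => ?_
      rw [← Finset.sum_mul, unit_col W hWm i, one_mul]
    have a4 : ∑ j, ∑ i, Complex.normSq (W j i) * m j = ∑ j, m j := by
      refine Finset.sum_congr rfl fun j _ => ?_
      rw [← Finset.sum_mul, unit_row W hWm j, one_mul]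
    rw [← a1, ← a2, ← a3, ← a4, ← Finset.sum_sub_distrib, ← Finset.sum_sub_distrib,
      ← Finset.sum_add_distrib]
    refine Finset.sum_congr rfl fun j _ => ?_
    rw [← Finset.sum_sub_distrib, ← Finset.sum_sub_distrib, ← Finset.sum_add_distrib]
    refine Finset.sum_congr rfl fun i _ => ?_
    ring
  rw [e1] at hsum
  have htr : ρ.trace.re = ∑ i, hH.eigenvalues i := by
    rw [hH.trace_eq_sum_eigenvalues, Complex.re_sum]; rfl
  unfold vnEntropy
  rw [dif_pos hH, htr]
  linarith

end klein

section subadd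

variable {A B : Type*} [Fintype A] [DecidableEq A] [Fintype B] [DecidableEq B]

/-- partial trace over the second system -/
def pA {A B : Type*} [Fintype B] (ρ : Matrix (A × B) (A × B) ℂ) : Matrix A A ℂ :=
  Matrix.of fun a a' => ∑ b, ρ (a, b) (a', b)

/-- partial trace over the first system -/
def pB {A B : Type*} [Fintype A] (ρ : Matrix (A × B) (A × B) ℂ) : Matrix B B ℂ :=
  Matrix.of fun b b' => ∑ a, ρ (a, b) (a, b')

theorem pA_posSemidef {ρ : Matrix (A × B) (A × B) ℂ} (h : ρ.PosSemidef) : (pA ρ).PosSemidef := by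
  have : pA ρ = ∑ b, ρ.submatrix (fun a => (a, b)) (fun a => (a, b)) := by
    ext a a'
    simp [pA, Matrix.sum_apply]
  rw [this]
  exact posSemidef_sum _ fun b _ => h.submatrix _

theorem pB_posSemidef {ρ : Matrix (A × B) (A × B) ℂ} (h : ρ.PosSemidef) : (pB ρ).PosSemidef := by
  have : pB ρ = ∑ a, ρ.submatrix (fun b => (a, b)) (fun b => (a, b)) := by
    ext b b'
    simp [pB, Matrix.sum_apply]
  rw [this]
  exact posSemidef_sum _ fun a _ => h.submatrix _

theorem trace_pA (ρ : Matrix (A × B) (A × B) ℂ) : (pA ρ).trace = ρ.trace := by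
  simp [Matrix.trace, pA, Fintype.sum_prod_type]

theorem trace_pB (ρ : Matrix (A × B) (A × B) ℂ) : (pB ρ).trace = ρ.trace := by
  simp only [Matrix.trace, pB, Fintype.sum_prod_type, Matrix.diag_apply, Matrix.of_apply]
  rw [Finset.sum_comm]

theorem pA_isDensity {ρ : Matrix (A × B) (A × B) ℂ} (h : IsDensity ρ) : IsDensity (pA ρ) :=
  ⟨pA_posSemidef h.1, by rw [trace_pA, h.2]⟩

theorem pB_isDensity {ρ : Matrix (A × B) (A × B) ℂ} (h : IsDensity ρ) : IsDensity (pB ρ) :=
  ⟨pB_posSemidef h.1, by rw [trace_pB, h.2]⟩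

open scoped Kronecker

theorem conj_kron_apply (U : Matrix A A ℂ) (W : Matrix B B ℂ) (ρ : Matrix (A × B) (A × B) ℂ)
    (k k' : A) (l l' : B) :
    (star (U ⊗ₖ W) * ρ * (U ⊗ₖ W)) (k, l) (k', l') =
      ∑ a', ∑ b', ∑ a, ∑ b, star (U a k) * star (W b l) * ρ (a, b) (a', b') * (U a' k' * W b' l') := by
  rw [Matrix.mul_apply, Fintype.sum_prod_type]
  refine Finset.sum_congr rfl fun a' _ => Finset.sum_congr rfl fun b' _ => ?_
  rw [Matrix.mul_apply, Fintype.sum_prod_type, Finset.sum_mul]
  refine Finset.sum_congr rfl fun a _ => ?_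
  rw [Finset.sum_mul]
  refine Finset.sum_congr rfl fun b _ => ?_
  simp only [Matrix.star_apply, Matrix.kroneckerMap_apply, star_mul']

theorem pA_conj (U : Matrix A A ℂ) (W : Matrix B B ℂ) (hW : W ∈ unitaryGroup B ℂ)
    (ρ : Matrix (A × B) (A × B) ℂ) :
    pA (star (U ⊗ₖ W) * ρ * (U ⊗ₖ W)) = star U * pA ρ * U := by
  ext k k'
  have hWW : ∀ b b', ∑ l, star (W b l) * W b' l = if b' = b then 1 else 0 := by
    intro b b'
    have h := congrFun (congrFun (mem_unitaryGroup_iff.mp hW) b') b
    rw [Matrix.mul_apply, Matrix.one_apply] at h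
    rw [← h]
    refine Finset.sum_congr rfl fun l _ => ?_
    rw [Matrix.star_apply, mul_comm]
  simp only [pA, Matrix.of_apply, conj_kron_apply]
  rw [Matrix.mul_apply]
  rw [Finset.sum_comm]
  refine Finset.sum_congr rfl fun a' _ => ?_
  rw [Matrix.mul_apply, Finset.sum_mul]
  rw [Finset.sum_comm]
  simp only [Matrix.of_apply]
  have e : ∀ b', ∑ l, ∑ a, ∑ b, star (U a k) * star (W b l) * ρ (a, b) (a', b')
      * (U a' k' * W b' l) = ∑ a, star (U a k) * ρ (a, b') (a', b') * U a' k' := by
    intro b'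
    rw [Finset.sum_comm]
    refine Finset.sum_congr rfl fun a _ => ?_
    rw [Finset.sum_comm]
    have : ∀ b, ∑ l, star (U a k) * star (W b l) * ρ (a, b) (a', b') * (U a' k' * W b' l)
        = star (U a k) * ρ (a, b) (a', b') * U a' k' * (if b' = b then 1 else 0) := by
      intro b
      rw [← hWW b b', Finset.mul_sum]
      refine Finset.sum_congr rfl fun l _ => ?_
      ring
    simp only [this]
    simp
  simp only [e]
  rw [Finset.sum_comm]
  refine Finset.sum_congr rfl fun a _ => ?_
  rw [Matrix.star_apply, Finset.mul_sum, Finset.sum_mul]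

theorem pB_conj (U : Matrix A A ℂ) (W : Matrix B B ℂ) (hU : U ∈ unitaryGroup A ℂ)
    (ρ : Matrix (A × B) (A × B) ℂ) :
    pB (star (U ⊗ₖ W) * ρ * (U ⊗ₖ W)) = star W * pB ρ * W := by
  ext l l'
  have hUU : ∀ a a', ∑ k, star (U a k) * U a' k = if a' = a then 1 else 0 := by
    intro a a'
    have h := congrFun (congrFun (mem_unitaryGroup_iff.mp hU) a') a
    rw [Matrix.mul_apply, Matrix.one_apply] at h
    rw [← h]
    refine Finset.sum_congr rfl fun l _ => ?_
    rw [Matrix.star_apply, mul_comm]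
  simp only [pB, Matrix.of_apply, conj_kron_apply]
  rw [Matrix.mul_apply]
  have e : ∀ b', ∑ k, ∑ a', ∑ a, ∑ b, star (U a k) * star (W b l) * ρ (a, b) (a', b')
      * (U a' k * W b' l') = ∑ b, ∑ a, star (W b l) * ρ (a, b) (a, b') * W b' l' := by
    intro b'
    rw [Finset.sum_comm]
    have : ∀ a', ∑ k, ∑ a, ∑ b, star (U a k) * star (W b l) * ρ (a, b) (a', b')
        * (U a' k * W b' l') = ∑ b, star (W b l) * ρ (a', b) (a', b') * W b' l' := by
      intro a'
      rw [Finset.sum_comm]
      have h2 : ∀ a, ∑ k, ∑ b, star (U a k) * star (W b l) * ρ (a, b) (a', b')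
        * (U a' k * W b' l') = (∑ b, star (W b l) * ρ (a, b) (a', b') * W b' l')
          * (if a' = a then 1 else 0) := by
        intro a
        rw [← hUU a a', Finset.mul_sum]
        refine Finset.sum_congr rfl fun k _ => ?_
        rw [Finset.sum_mul]
        refine Finset.sum_congr rfl fun b _ => ?_
        ring
      simp only [h2]
      simp
    simp only [this]
    rw [Finset.sum_comm]
  have e0 : ∑ k, ∑ a', ∑ b', ∑ a, ∑ b, star (U a k) * star (W b l) * ρ (a, b) (a', b')
      * (U a' k * W b' l') = ∑ b', ∑ k, ∑ a', ∑ a, ∑ b, star (U a k) * star (W b l)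
        * ρ (a, b) (a', b') * (U a' k * W b' l') := by
    have : ∀ k, ∑ a', ∑ b', ∑ a, ∑ b, star (U a k) * star (W b l) * ρ (a, b) (a', b')
      * (U a' k * W b' l') = ∑ b', ∑ a', ∑ a, ∑ b, star (U a k) * star (W b l)
        * ρ (a, b) (a', b') * (U a' k * W b' l') := fun k => Finset.sum_comm
    simp only [this]
    rw [Finset.sum_comm]
  rw [e0]
  simp only [e]
  refine Finset.sum_congr rfl fun b' _ => ?_
  rw [Matrix.mul_apply, Finset.sum_mul]
  refine Finset.sum_congr rfl fun b _ => ?_
  simp only [Matrix.of_apply]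
  rw [Matrix.star_apply, Finset.mul_sum, Finset.sum_mul]

theorem diag_conj_eig {d : Type*} [Fintype d] [DecidableEq d] {ρ : Matrix d d ℂ}
    (h : ρ.IsHermitian) (k : d) :
    ((star (h.eigenvectorUnitary : Matrix d d ℂ) * ρ * (h.eigenvectorUnitary : Matrix d d ℂ)) k k)
      = ((h.eigenvalues k : ℝ) : ℂ) := by
  have h1 : star (h.eigenvectorUnitary : Matrix d d ℂ) * ρ *
      (h.eigenvectorUnitary : Matrix d d ℂ) = diagonal (fun i => ((h.eigenvalues i : ℝ) : ℂ)) := by
    conv_lhs =>
      enter [1, 2]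
      rw [h.spectral_theorem, Unitary.conjStarAlgAut_apply]
    have e : star (h.eigenvectorUnitary : Matrix d d ℂ) * (h.eigenvectorUnitary : Matrix d d ℂ)
      = 1 := mem_unitaryGroup_iff'.mp h.eigenvectorUnitary.2
    simp only [Matrix.mul_assoc]
    rw [e, ← Matrix.mul_assoc, e]
    simp
  rw [h1, Matrix.diagonal_apply_eq]

/-- Subadditivity of the von Neumann entropy. -/
theorem vn_subadditive {ρ : Matrix (A × B) (A × B) ℂ} (h : IsDensity ρ) :
    vnEntropy ρ ≤ vnEntropy (pA ρ) + vnEntropy (pB ρ) := by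
  have hA := (pA_posSemidef h.1)
  have hB := (pB_posSemidef h.1)
  set UA := hA.1.eigenvectorUnitary with hUA
  set UB := hB.1.eigenvectorUnitary with hUB
  set al := hA.1.eigenvalues with hal
  set be := hB.1.eigenvalues with hbe
  have hV : (UA : Matrix A A ℂ) ⊗ₖ (UB : Matrix B B ℂ) ∈ unitaryGroup (A × B) ℂ :=
    kronecker_mem_unitary UA.2 UB.2
  set V : unitaryGroup (A × B) ℂ := ⟨(UA : Matrix A A ℂ) ⊗ₖ (UB : Matrix B B ℂ), hV⟩ with hVd
  set R : Matrix (A × B) (A × B) ℂ := star (V : Matrix (A × B) (A × B) ℂ) * ρ *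
    (V : Matrix (A × B) (A × B) ℂ) with hR
  have hRp : R.PosSemidef := by
    have := h.1.conjTranspose_mul_mul_same (V : Matrix (A × B) (A × B) ℂ)
    simpa [star_eq_conjTranspose, hR] using this
  have hr0 : ∀ x, 0 ≤ (R x x).re := by
    intro x
    have := hRp.diag_nonneg (i := x)
    exact (Complex.le_def.mp this).1
  have hal0 : ∀ k, 0 ≤ al k := fun k => hA.eigenvalues_nonneg k
  have hbe0 : ∀ k, 0 ≤ be k := fun k => hB.eigenvalues_nonneg k
  have mA : ∀ k, ∑ l, (R (k, l) (k, l)).re = al k := by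
    intro k
    have h1 : pA R = star (UA : Matrix A A ℂ) * pA ρ * UA := pA_conj _ _ UB.2 ρ
    have h2 := congrFun (congrFun h1 k) k
    rw [diag_conj_eig hA.1 k] at h2
    have h3 := congrArg Complex.re h2
    rw [Complex.ofReal_re] at h3
    rw [hal, ← h3]
    simp [pA]
  have mB : ∀ l, ∑ k, (R (k, l) (k, l)).re = be l := by
    intro k
    have h1 : pB R = star (UB : Matrix B B ℂ) * pB ρ * UB := pB_conj _ _ UA.2 ρ
    have h2 := congrFun (congrFun h1 k) k
    rw [diag_conj_eig hB.1 k] at h2
    have h3 := congrArg Complex.re h2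
    rw [Complex.ofReal_re] at h3
    rw [hbe, ← h3]
    simp [pB]
  have zA : ∀ k l, al k = 0 → (R (k, l) (k, l)).re = 0 := by
    intro k l h0
    have h1 := mA k
    rw [h0] at h1
    exact (Finset.sum_eq_zero_iff_of_nonneg (fun l _ => hr0 (k, l))).mp h1 l (Finset.mem_univ _)
  have zB : ∀ k l, be l = 0 → (R (k, l) (k, l)).re = 0 := by
    intro k l h0
    have h1 := mB l
    rw [h0] at h1
    exact (Finset.sum_eq_zero_iff_of_nonneg (fun k _ => hr0 (k, l))).mp h1 k (Finset.mem_univ _)
  have key := klein ρ h.1 V (fun x => al x.1 * be x.2)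
    (fun x => mul_nonneg (hal0 _) (hbe0 _)) (by
      rintro ⟨k, l⟩ h0
      rcases mul_eq_zero.mp h0 with h1 | h1
      · exact zA k l h1
      · exact zB k l h1)
  have sA : ∑ k, al k = 1 := by
    have h1 := hA.1.trace_eq_sum_eigenvalues
    rw [trace_pA, h.2] at h1
    have h2 := congrArg Complex.re h1
    rw [Complex.one_re, Complex.re_sum] at h2
    exact h2.symm
  have sB : ∑ k, be k = 1 := by
    have h1 := hB.1.trace_eq_sum_eigenvalues
    rw [trace_pB, h.2] at h1
    have h2 := congrArg Complex.re h1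
    rw [Complex.one_re, Complex.re_sum] at h2
    exact h2.symm
  have s1 : ∑ x : A × B, al x.1 * be x.2 = 1 := by
    rw [Fintype.sum_prod_type]
    simp only [← Finset.mul_sum]
    rw [sB]; simpa using sA
  have s2 : ∑ x : A × B, (R x x).re * Real.log (al x.1 * be x.2) =
      ∑ k, al k * Real.log (al k) + ∑ l, be l * Real.log (be l) := by
    have e1 : ∀ x : A × B, (R x x).re * Real.log (al x.1 * be x.2) =
        (R x x).re * Real.log (al x.1) + (R x x).re * Real.log (be x.2) := by
      rintro ⟨k, l⟩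
      by_cases h1 : al k = 0
      · simp [zA k l h1]
      by_cases h2 : be l = 0
      · simp [zB k l h2]
      · simp only
        rw [Real.log_mul h1 h2]; ring
    simp only [e1]
    rw [Finset.sum_add_distrib]
    congr 1
    · rw [Fintype.sum_prod_type]
      refine Finset.sum_congr rfl fun k _ => ?_
      simp only
      rw [← Finset.sum_mul, mA]
    · rw [Fintype.sum_prod_type_right]
      refine Finset.sum_congr rfl fun l _ => ?_
      simp only
      rw [← Finset.sum_mul, mB]
  have htr : ρ.trace.re = 1 := by rw [h.2]; simp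
  have key2 : vnEntropy ρ ≤ -(∑ x : A × B, (R x x).re * Real.log (al x.1 * be x.2)) +
    ((∑ x : A × B, al x.1 * be x.2) - ρ.trace.re) := key
  rw [s1, s2, htr] at key2
  have eA : vnEntropy (pA ρ) = -∑ k, al k * Real.log (al k) := by
    unfold vnEntropy; rw [dif_pos hA.1]
  have eB : vnEntropy (pB ρ) = -∑ k, be k * Real.log (be k) := by
    unfold vnEntropy; rw [dif_pos hB.1]
  rw [eA, eB]
  linarith

end subadd

end Crest.Agent.AD
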