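import Crest.Agent.AD.E3Defs
import Crest.Agent.AD.Klein

set_option autoImplicit false
open Crest.Quantum
open scoped ComplexOrder

namespace Crest.Agent.AD

variable {e : Type} [Fintype e] [DecidableEq e]

theorem bm_pad_isHermitian {Y : Matrix e e ℂ} (hY : Y.IsHermitian) : (bm Y 0 0 0).IsHermitian := by
  ext ⟨i, x⟩ ⟨j, y⟩
  have := hY.apply x y
  cases i <;> cases j <;> simp [bm, Matrix.conjTranspose_apply, this]

theorem vn_pad {Y : Matrix e e ℂ} (hY : Y.IsHermitian) : vnEntropy (bm Y 0 0 0) = vnEntropy Y := by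
  have hP := bm_pad_isHermitian hY
  have hbm : bm Y 0 0 0 = (Matrix.fromBlocks Y 0 0 0).submatrix
      (Equiv.boolProdEquivSum e) (Equiv.boolProdEquivSum e) := by
    ext ⟨i, x⟩ ⟨j, y⟩
    cases i <;> cases j <;> simp [bm, Equiv.boolProdEquivSum]
  have hc : (bm Y 0 0 0).charpoly = ∏ j : e ⊕ e,
      (Polynomial.X - Polynomial.C ((Sum.elim hY.eigenvalues (fun _ => 0) j : ℝ) : ℂ)) := by
    rw [hbm]
    have h1 : ((Matrix.fromBlocks Y 0 0 (0 : Matrix e e ℂ)).submatrix (Equiv.boolProdEquivSum e)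
        (Equiv.boolProdEquivSum e)).charpoly = (Matrix.fromBlocks Y 0 0 (0 : Matrix e e ℂ)).charpoly := by
      have := Matrix.charpoly_reindex (Equiv.boolProdEquivSum e).symm (Matrix.fromBlocks Y 0 0 (0 : Matrix e e ℂ))
      simpa [Matrix.reindex_apply] using this
    rw [h1, Matrix.charpoly_fromBlocks_zero₁₂, hY.charpoly_eq, Fintype.prod_sum_type]
    simp [Matrix.charpoly_zero]
  rw [vn_of_charpoly hP _ hc]
  unfold vnEntropy
  rw [dif_pos hY, Fintype.sum_sum_type]
  simp

end Crest.Agent.AD
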