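import Crest.Agent.AD.Det1
import Crest.Agent.AD.Svd
import Crest.Agent.AD.Pin
import Crest.Agent.AD.VnPad

set_option autoImplicit false
open Crest.Quantum Crest.MathPhysics.AmpDamp Matrix
open scoped ComplexOrder Kronecker

namespace Crest.Agent.AD

variable {e : Type} [Fintype e] [DecidableEq e]

open scoped MatrixOrder in
theorem psd_factor {n : Type} [Fintype n] [DecidableEq n] {A : Matrix n n ℂ} (hA : A.PosSemidef) :
    ∃ C : Matrix n n ℂ, A = Cᴴ * C := by
  obtain ⟨C, hC⟩ := CStarAlgebra.nonneg_iff_eq_star_mul_self.mp hA.nonneg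
  exact ⟨C, hC⟩

/-- isometry onto the `false` rows -/
def Jm (e : Type) [DecidableEq e] : Matrix (Bool × e) e ℂ :=
  Matrix.of fun r k => if r = (false, k) then 1 else 0

theorem Jm_iso : (Jm e)ᴴ * (Jm e) = 1 := by
  ext i j
  rw [Matrix.mul_apply, Fintype.sum_prod_type]
  simp [Jm, Matrix.one_apply, Matrix.conjTranspose_apply, eq_comm]

theorem Jm_conj (X : Matrix e e ℂ) : Jm e * X * (Jm e)ᴴ = bm X 0 0 0 := by
  ext ⟨s, i⟩ ⟨t, j⟩
  rw [Matrix.mul_apply]
  cases s <;> cases t <;>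
    simp [Jm, bm, Matrix.mul_apply, Matrix.conjTranspose_apply]

/-- the core pointwise inequality with an explicit factorisation -/
theorem det_core (A B : Matrix e (Bool × e) ℂ) {α β κ : ℝ}
    (hα : 0 ≤ α) (hβ : 0 ≤ β) (hκ : 0 ≤ κ)
    (U₀ W : Matrix (Bool × e) (Bool × e) ℂ) (hU₀ : U₀ ∈ unitaryGroup (Bool × e) ℂ)
    (hW : W ∈ unitaryGroup (Bool × e) ℂ) (b : Bool × e → ℝ) (hb : ∀ k, 0 ≤ b k)
    (hsvd : star U₀ * (Jm e * B) * W = diagonal (fun k => ((Real.sqrt (b k) : ℝ) : ℂ)))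
    (hX : (A * Aᴴ).IsHermitian)
    (hM : (bm ((α : ℂ) • (A * Aᴴ)) ((Real.sqrt (α * β) : ℂ) • (A * Bᴴ))
        ((Real.sqrt (α * β) : ℂ) • (B * Aᴴ))
        ((β : ℂ) • (B * Bᴴ) + (κ : ℂ) • (A * Aᴴ))).IsHermitian)
    (t : ℝ) (ht : 0 < t) :
    (∏ i, (t + α * hX.eigenvalues i)) * (∏ i, (t + κ * hX.eigenvalues i)) *
      ∏ k : Bool × e, (1 + t * (β * b k) /
        ((t + ((star W * ((α : ℂ) • (Aᴴ * A)) * W) k k).re) *
         (t + ((star U₀ * ((κ : ℂ) • (Jm e * (A * Aᴴ) * (Jm e)ᴴ)) * U₀) k k).re)))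
      ≤ ∏ i, (t + hM.eigenvalues i) := by
  have hα' : (0 : ℂ) ≤ (α : ℂ) := by exact_mod_cast hα
  have hκ' : (0 : ℂ) ≤ (κ : ℂ) := by exact_mod_cast hκ
  have htC : (t : ℂ) ≠ 0 := by exact_mod_cast ht.ne'
  have hU0l : star U₀ * U₀ = 1 := mem_unitaryGroup_iff'.mp hU₀
  have hU0r : U₀ * star U₀ = 1 := mem_unitaryGroup_iff.mp hU₀
  have hWl : star W * W = 1 := mem_unitaryGroup_iff'.mp hW
  have hWr : W * star W = 1 := mem_unitaryGroup_iff.mp hW
  set J := Jm e with hJ
  set Bh := J * B with hBh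
  set D₀ : Matrix (Bool × e) (Bool × e) ℂ := diagonal (fun k => ((Real.sqrt (b k) : ℝ) : ℂ)) with hD₀
  set U : Matrix (Bool × e) (Bool × e) ℂ := (t : ℂ) • 1 + (α : ℂ) • (Aᴴ * A) with hU
  have hUpd : U.PosDef := posdef_shift _ ((posSemidef_conjTranspose_mul_self A).smul hα') ht
  have hUd : IsUnit U.det := (Matrix.isUnit_iff_isUnit_det _).mp hUpd.isUnit
  have hJX : (J * (A * Aᴴ) * Jᴴ).PosSemidef :=
    (posSemidef_self_mul_conjTranspose A).mul_mul_conjTranspose_same J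
  set S : Matrix (Bool × e) (Bool × e) ℂ := (t : ℂ) • 1 + (κ : ℂ) • (J * (A * Aᴴ) * Jᴴ) with hS
  have hSpd : S.PosDef := posdef_shift _ (hJX.smul hκ') ht
  -- conjugated matrices
  set U' := star W * U * W with hU'
  set V' := star U₀ * S * U₀ with hV'
  have hU'eq : U' = (t : ℂ) • 1 + star W * ((α : ℂ) • (Aᴴ * A)) * W := by
    rw [hU', hU, Matrix.mul_add, Matrix.add_mul, Matrix.mul_smul, Matrix.smul_mul, Matrix.mul_one,
      hWl]
  have hV'eq : V' = (t : ℂ) • 1 + star U₀ * ((κ : ℂ) • (J * (A * Aᴴ) * Jᴴ)) * U₀ := by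
    rw [hV', hS, Matrix.mul_add, Matrix.add_mul, Matrix.mul_smul, Matrix.smul_mul, Matrix.mul_one,
      hU0l]
  have hU'pd : U'.PosDef := by
    rw [hU'eq]
    refine posdef_shift _ ?_ ht
    have := ((posSemidef_conjTranspose_mul_self A).smul hα').conjTranspose_mul_mul_same W
    simpa [star_eq_conjTranspose] using this
  have hV'pd : V'.PosDef := by
    rw [hV'eq]
    refine posdef_shift _ ?_ ht
    have := (hJX.smul hκ').conjTranspose_mul_mul_same U₀
    simpa [star_eq_conjTranspose] using this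
  have hU'inv : U'⁻¹ = star W * U⁻¹ * W := by
    apply Matrix.inv_eq_right_inv
    calc U' * (star W * U⁻¹ * W) = star W * U * (W * star W) * U⁻¹ * W := by
          rw [hU']; simp only [Matrix.mul_assoc]
      _ = 1 := by
          rw [hWr, Matrix.mul_one, Matrix.mul_assoc (star W), Matrix.mul_nonsing_inv _ hUd,
            Matrix.mul_one, hWl]
  -- SVD consequences
  have hB1 : star U₀ * Bh = D₀ * star W := by
    rw [← hsvd, Matrix.mul_assoc, hWr, Matrix.mul_one]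
  have hD0s : D₀ᴴ = D₀ := by
    rw [hD₀, diagonal_conjTranspose]
    congr 1
    funext k
    simp
  have hB2 : W * D₀ = Bhᴴ * U₀ := by
    have h5 : (star U₀ * Bh)ᴴ = Bhᴴ * U₀ := by
      rw [conjTranspose_mul (star U₀) Bh, star_eq_conjTranspose, conjTranspose_conjTranspose]
    have h6 : (D₀ * star W)ᴴ = W * D₀ := by
      rw [conjTranspose_mul D₀ (star W), hD0s, star_eq_conjTranspose, conjTranspose_conjTranspose]
    rw [← h5, ← h6, hB1]
  -- the pinching inequality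
  have hpin := pin hU'pd hV'pd (fun k => Real.sqrt (t * β) * Real.sqrt (b k))
    (fun k => mul_nonneg (Real.sqrt_nonneg _) (Real.sqrt_nonneg _))
  have hdd : diagonal (fun k => ((Real.sqrt (t * β) * Real.sqrt (b k) : ℝ) : ℂ)) =
      ((Real.sqrt (t * β) : ℝ) : ℂ) • D₀ := by
    rw [hD₀, ← diagonal_smul]
    congr 1
    funext k
    simp
  have hsq : ((Real.sqrt (t * β) : ℝ) : ℂ) * ((Real.sqrt (t * β) : ℝ) : ℂ) = ((t * β : ℝ) : ℂ) := by
    rw [← Complex.ofReal_mul, Real.mul_self_sqrt (mul_nonneg ht.le hβ)]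
  set G : Matrix e e ℂ := (κ : ℂ) • (A * Aᴴ) + ((t * β : ℝ) : ℂ) • (B * U⁻¹ * Bᴴ) with hG
  have hbig : V' + diagonal (fun k => ((Real.sqrt (t * β) * Real.sqrt (b k) : ℝ) : ℂ)) * U'⁻¹ *
      diagonal (fun k => ((Real.sqrt (t * β) * Real.sqrt (b k) : ℝ) : ℂ)) =
      star U₀ * ((t : ℂ) • 1 + J * G * Jᴴ) * U₀ := by
    rw [hdd, hU'inv]
    have h1 : ((Real.sqrt (t * β) : ℝ) : ℂ) • D₀ * (star W * U⁻¹ * W) *
        ((Real.sqrt (t * β) : ℝ) : ℂ) • D₀ =
        ((t * β : ℝ) : ℂ) • (star U₀ * (Bh * U⁻¹ * Bhᴴ) * U₀) := by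
      have h2 : D₀ * (star W * U⁻¹ * W) * D₀ = star U₀ * (Bh * U⁻¹ * Bhᴴ) * U₀ := by
        calc D₀ * (star W * U⁻¹ * W) * D₀ = (D₀ * star W) * U⁻¹ * (W * D₀) := by
              simp only [Matrix.mul_assoc]
          _ = star U₀ * (Bh * U⁻¹ * Bhᴴ) * U₀ := by
              rw [← hB1, hB2]; simp only [Matrix.mul_assoc]
      rw [Matrix.smul_mul, Matrix.smul_mul, Matrix.mul_smul, smul_smul, hsq, h2]
    rw [h1, hV', hS, hG, hBh]
    rw [conjTranspose_mul]
    simp only [Matrix.mul_add, Matrix.add_mul, Matrix.mul_smul, Matrix.smul_mul, Matrix.mul_assoc,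
      add_assoc]
  rw [hbig] at hpin
  have hdet1 : (star U₀ * ((t : ℂ) • 1 + J * G * Jᴴ) * U₀).det = ((t : ℂ) • 1 + J * G * Jᴴ).det := by
    rw [det_mul_right_comm, hU0l, one_mul]
  have hdet2 : V'.det = S.det := by
    rw [hV', det_mul_right_comm, hU0l, one_mul]
  rw [hdet1, hdet2] at hpin
  have hpadG := det_pad J Jm_iso t ht G
  have hpadX := det_pad J Jm_iso t ht ((κ : ℂ) • (A * Aᴴ))
  have hSX : (t : ℂ) • (1 : Matrix (Bool × e) (Bool × e) ℂ) + J * ((κ : ℂ) • (A * Aᴴ)) * Jᴴ = S := by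
    rw [hS, Matrix.mul_smul, Matrix.smul_mul]
  rw [hSX] at hpadX
  have hx1 := det_eig hX t α
  have hx2 := det_eig hX t κ
  have hm := det_eig hM t 1
  have hM3 := det_M3 A B (κ := κ) hα hβ ht
  simp only [Complex.ofReal_one, one_smul, one_mul] at hm
  rw [hm, hx1] at hM3
  set x1 : ℝ := ∏ i, (t + α * hX.eigenvalues i) with hx1d
  set x2 : ℝ := ∏ i, (t + κ * hX.eigenvalues i) with hx2d
  set m : ℝ := ∏ i, (t + hM.eigenvalues i) with hmd
  have hXev : ∀ i, 0 ≤ hX.eigenvalues i := fun i =>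
    (posSemidef_self_mul_conjTranspose A).eigenvalues_nonneg i
  have hx1p : 0 < x1 := Finset.prod_pos fun i _ => by
    have := mul_nonneg hα (hXev i); linarith
  have htn : (0 : ℝ) < t ^ Fintype.card e := pow_pos ht _
  have htN : (0 : ℝ) < t ^ Fintype.card (Bool × e) := pow_pos ht _
  -- real parts
  have hGre : x1 * ((t : ℂ) • 1 + G).det.re = m := by
    have := congrArg Complex.re hM3
    rw [Complex.ofReal_re, Complex.re_ofReal_mul] at this
    exact this.symm
  have hGpad : ((t : ℂ) • 1 + J * G * Jᴴ).det.re * t ^ Fintype.card e =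
      t ^ Fintype.card (Bool × e) * ((t : ℂ) • 1 + G).det.re := by
    have := congrArg Complex.re hpadG
    rw [← Complex.ofReal_pow, ← Complex.ofReal_pow, Complex.re_ofReal_mul, Complex.re_mul_ofReal] at this
    exact this
  have hSpad : S.det.re * t ^ Fintype.card e = t ^ Fintype.card (Bool × e) * x2 := by
    rw [hx2] at hpadX
    have := congrArg Complex.re hpadX
    rw [← Complex.ofReal_pow, ← Complex.ofReal_pow, Complex.re_ofReal_mul, Complex.re_mul_ofReal,
      Complex.ofReal_re] at this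
    exact this
  have hU'kk : ∀ k, (U' k k).re = t + ((star W * ((α : ℂ) • (Aᴴ * A)) * W) k k).re := by
    intro k
    rw [hU'eq, Matrix.add_apply, Complex.add_re, Matrix.smul_apply, Matrix.one_apply_eq]
    simp
  have hV'kk : ∀ k, (V' k k).re = t + ((star U₀ * ((κ : ℂ) • (J * (A * Aᴴ) * Jᴴ)) * U₀) k k).re := by
    intro k
    rw [hV'eq, Matrix.add_apply, Complex.add_re, Matrix.smul_apply, Matrix.one_apply_eq]
    simp
  have hprod : ∏ k, (1 + (Real.sqrt (t * β) * Real.sqrt (b k)) ^ 2 / ((U' k k).re * (V' k k).re)) =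
      ∏ k : Bool × e, (1 + t * (β * b k) /
        ((t + ((star W * ((α : ℂ) • (Aᴴ * A)) * W) k k).re) *
         (t + ((star U₀ * ((κ : ℂ) • (J * (A * Aᴴ) * Jᴴ)) * U₀) k k).re))) := by
    refine Finset.prod_congr rfl fun k _ => ?_
    rw [hU'kk, hV'kk, mul_pow, Real.sq_sqrt (mul_nonneg ht.le hβ), Real.sq_sqrt (hb k), mul_assoc]
  rw [hprod] at hpin
  set PR := ∏ k : Bool × e, (1 + t * (β * b k) /
        ((t + ((star W * ((α : ℂ) • (Aᴴ * A)) * W) k k).re) *
         (t + ((star U₀ * ((κ : ℂ) • (J * (A * Aᴴ) * Jᴴ)) * U₀) k k).re))) with hPR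
  have h3 : (t ^ Fintype.card (Bool × e) * x2) * PR ≤
      t ^ Fintype.card (Bool × e) * ((t : ℂ) • 1 + G).det.re := by
    rw [← hSpad, ← hGpad]
    calc S.det.re * t ^ Fintype.card e * PR = (S.det.re * PR) * t ^ Fintype.card e := by ring
      _ ≤ _ := mul_le_mul_of_nonneg_right hpin htn.le
  have h4 : x2 * PR ≤ ((t : ℂ) • 1 + G).det.re := by
    have : t ^ Fintype.card (Bool × e) * (x2 * PR) ≤
      t ^ Fintype.card (Bool × e) * ((t : ℂ) • 1 + G).det.re := by
      rw [← mul_assoc]; exact h3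
    exact le_of_mul_le_mul_left this htN
  calc x1 * x2 * PR = x1 * (x2 * PR) := by ring
    _ ≤ x1 * ((t : ℂ) • 1 + G).det.re := mul_le_mul_of_nonneg_left h4 hx1p.le
    _ = m := hGre

theorem det_ineq {σ : Matrix (Bool × e) (Bool × e) ℂ} (hσ : σ.PosSemidef) {α β κ : ℝ}
    (hα : 0 ≤ α) (hβ : 0 ≤ β) (hκ : 0 ≤ κ) :
    ∃ (hX : (block σ false false).IsHermitian) (hM : (M3 σ α β κ).IsHermitian)
      (p q b : Bool × e → ℝ),
      (∀ k, 0 ≤ p k) ∧ (∀ k, 0 ≤ q k) ∧ (∀ k, 0 ≤ b k) ∧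
      (∑ k, p k = κ * (block σ false false).trace.re) ∧
      (∑ k, q k = α * (block σ false false).trace.re) ∧
      (∑ k, b k = (block σ true true).trace.re) ∧
      (∑ k, Real.negMulLog (b k) = vnEntropy (block σ true true)) ∧
      (∀ i, 0 ≤ hX.eigenvalues i) ∧ (∀ i, 0 ≤ hM.eigenvalues i) ∧
      ∀ t : ℝ, 0 < t →
        (∑ i, Real.log (t + α * hX.eigenvalues i)) + (∑ i, Real.log (t + κ * hX.eigenvalues i))
          + ∑ k : Bool × e, (Real.log ((t + p k) * (t + q k) + t * (β * b k))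
              - Real.log (t + p k) - Real.log (t + q k))
          ≤ ∑ i, Real.log (t + hM.eigenvalues i) := by
  obtain ⟨C, hC⟩ := psd_factor hσ
  have hα' : (0 : ℂ) ≤ (α : ℂ) := by exact_mod_cast hα
  have hβ' : (0 : ℂ) ≤ (β : ℂ) := by exact_mod_cast hβ
  have hκ' : (0 : ℂ) ≤ (κ : ℂ) := by exact_mod_cast hκ
  let A : Matrix e (Bool × e) ℂ := Matrix.of fun i j => star (C j (false, i))
  let B : Matrix e (Bool × e) ℂ := Matrix.of fun i j => star (C j (true, i))
  have hb00 : block σ false false = A * Aᴴ := by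
    ext i j
    simp only [block, Matrix.of_apply, hC, Matrix.mul_apply, Matrix.conjTranspose_apply, A, star_star]
  have hb01 : block σ false true = A * Bᴴ := by
    ext i j
    simp only [block, Matrix.of_apply, hC, Matrix.mul_apply, Matrix.conjTranspose_apply, A, B, star_star]
  have hb10 : block σ true false = B * Aᴴ := by
    ext i j
    simp only [block, Matrix.of_apply, hC, Matrix.mul_apply, Matrix.conjTranspose_apply, A, B, star_star]
  have hb11 : block σ true true = B * Bᴴ := by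
    ext i j
    simp only [block, Matrix.of_apply, hC, Matrix.mul_apply, Matrix.conjTranspose_apply, B, star_star]
  have hMe : M3 σ α β κ = bm ((α : ℂ) • (A * Aᴴ)) ((Real.sqrt (α * β) : ℂ) • (A * Bᴴ))
        ((Real.sqrt (α * β) : ℂ) • (B * Aᴴ))
        ((β : ℂ) • (B * Bᴴ) + (κ : ℂ) • (A * Aᴴ)) := by
    rw [M3, hb00, hb01, hb10, hb11]
  have hXpsd : (A * Aᴴ).PosSemidef := posSemidef_self_mul_conjTranspose A
  have hX : (A * Aᴴ).IsHermitian := hXpsd.isHermitian
  -- the three-block matrix is `T Tᴴ`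
  let T : Matrix (Bool × e) (Bool × (Bool × e)) ℂ := Matrix.of fun r c =>
    if r.1 = false then (if c.1 = false then (Real.sqrt α : ℂ) * A r.2 c.2 else 0)
    else (if c.1 = false then (Real.sqrt β : ℂ) * B r.2 c.2 else (Real.sqrt κ : ℂ) * A r.2 c.2)
  have sα : (Real.sqrt α : ℂ) * (Real.sqrt α : ℂ) = (α : ℂ) := by
    rw [← Complex.ofReal_mul, Real.mul_self_sqrt hα]
  have sβ : (Real.sqrt β : ℂ) * (Real.sqrt β : ℂ) = (β : ℂ) := by
    rw [← Complex.ofReal_mul, Real.mul_self_sqrt hβ]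
  have sκ : (Real.sqrt κ : ℂ) * (Real.sqrt κ : ℂ) = (κ : ℂ) := by
    rw [← Complex.ofReal_mul, Real.mul_self_sqrt hκ]
  have sαβ : (Real.sqrt (α * β) : ℂ) = (Real.sqrt α : ℂ) * (Real.sqrt β : ℂ) := by
    rw [← Complex.ofReal_mul, Real.sqrt_mul hα]
  have hMT : bm ((α : ℂ) • (A * Aᴴ)) ((Real.sqrt (α * β) : ℂ) • (A * Bᴴ))
        ((Real.sqrt (α * β) : ℂ) • (B * Aᴴ))
        ((β : ℂ) • (B * Bᴴ) + (κ : ℂ) • (A * Aᴴ)) = T * Tᴴ := by
    ext ⟨s, i⟩ ⟨s', j⟩
    rw [Matrix.mul_apply, Fintype.sum_prod_type, Fintype.sum_bool]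
    cases s <;> cases s' <;>
      simp [bm, T, Matrix.mul_apply, Matrix.conjTranspose_apply, Finset.mul_sum, sαβ, ← sα, ← sβ,
        ← sκ, Finset.sum_add_distrib]
    · refine Finset.sum_congr rfl fun x _ => ?_
      ring
    · refine Finset.sum_congr rfl fun x _ => ?_
      ring
    · refine Finset.sum_congr rfl fun x _ => ?_
      ring
    · rw [add_comm]
      congr 1
      · refine Finset.sum_congr rfl fun x _ => ?_
        ring
      · refine Finset.sum_congr rfl fun x _ => ?_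
        ring
  have hMpsd : (bm ((α : ℂ) • (A * Aᴴ)) ((Real.sqrt (α * β) : ℂ) • (A * Bᴴ))
        ((Real.sqrt (α * β) : ℂ) • (B * Aᴴ))
        ((β : ℂ) • (B * Bᴴ) + (κ : ℂ) • (A * Aᴴ))).PosSemidef := by
    rw [hMT]; exact posSemidef_self_mul_conjTranspose T
  have hM := hMpsd.isHermitian
  -- singular values of the padded `B`
  set Bh : Matrix (Bool × e) (Bool × e) ℂ := Jm e * B with hBh
  have hYpsd : (Bh * Bhᴴ).PosSemidef := posSemidef_self_mul_conjTranspose Bh
  have hY : (Bh * Bhᴴ).IsHermitian := hYpsd.isHermitian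
  obtain ⟨W, hW, hsvd⟩ := svd_rect (Function.Embedding.refl (Bool × e)) Bh hY rfl
  have hsvd' : star (hY.eigenvectorUnitary : Matrix (Bool × e) (Bool × e) ℂ) * Bh * W =
      diagonal (fun k => ((Real.sqrt (hY.eigenvalues k) : ℝ) : ℂ)) := by
    rw [hsvd]
    ext k r
    by_cases h : k = r
    · subst h; simp
    · simp [h]
  have hb : ∀ k, 0 ≤ hY.eigenvalues k := fun k => hYpsd.eigenvalues_nonneg k
  have hYJ : Bh * Bhᴴ = bm (B * Bᴴ) 0 0 0 := by
    rw [← Jm_conj, hBh, conjTranspose_mul (Jm e) B]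
    simp only [Matrix.mul_assoc]
  set U₀ : Matrix (Bool × e) (Bool × e) ℂ := (hY.eigenvectorUnitary : Matrix (Bool × e) (Bool × e) ℂ)
    with hU₀d
  have hU₀ : U₀ ∈ unitaryGroup (Bool × e) ℂ := hY.eigenvectorUnitary.2
  have hUr : U₀ * star U₀ = 1 := mem_unitaryGroup_iff.mp hU₀
  have hWr : W * star W = 1 := mem_unitaryGroup_iff.mp hW
  set q : Bool × e → ℝ := fun k => ((star W * ((α : ℂ) • (Aᴴ * A)) * W) k k).re with hq
  set p : Bool × e → ℝ := fun k =>
    ((star U₀ * ((κ : ℂ) • (Jm e * (A * Aᴴ) * (Jm e)ᴴ)) * U₀) k k).re with hp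
  have hqpsd : (star W * ((α : ℂ) • (Aᴴ * A)) * W).PosSemidef := by
    have := ((posSemidef_conjTranspose_mul_self A).smul hα').conjTranspose_mul_mul_same W
    simpa [star_eq_conjTranspose] using this
  have hppsd : (star U₀ * ((κ : ℂ) • (Jm e * (A * Aᴴ) * (Jm e)ᴴ)) * U₀).PosSemidef := by
    have := ((hXpsd.mul_mul_conjTranspose_same (Jm e)).smul hκ').conjTranspose_mul_mul_same U₀
    simpa [star_eq_conjTranspose] using this
  have hp0 : ∀ k, 0 ≤ p k := fun k => (Complex.le_def.mp hppsd.diag_nonneg).1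
  have hq0 : ∀ k, 0 ≤ q k := fun k => (Complex.le_def.mp hqpsd.diag_nonneg).1
  have htrX : (Jm e * (A * Aᴴ) * (Jm e)ᴴ).trace = (A * Aᴴ).trace := by
    rw [Matrix.trace_mul_cycle, Jm_iso, Matrix.one_mul]
  have hUl : star U₀ * U₀ = 1 := mem_unitaryGroup_iff'.mp hU₀
  have hsump : ∑ k, p k = κ * (A * Aᴴ).trace.re := by
    have h1 : ∑ k, p k = (star U₀ * ((κ : ℂ) • (Jm e * (A * Aᴴ) * (Jm e)ᴴ)) * U₀).trace.re := by
      rw [Matrix.trace, Complex.re_sum]; rfl
    rw [h1, Matrix.trace_mul_cycle, hUr, Matrix.one_mul, Matrix.trace_smul, htrX, smul_eq_mul,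
      Complex.re_ofReal_mul]
  have hsumq : ∑ k, q k = α * (A * Aᴴ).trace.re := by
    have h1 : ∑ k, q k = (star W * ((α : ℂ) • (Aᴴ * A)) * W).trace.re := by
      rw [Matrix.trace, Complex.re_sum]; rfl
    rw [h1, Matrix.trace_mul_cycle, hWr, Matrix.one_mul, Matrix.trace_smul, Matrix.trace_mul_comm,
      smul_eq_mul, Complex.re_ofReal_mul]
  have hsumb : ∑ k, hY.eigenvalues k = (B * Bᴴ).trace.re := by
    have h1 : (Bh * Bhᴴ).trace = (B * Bᴴ).trace := by
      rw [hYJ, ← Jm_conj, Matrix.trace_mul_cycle, Jm_iso, Matrix.one_mul]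
    rw [← h1, hY.trace_eq_sum_eigenvalues, Complex.re_sum]
    rfl
  have hent : ∑ k, Real.negMulLog (hY.eigenvalues k) = vnEntropy (B * Bᴴ) := by
    rw [← vn_pad (posSemidef_self_mul_conjTranspose B).isHermitian, ← hYJ]
    unfold vnEntropy
    rw [dif_pos hY, ← Finset.sum_neg_distrib]
    refine Finset.sum_congr rfl fun k _ => ?_
    rw [Real.negMulLog, neg_mul]
  have hmain : ∀ t : ℝ, 0 < t →
        (∑ i, Real.log (t + α * hX.eigenvalues i)) + (∑ i, Real.log (t + κ * hX.eigenvalues i))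
          + ∑ k : Bool × e, (Real.log ((t + p k) * (t + q k) + t * (β * hY.eigenvalues k))
              - Real.log (t + p k) - Real.log (t + q k))
          ≤ ∑ i, Real.log (t + hM.eigenvalues i) := by
    intro t ht
    have hcore := det_core A B hα hβ hκ U₀ W hU₀ hW hY.eigenvalues hb
      (by rw [← hBh]; exact hsvd') hX hM t ht
    have hXe : ∀ i, 0 ≤ hX.eigenvalues i := fun i => hXpsd.eigenvalues_nonneg i
    have hMe' : ∀ i, 0 ≤ hM.eigenvalues i := fun i => hMpsd.eigenvalues_nonneg i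
    have hp1 : ∀ k, 0 < t + p k := fun k => by have := hp0 k; linarith
    have hq1 : ∀ k, 0 < t + q k := fun k => by have := hq0 k; linarith
    have ha : ∀ i, 0 < t + α * hX.eigenvalues i := fun i => by
      have := mul_nonneg hα (hXe i); linarith
    have hk : ∀ i, 0 < t + κ * hX.eigenvalues i := fun i => by
      have := mul_nonneg hκ (hXe i); linarith
    have hf : ∀ k, 0 < 1 + t * (β * hY.eigenvalues k) / ((t + q k) * (t + p k)) := fun k => by
      have h1 : 0 ≤ t * (β * hY.eigenvalues k) := mul_nonneg ht.le (mul_nonneg hβ (hb k))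
      have h2 : 0 < (t + q k) * (t + p k) := mul_pos (hq1 k) (hp1 k)
      have := div_nonneg h1 h2.le
      linarith
    have hlog := Real.log_le_log (mul_pos (mul_pos (Finset.prod_pos fun i _ => ha i)
      (Finset.prod_pos fun i _ => hk i)) (Finset.prod_pos fun k _ => hf k)) hcore
    rw [Real.log_mul (mul_pos (Finset.prod_pos fun i _ => ha i)
      (Finset.prod_pos fun i _ => hk i)).ne' (Finset.prod_pos fun k _ => hf k).ne',
      Real.log_mul (Finset.prod_pos fun i _ => ha i).ne' (Finset.prod_pos fun i _ => hk i).ne',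
      Real.log_prod (fun i _ => (ha i).ne'), Real.log_prod (fun i _ => (hk i).ne'),
      Real.log_prod (fun k _ => (hf k).ne'),
      Real.log_prod (fun i _ => (by have := hMe' i; linarith : 0 < t + hM.eigenvalues i).ne')] at hlog
    refine le_trans (le_of_eq ?_) hlog
    congr 1
    refine Finset.sum_congr rfl fun k _ => ?_
    have h1 : 0 ≤ t * (β * hY.eigenvalues k) := mul_nonneg ht.le (mul_nonneg hβ (hb k))
    have h2 : 0 < (t + p k) * (t + q k) := mul_pos (hp1 k) (hq1 k)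
    have h3 : 1 + t * (β * hY.eigenvalues k) / ((t + q k) * (t + p k)) =
        ((t + p k) * (t + q k) + t * (β * hY.eigenvalues k)) / ((t + p k) * (t + q k)) := by
      have := (hp1 k).ne'
      have := (hq1 k).ne'
      field_simp
    rw [h3, Real.log_div (by linarith) h2.ne', Real.log_mul (hp1 k).ne' (hq1 k).ne']
    ring
  have hcast : ∀ (X' Y' : Matrix e e ℂ) (M' : Matrix (Bool × e) (Bool × e) ℂ),
      X' = A * Aᴴ → Y' = B * Bᴴ → M' = bm ((α : ℂ) • (A * Aᴴ)) ((Real.sqrt (α * β) : ℂ) • (A * Bᴴ))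
        ((Real.sqrt (α * β) : ℂ) • (B * Aᴴ))
        ((β : ℂ) • (B * Bᴴ) + (κ : ℂ) • (A * Aᴴ)) →
      ∃ (hX : X'.IsHermitian) (hM : M'.IsHermitian) (p q b : Bool × e → ℝ),
      (∀ k, 0 ≤ p k) ∧ (∀ k, 0 ≤ q k) ∧ (∀ k, 0 ≤ b k) ∧
      (∑ k, p k = κ * X'.trace.re) ∧ (∑ k, q k = α * X'.trace.re) ∧
      (∑ k, b k = Y'.trace.re) ∧ (∑ k, Real.negMulLog (b k) = vnEntropy Y') ∧
      (∀ i, 0 ≤ hX.eigenvalues i) ∧ (∀ i, 0 ≤ hM.eigenvalues i) ∧
      ∀ t : ℝ, 0 < t →
        (∑ i, Real.log (t + α * hX.eigenvalues i)) + (∑ i, Real.log (t + κ * hX.eigenvalues i))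
          + ∑ k : Bool × e, (Real.log ((t + p k) * (t + q k) + t * (β * b k))
              - Real.log (t + p k) - Real.log (t + q k))
          ≤ ∑ i, Real.log (t + hM.eigenvalues i) := by
    rintro X' Y' M' rfl rfl rfl
    exact ⟨hX, hM, p, q, hY.eigenvalues, hp0, hq0, hb, hsump, hsumq, hsumb, hent,
      fun i => hXpsd.eigenvalues_nonneg i, fun i => hMpsd.eigenvalues_nonneg i, hmain⟩
  exact hcast _ _ _ hb00 hb11 hMe

end Crest.Agent.AD
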