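import Mathlib
import Crest.Agent.AD.Klein
import Crest.Agent.AD.Defs

set_option autoImplicit false
set_option linter.unusedSectionVars false

namespace Crest.Agent.AD

open Matrix Crest.Quantum
open scoped ComplexOrder BigOperators Kronecker

theorem trR_eq_pA {k d : Type} [Fintype d] (M : Matrix (k × d) (k × d) ℂ) : trR M = pA M := by
  ext s t
  simp [trR, pA, block, Matrix.trace]

theorem trL_eq_pB {k d : Type} [Fintype k] (M : Matrix (k × d) (k × d) ℂ) : trL M = pB M := by
  ext s t
  simp [trL, pB, block, Matrix.sum_apply]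

theorem ent_subadd {e : Type} [Fintype e] [DecidableEq e]
    {M : Matrix (Bool × e) (Bool × e) ℂ} (h : IsDensity M) :
    vnEntropy M ≤ vnEntropy (trR M) + vnEntropy (trL M) := by
  rw [trR_eq_pA, trL_eq_pB]
  exact vn_subadditive h

/-- Reindexing invariance. -/
theorem vn_reindex {d e : Type*} [Fintype d] [DecidableEq d] [Fintype e] [DecidableEq e]
    (f : e ≃ d) (A : Matrix d d ℂ) : vnEntropy (A.submatrix f f) = vnEntropy A := by
  by_cases hA : A.IsHermitian
  · have hB : (A.submatrix f f).IsHermitian := hA.submatrix f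
    rw [vn_of_charpoly hB hA.eigenvalues, vn_of_charpoly hA hA.eigenvalues]
    · exact hA.charpoly_eq
    · have : A.submatrix f f = Matrix.reindex f.symm f.symm A := by
        simp [Matrix.reindex_apply]
      rw [this, Matrix.charpoly_reindex]
      exact hA.charpoly_eq
  · have hB : ¬ (A.submatrix f f).IsHermitian := by
      intro h
      apply hA
      have := h.submatrix f.symm
      simpa using this
    unfold vnEntropy
    rw [dif_neg hA, dif_neg hB]

theorem kron_charpoly {A B : Type*} [Fintype A] [DecidableEq A] [Fintype B] [DecidableEq B]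
    {X : Matrix A A ℂ} {Y : Matrix B B ℂ} (hX : X.IsHermitian) (hY : Y.IsHermitian) :
    (X ⊗ₖ Y).charpoly = ∏ j : A × B, (Polynomial.X -
      Polynomial.C (((hX.eigenvalues j.1 * hY.eigenvalues j.2 : ℝ)) : ℂ)) := by
  have eX : X = (hX.eigenvectorUnitary : Matrix A A ℂ) *
      diagonal (fun i => ((hX.eigenvalues i : ℝ) : ℂ)) *
      star (hX.eigenvectorUnitary : Matrix A A ℂ) := by
    conv_lhs => rw [hX.spectral_theorem, Unitary.conjStarAlgAut_apply]
    rfl
  have eY : Y = (hY.eigenvectorUnitary : Matrix B B ℂ) *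
      diagonal (fun i => ((hY.eigenvalues i : ℝ) : ℂ)) *
      star (hY.eigenvectorUnitary : Matrix B B ℂ) := by
    conv_lhs => rw [hY.spectral_theorem, Unitary.conjStarAlgAut_apply]
    rfl
  have hXX : star (hX.eigenvectorUnitary : Matrix A A ℂ) * (hX.eigenvectorUnitary : Matrix A A ℂ)
    = 1 := mem_unitaryGroup_iff'.mp hX.eigenvectorUnitary.2
  have hYY : star (hY.eigenvectorUnitary : Matrix B B ℂ) * (hY.eigenvectorUnitary : Matrix B B ℂ)
    = 1 := mem_unitaryGroup_iff'.mp hY.eigenvectorUnitary.2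
  have e : X ⊗ₖ Y = ((hX.eigenvectorUnitary : Matrix A A ℂ) ⊗ₖ (hY.eigenvectorUnitary :
      Matrix B B ℂ)) * diagonal (fun j : A × B =>
        (((hX.eigenvalues j.1 * hY.eigenvalues j.2 : ℝ)) : ℂ)) *
      (star (hX.eigenvectorUnitary : Matrix A A ℂ) ⊗ₖ
        star (hY.eigenvectorUnitary : Matrix B B ℂ)) := by
    have : diagonal (fun j : A × B =>
        (((hX.eigenvalues j.1 * hY.eigenvalues j.2 : ℝ)) : ℂ)) =
        (diagonal (fun i => ((hX.eigenvalues i : ℝ) : ℂ))) ⊗ₖ
        (diagonal (fun i => ((hY.eigenvalues i : ℝ) : ℂ))) := by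
      rw [Matrix.diagonal_kronecker_diagonal]
      simp
    rw [this, ← Matrix.mul_kronecker_mul, ← Matrix.mul_kronecker_mul, ← eX, ← eY]
  rw [e, charpoly_mul_comm, ← mul_assoc, ← Matrix.mul_kronecker_mul, hXX, hYY]
  simp [charpoly_diagonal]

/-- Entropy of a Kronecker product. -/
theorem vn_kron {A B : Type*} [Fintype A] [DecidableEq A] [Fintype B] [DecidableEq B]
    {X : Matrix A A ℂ} {Y : Matrix B B ℂ} (hX : X.IsHermitian) (hY : Y.IsHermitian) :
    vnEntropy (X ⊗ₖ Y) = Y.trace.re * vnEntropy X + X.trace.re * vnEntropy Y := by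
  have hXY : (X ⊗ₖ Y).IsHermitian := by
    unfold Matrix.IsHermitian
    rw [Matrix.conjTranspose_kronecker, hX.eq, hY.eq]
  rw [vn_of_charpoly hXY (fun j : A × B => hX.eigenvalues j.1 * hY.eigenvalues j.2)
    (kron_charpoly hX hY)]
  have tX : X.trace.re = ∑ i, hX.eigenvalues i := by
    rw [hX.trace_eq_sum_eigenvalues, Complex.re_sum]; rfl
  have tY : Y.trace.re = ∑ i, hY.eigenvalues i := by
    rw [hY.trace_eq_sum_eigenvalues, Complex.re_sum]; rfl
  have eX : vnEntropy X = -∑ k, hX.eigenvalues k * Real.log (hX.eigenvalues k) := by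
    unfold vnEntropy; rw [dif_pos hX]
  have eY : vnEntropy Y = -∑ k, hY.eigenvalues k * Real.log (hY.eigenvalues k) := by
    unfold vnEntropy; rw [dif_pos hY]
  rw [tX, tY, eX, eY]
  have e1 : ∀ x : A × B, hX.eigenvalues x.1 * hY.eigenvalues x.2 *
      Real.log (hX.eigenvalues x.1 * hY.eigenvalues x.2) =
      hY.eigenvalues x.2 * (hX.eigenvalues x.1 * Real.log (hX.eigenvalues x.1)) +
      hX.eigenvalues x.1 * (hY.eigenvalues x.2 * Real.log (hY.eigenvalues x.2)) := by
    rintro ⟨k, l⟩
    simp only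
    by_cases h1 : hX.eigenvalues k = 0
    · simp [h1]
    by_cases h2 : hY.eigenvalues l = 0
    · simp [h2]
    · rw [Real.log_mul h1 h2]; ring
  simp only [e1]
  rw [Finset.sum_add_distrib, Fintype.sum_prod_type_right, Fintype.sum_prod_type]
  simp only [← Finset.mul_sum, ← Finset.sum_mul]
  ring

/-- Additivity of the entropy on density matrices. -/
theorem vn_kron_density {A B : Type*} [Fintype A] [DecidableEq A] [Fintype B] [DecidableEq B]
    {X : Matrix A A ℂ} {Y : Matrix B B ℂ} (hX : IsDensity X) (hY : IsDensity Y) :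
    vnEntropy (X ⊗ₖ Y) = vnEntropy X + vnEntropy Y := by
  rw [vn_kron hX.1.1 hY.1.1, hX.2, hY.2]
  simp

theorem kron_isDensity {A B : Type*} [Fintype A] [DecidableEq A] [Fintype B] [DecidableEq B]
    {X : Matrix A A ℂ} {Y : Matrix B B ℂ} (hX : IsDensity X) (hY : IsDensity Y) :
    IsDensity (X ⊗ₖ Y) :=
  ⟨hX.1.kronecker hY.1, by rw [Matrix.trace_kronecker, hX.2, hY.2, mul_one]⟩

end Crest.Agent.AD
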