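import Crest.Agent.AD.E3Defs
import Crest.Agent.AD.Kron

set_option autoImplicit false
open Crest.Quantum Crest.MathPhysics.AmpDamp Matrix
open scoped ComplexOrder Kronecker

namespace Crest.Agent.AD

section

variable {d : Type} [Fintype d] [DecidableEq d]

theorem det_eig {N : Matrix d d ℂ} (hN : N.IsHermitian) (t c : ℝ) :
    ((t : ℂ) • (1 : Matrix d d ℂ) + (c : ℂ) • N).det
      = ((∏ i, (t + c * hN.eigenvalues i) : ℝ) : ℂ) := by
  have hs : N = (hN.eigenvectorUnitary : Matrix d d ℂ) *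
      diagonal (fun i => ((hN.eigenvalues i : ℝ) : ℂ)) *
      star (hN.eigenvectorUnitary : Matrix d d ℂ) := by
    conv_lhs => rw [hN.spectral_theorem, Unitary.conjStarAlgAut_apply]
    rfl
  have hU : (hN.eigenvectorUnitary : Matrix d d ℂ) *
      star (hN.eigenvectorUnitary : Matrix d d ℂ) = 1 :=
    mem_unitaryGroup_iff.mp hN.eigenvectorUnitary.2
  have h1 : (t : ℂ) • (1 : Matrix d d ℂ) + (c : ℂ) • N =
      (hN.eigenvectorUnitary : Matrix d d ℂ) *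
      diagonal (fun i => ((t + c * hN.eigenvalues i : ℝ) : ℂ)) *
      star (hN.eigenvectorUnitary : Matrix d d ℂ) := by
    have h2 : diagonal (fun i => ((t + c * hN.eigenvalues i : ℝ) : ℂ)) =
        (t : ℂ) • (1 : Matrix d d ℂ) +
          (c : ℂ) • diagonal (fun i => ((hN.eigenvalues i : ℝ) : ℂ)) := by
      ext i j
      by_cases h : i = j
      · subst h; simp
      · simp [h, Matrix.one_apply]
    rw [h2, Matrix.mul_add, Matrix.add_mul, Matrix.mul_smul, Matrix.smul_mul, Matrix.mul_smul,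
      Matrix.smul_mul, Matrix.mul_one, hU, ← hs]
  rw [h1, det_mul_right_comm, hU, one_mul, det_diagonal]
  push_cast
  rfl

/-- padding of a scalar-plus-small matrix -/
theorem det_pad {r : Type} [Fintype r] [DecidableEq r] (J : Matrix r d ℂ) (hJ : Jᴴ * J = 1)
    (t : ℝ) (ht : 0 < t) (G : Matrix d d ℂ) :
    ((t : ℂ) • (1 : Matrix r r ℂ) + J * G * Jᴴ).det * (t : ℂ) ^ Fintype.card d =
      (t : ℂ) ^ Fintype.card r * ((t : ℂ) • (1 : Matrix d d ℂ) + G).det := by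
  have ht' : (t : ℂ) ≠ 0 := by exact_mod_cast ht.ne'
  have h1 : (t : ℂ) • (1 : Matrix r r ℂ) + J * G * Jᴴ =
      (t : ℂ) • (1 + J * ((t : ℂ)⁻¹ • (G * Jᴴ))) := by
    rw [smul_add, Matrix.mul_smul, smul_smul, mul_inv_cancel₀ ht', one_smul, Matrix.mul_assoc]
  have h2 : (t : ℂ) • (1 : Matrix d d ℂ) + G = (t : ℂ) • (1 + ((t : ℂ)⁻¹ • (G * Jᴴ)) * J) := by
    rw [smul_add, Matrix.smul_mul, smul_smul, mul_inv_cancel₀ ht', one_smul, Matrix.mul_assoc, hJ,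
      Matrix.mul_one]
  rw [h1, h2, det_smul, det_smul, det_one_add_mul_comm]
  ring

end

section

variable {e r : Type} [Fintype e] [DecidableEq e] [Fintype r] [DecidableEq r]

theorem posdef_shift (N : Matrix e e ℂ) (hN : N.PosSemidef) {t : ℝ} (ht : 0 < t) :
    ((t : ℂ) • (1 : Matrix e e ℂ) + N).PosDef := by
  have h1 : ((t : ℂ) • (1 : Matrix e e ℂ)).PosDef := by
    have : (0 : ℂ) < (t : ℂ) := by exact_mod_cast ht
    exact Matrix.PosDef.one.smul this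
  exact h1.add_posSemidef hN

theorem push_through (A : Matrix e r ℂ) (α t : ℝ) (hα : 0 ≤ α) (ht : 0 < t) :
    (1 : Matrix r r ℂ) - (α : ℂ) • (Aᴴ * ((t : ℂ) • (1 : Matrix e e ℂ) + (α : ℂ) • (A * Aᴴ))⁻¹ * A)
      = (t : ℂ) • ((t : ℂ) • (1 : Matrix r r ℂ) + (α : ℂ) • (Aᴴ * A))⁻¹ := by
  have hα' : (0 : ℂ) ≤ (α : ℂ) := by exact_mod_cast hα
  have hP : ((t : ℂ) • (1 : Matrix e e ℂ) + (α : ℂ) • (A * Aᴴ)).PosDef :=
    posdef_shift _ ((posSemidef_self_mul_conjTranspose A).smul hα') ht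
  have hU : ((t : ℂ) • (1 : Matrix r r ℂ) + (α : ℂ) • (Aᴴ * A)).PosDef :=
    posdef_shift _ ((posSemidef_conjTranspose_mul_self A).smul hα') ht
  set P := (t : ℂ) • (1 : Matrix e e ℂ) + (α : ℂ) • (A * Aᴴ) with hPdef
  set U := (t : ℂ) • (1 : Matrix r r ℂ) + (α : ℂ) • (Aᴴ * A) with hUdef
  have hPd : IsUnit P.det := (Matrix.isUnit_iff_isUnit_det _).mp hP.isUnit
  have hUd : IsUnit U.det := (Matrix.isUnit_iff_isUnit_det _).mp hU.isUnit
  have hAU : A * U = P * A := by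
    rw [hPdef, hUdef, Matrix.mul_add, Matrix.add_mul]
    simp only [Matrix.mul_smul, Matrix.smul_mul, Matrix.mul_one, Matrix.one_mul, Matrix.mul_assoc]
  have key : ((1 : Matrix r r ℂ) - (α : ℂ) • (Aᴴ * P⁻¹ * A)) * U = (t : ℂ) • 1 := by
    rw [Matrix.sub_mul, Matrix.one_mul, Matrix.smul_mul, Matrix.mul_assoc (Aᴴ * P⁻¹), hAU,
      ← Matrix.mul_assoc, Matrix.mul_assoc Aᴴ, Matrix.nonsing_inv_mul _ hPd, Matrix.mul_one, hUdef]
    abel
  calc (1 : Matrix r r ℂ) - (α : ℂ) • (Aᴴ * P⁻¹ * A)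
      = ((1 : Matrix r r ℂ) - (α : ℂ) • (Aᴴ * P⁻¹ * A)) * (U * U⁻¹) := by
        rw [Matrix.mul_nonsing_inv _ hUd, Matrix.mul_one]
    _ = (t : ℂ) • U⁻¹ := by
        rw [← Matrix.mul_assoc, key, Matrix.smul_mul, Matrix.one_mul]

theorem bm_eq_submatrix (A B C D : Matrix e e ℂ) :
    bm A B C D = (fromBlocks A B C D).submatrix (Equiv.boolProdEquivSum e)
      (Equiv.boolProdEquivSum e) := by
  ext ⟨s, i⟩ ⟨t, j⟩
  cases s <;> cases t <;> simp [bm, Equiv.boolProdEquivSum]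

theorem bm_det (A B C D : Matrix e e ℂ) (hA : IsUnit A.det) :
    (bm A B C D).det = A.det * (D - C * A⁻¹ * B).det := by
  rw [bm_eq_submatrix, det_submatrix_equiv_self]
  letI := Matrix.invertibleOfIsUnitDet A hA
  rw [det_fromBlocks₁₁, Matrix.invOf_eq_nonsing_inv]

theorem bm_shift (t : ℂ) (A B C D : Matrix e e ℂ) :
    t • (1 : Matrix (Bool × e) (Bool × e) ℂ) + bm A B C D =
      bm (t • 1 + A) B C (t • 1 + D) := by
  ext ⟨s, i⟩ ⟨s', j⟩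
  cases s <;> cases s' <;> by_cases h : i = j <;> simp [bm, Matrix.one_apply, h]

/-- the determinant identity for the three-block matrix -/
theorem det_M3 (A B : Matrix e r ℂ) {α β κ t : ℝ} (hα : 0 ≤ α) (hβ : 0 ≤ β) (ht : 0 < t) :
    ((t : ℂ) • (1 : Matrix (Bool × e) (Bool × e) ℂ) +
      bm ((α : ℂ) • (A * Aᴴ)) ((Real.sqrt (α * β) : ℂ) • (A * Bᴴ))
        ((Real.sqrt (α * β) : ℂ) • (B * Aᴴ))
        ((β : ℂ) • (B * Bᴴ) + (κ : ℂ) • (A * Aᴴ))).det =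
      ((t : ℂ) • (1 : Matrix e e ℂ) + (α : ℂ) • (A * Aᴴ)).det *
        ((t : ℂ) • (1 : Matrix e e ℂ) + ((κ : ℂ) • (A * Aᴴ) +
          ((t * β : ℝ) : ℂ) • (B * ((t : ℂ) • (1 : Matrix r r ℂ) + (α : ℂ) • (Aᴴ * A))⁻¹ * Bᴴ))).det := by
  have hα' : (0 : ℂ) ≤ (α : ℂ) := by exact_mod_cast hα
  have hP : ((t : ℂ) • (1 : Matrix e e ℂ) + (α : ℂ) • (A * Aᴴ)).PosDef :=
    posdef_shift _ ((posSemidef_self_mul_conjTranspose A).smul hα') ht
  have hPd := (Matrix.isUnit_iff_isUnit_det _).mp hP.isUnit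
  rw [bm_shift, bm_det _ _ _ _ hPd]
  congr 2
  have hs : (Real.sqrt (α * β) : ℂ) * (Real.sqrt (α * β) : ℂ) = (α : ℂ) * (β : ℂ) := by
    rw [← Complex.ofReal_mul, Real.mul_self_sqrt (mul_nonneg hα hβ), Complex.ofReal_mul]
  have h1 : (t : ℂ) • ((t : ℂ) • (1 : Matrix r r ℂ) + (α : ℂ) • (Aᴴ * A))⁻¹ = 
    (1 : Matrix r r ℂ) - (α : ℂ) • (Aᴴ * ((t : ℂ) • (1 : Matrix e e ℂ) + (α : ℂ) • (A * Aᴴ))⁻¹ * A) :=
    (push_through A α t hα ht).symm
  have h2 : ((t * β : ℝ) : ℂ) • (B * ((t : ℂ) • (1 : Matrix r r ℂ) + (α : ℂ) • (Aᴴ * A))⁻¹ * Bᴴ) =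
      (β : ℂ) • (B * ((t : ℂ) • ((t : ℂ) • (1 : Matrix r r ℂ) + (α : ℂ) • (Aᴴ * A))⁻¹) * Bᴴ) := by
    rw [Matrix.mul_smul, Matrix.smul_mul, smul_smul]
    push_cast
    rw [mul_comm (t : ℂ)]
  rw [h2, h1]
  simp only [Matrix.smul_mul, Matrix.mul_smul, smul_smul, hs, Matrix.mul_sub, Matrix.sub_mul,
    Matrix.mul_one, smul_sub, Matrix.mul_assoc]
  rw [mul_comm (α : ℂ) (β : ℂ)]
  abel

end

end Crest.Agent.AD
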