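import Crest.Agent.AD.E3Core
import Crest.Agent.AD.Det

set_option autoImplicit false
open Crest.Quantum Crest.MathPhysics.AmpDamp
open scoped ComplexOrder Kronecker

namespace Crest.Agent.AD

variable {e : Type} [Fintype e] [DecidableEq e]

theorem E3 {σ : Matrix (Bool × e) (Bool × e) ℂ} (hσ : σ.PosSemidef) {α β κ : ℝ}
    (hα : 0 ≤ α) (hβ : 0 ≤ β) (hκ : 0 ≤ κ) :
    S2 (β * (block σ true true).trace.re) (κ * (block σ false false).trace.re)
        (α * (block σ false false).trace.re)
      - Real.negMulLog ((M3 σ α β κ).trace.re)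
      + (α + κ) * Sh (block σ false false) + β * Sh (block σ true true)
      ≤ Sh (M3 σ α β κ) :=
  E3_of_det hα hβ hκ (det_ineq hσ hα hβ hκ)

end Crest.Agent.AD
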