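import Crest.Agent.AD.Transfer

set_option autoImplicit false

namespace Crest.Agent.AD

theorem int_lemma {ι : Type} [Fintype ι] (c l : ι → ℝ) (hl : ∀ i, 0 ≤ l i) (h0 : ∑ i, c i = 0)
    (h1 : ∑ i, c i * l i = 0) (h : ∀ t : ℝ, 0 < t → 0 ≤ ∑ i, c i * Real.log (t + l i)) :
    0 ≤ ∑ i, c i * Real.negMulLog (l i) :=
  transfer Finset.univ c l (fun i _ => hl i) h0 h1 h

end Crest.Agent.AD
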