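import Crest.Agent.AD.E3Defs
import Crest.Agent.AD.Int

set_option autoImplicit false
set_option linter.unusedVariables false
open Crest.Quantum Crest.MathPhysics.AmpDamp
open scoped ComplexOrder Kronecker

namespace Crest.Agent.AD

theorem log_conv {θ z : ℝ} (h0 : 0 ≤ θ) (h1 : θ ≤ 1) (hz : 0 < z) :
    θ * Real.log z ≤ Real.log ((1 - θ) + θ * z) := by
  have h := strictConcaveOn_log_Ioi.concaveOn.2 (x := (1 : ℝ)) (y := z)
    (Set.mem_Ioi.mpr one_pos) (Set.mem_Ioi.mpr hz) (sub_nonneg.mpr h1) h0 (by ring)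
  simpa using h

theorem g_tangent {t b p q P Q : ℝ} (ht : 0 < t) (hb : 0 ≤ b) (hp : 0 ≤ p) (hq : 0 ≤ q)
    (hP : 0 ≤ P) (hQ : 0 ≤ Q) :
    Real.log ((t + P) * (t + Q) + t * b) - Real.log (t + P) - Real.log (t + Q)
      - (t * b / ((t + P) * (t + Q) + t * b)) * ((p - P) / (t + P) + (q - Q) / (t + Q))
    ≤ Real.log ((t + p) * (t + q) + t * b) - Real.log (t + p) - Real.log (t + q) := by
  have ha : 0 < t + p := by positivity
  have hc : 0 < t + q := by positivity
  have hA : 0 < t + P := by positivity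
  have hC : 0 < t + Q := by positivity
  have hk : 0 ≤ t * b := by positivity
  generalize t * b = k at hk ⊢
  have hap : (p - P) / (t + P) = (t + p) / (t + P) - 1 := by field_simp; ring
  have hcq : (q - Q) / (t + Q) = (t + q) / (t + Q) - 1 := by field_simp; ring
  rw [hap, hcq]
  generalize t + p = a at ha ⊢
  generalize t + q = c at hc ⊢
  generalize t + P = A at hA ⊢
  generalize t + Q = C at hC ⊢
  have hD : 0 < A * C + k := by positivity
  set θ := k / (A * C + k) with hθ
  have hθ0 : 0 ≤ θ := by positivity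
  have hθ1 : θ ≤ 1 := by
    rw [hθ, div_le_one hD]
    have := mul_pos hA hC
    linarith
  have hz : 0 < (A * C) / (a * c) := by positivity
  have h1 := log_conv hθ0 hθ1 hz
  have h2 : (1 - θ) + θ * ((A * C) / (a * c)) = (a * c + k) * (A * C) / ((A * C + k) * (a * c)) := by
    rw [hθ]; field_simp; ring
  have hack : 0 < a * c + k := by positivity
  have h6 : Real.log ((a * c + k) * (A * C) / ((A * C + k) * (a * c)))
      = (Real.log (a * c + k) + (Real.log A + Real.log C))
        - (Real.log (A * C + k) + (Real.log a + Real.log c)) := by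
    rw [Real.log_div (by positivity) (by positivity), Real.log_mul hack.ne' (by positivity),
      Real.log_mul hD.ne' (by positivity), Real.log_mul hA.ne' hC.ne', Real.log_mul ha.ne' hc.ne']
  have h7 : Real.log (A * C / (a * c)) = (Real.log A + Real.log C) - (Real.log a + Real.log c) := by
    rw [Real.log_div (by positivity) (by positivity), Real.log_mul hA.ne' hC.ne',
      Real.log_mul ha.ne' hc.ne']
  rw [h2, h6, h7] at h1
  have h3 : Real.log a - Real.log A ≤ a / A - 1 := by
    rw [← Real.log_div ha.ne' hA.ne']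
    exact Real.log_le_sub_one_of_pos (by positivity)
  have h4 : Real.log c - Real.log C ≤ c / C - 1 := by
    rw [← Real.log_div hc.ne' hC.ne']
    exact Real.log_le_sub_one_of_pos (by positivity)
  have h5 := mul_le_mul_of_nonneg_left (add_le_add h3 h4) hθ0
  nlinarith [h1, h5]

section S2facts

variable {b p q : ℝ}

theorem disc_nonneg (hb : 0 ≤ b) (hp : 0 ≤ p) (hq : 0 ≤ q) :
    0 ≤ (b + p + q) ^ 2 - 4 * (p * q) := by
  nlinarith [sq_nonneg (p - q), mul_nonneg hb hp, mul_nonneg hb hq, sq_nonneg b]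

noncomputable def lp (b p q : ℝ) : ℝ :=
  ((b + p + q) + Real.sqrt ((b + p + q) ^ 2 - 4 * (p * q))) / 2

noncomputable def lm (b p q : ℝ) : ℝ :=
  ((b + p + q) - Real.sqrt ((b + p + q) ^ 2 - 4 * (p * q))) / 2

theorem S2_eq (b p q : ℝ) : S2 b p q = Real.negMulLog (lp b p q) + Real.negMulLog (lm b p q) := rfl

theorem lp_nonneg (hb : 0 ≤ b) (hp : 0 ≤ p) (hq : 0 ≤ q) : 0 ≤ lp b p q := by
  unfold lp
  positivity

theorem lm_nonneg (hb : 0 ≤ b) (hp : 0 ≤ p) (hq : 0 ≤ q) : 0 ≤ lm b p q := by
  unfold lm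
  have h : Real.sqrt ((b + p + q) ^ 2 - 4 * (p * q)) ≤ b + p + q := by
    rw [Real.sqrt_le_left (by positivity)]
    nlinarith [mul_nonneg hp hq]
  linarith

theorem lp_add_lm (b p q : ℝ) : lp b p q + lm b p q = b + p + q := by
  unfold lp lm; ring

theorem lp_mul_lm (hb : 0 ≤ b) (hp : 0 ≤ p) (hq : 0 ≤ q) : lp b p q * lm b p q = p * q := by
  have h := Real.mul_self_sqrt (disc_nonneg hb hp hq)
  unfold lp lm
  nlinarith [h]

theorem log_lp_lm {t : ℝ} (ht : 0 < t) (hb : 0 ≤ b) (hp : 0 ≤ p) (hq : 0 ≤ q) :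
    Real.log (t + lp b p q) + Real.log (t + lm b p q) = Real.log ((t + p) * (t + q) + t * b) := by
  have h1 := lp_nonneg hb hp hq
  have h2 := lm_nonneg hb hp hq
  rw [← Real.log_mul (by positivity) (by positivity)]
  congr 1
  have h3 := lp_add_lm b p q
  have h4 := lp_mul_lm hb hp hq
  have : (t + lp b p q) * (t + lm b p q) = t ^ 2 + t * (lp b p q + lm b p q) + lp b p q * lm b p q := by
    ring
  rw [this, h3, h4]
  ring

end S2facts

theorem K3_jensen {ι : Type} [Fintype ι] {b : ℝ} (hb : 0 ≤ b) (w p q : ι → ℝ)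
    (hw : ∀ i, 0 ≤ w i) (hw1 : ∑ i, w i = 1) (hp : ∀ i, 0 ≤ p i) (hq : ∀ i, 0 ≤ q i)
    {P Q : ℝ} (hP : ∑ i, w i * p i ≤ P) (hQ : ∑ i, w i * q i ≤ Q) :
    K3 b P Q ≤ ∑ i, w i * K3 b (p i) (q i) := by
  have hP0 : 0 ≤ P := (Finset.sum_nonneg fun i _ => mul_nonneg (hw i) (hp i)).trans hP
  have hQ0 : 0 ≤ Q := (Finset.sum_nonneg fun i _ => mul_nonneg (hw i) (hq i)).trans hQ
  -- the signed family, indexed by Option ι × Fin 4
  let c : Option ι × Fin 4 → ℝ := fun x =>
    (match x.1 with | none => -1 | some i => w i) * ![1, 1, -1, -1] x.2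
  let l : Option ι × Fin 4 → ℝ := fun x =>
    match x.1 with
    | none => ![lp b P Q, lm b P Q, P, Q] x.2
    | some i => ![lp b (p i) (q i), lm b (p i) (q i), p i, q i] x.2
  have hsum : ∀ F : ℝ → ℝ, ∑ x, c x * F (l x) =
      ∑ i, w i * (F (lp b (p i) (q i)) + F (lm b (p i) (q i)) - F (p i) - F (q i))
        - (F (lp b P Q) + F (lm b P Q) - F P - F Q) := by
    intro F
    rw [Fintype.sum_prod_type, Fintype.sum_option]
    simp only [c, l, Fin.sum_univ_four]
    simp only [Matrix.cons_val_zero, Matrix.cons_val_one, Matrix.cons_val]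
    rw [add_comm, sub_eq_add_neg]
    congr 1
    · exact Finset.sum_congr rfl fun i _ => by ring
    · ring
  have key := int_lemma c l ?_ ?_ ?_ ?_
  · rw [hsum] at key
    simp only [K3, S2_eq]
    have e1 : ∑ i, w i * (Real.negMulLog (lp b (p i) (q i)) + Real.negMulLog (lm b (p i) (q i))
          - Real.negMulLog b - Real.negMulLog (p i) - Real.negMulLog (q i))
        = ∑ i, w i * (Real.negMulLog (lp b (p i) (q i)) + Real.negMulLog (lm b (p i) (q i))
          - Real.negMulLog (p i) - Real.negMulLog (q i)) - Real.negMulLog b := by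
      have : ∀ i, w i * (Real.negMulLog (lp b (p i) (q i)) + Real.negMulLog (lm b (p i) (q i))
          - Real.negMulLog b - Real.negMulLog (p i) - Real.negMulLog (q i))
          = w i * (Real.negMulLog (lp b (p i) (q i)) + Real.negMulLog (lm b (p i) (q i))
          - Real.negMulLog (p i) - Real.negMulLog (q i)) - w i * Real.negMulLog b := fun i => by ring
      rw [Finset.sum_congr rfl fun i _ => this i, Finset.sum_sub_distrib, ← Finset.sum_mul, hw1,
        one_mul]
    rw [e1]
    linarith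
  · rintro ⟨x, j⟩
    cases x with
    | none =>
      fin_cases j <;> simp [l, lp_nonneg hb hP0 hQ0, lm_nonneg hb hP0 hQ0, hP0, hQ0]
    | some i =>
      fin_cases j <;>
        simp [l, lp_nonneg hb (hp i) (hq i), lm_nonneg hb (hp i) (hq i), hp i, hq i]
  · have := hsum (fun _ => 1)
    simp only [mul_one] at this
    rw [this]
    simp
  · have := hsum (fun x => x)
    rw [this]
    have e : ∀ i, w i * (lp b (p i) (q i) + lm b (p i) (q i) - p i - q i) = w i * b := fun i => by
      rw [lp_add_lm]; ring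
    rw [Finset.sum_congr rfl fun i _ => e i, ← Finset.sum_mul, hw1, lp_add_lm]
    ring
  · intro t ht
    have := hsum (fun x => Real.log (t + x))
    rw [this, sub_nonneg, log_lp_lm ht hb hP0 hQ0]
    have e : ∀ i, w i * (Real.log (t + lp b (p i) (q i)) + Real.log (t + lm b (p i) (q i))
        - Real.log (t + p i) - Real.log (t + q i)) =
        w i * (Real.log ((t + p i) * (t + q i) + t * b) - Real.log (t + p i) - Real.log (t + q i)) :=
      fun i => by rw [log_lp_lm ht hb (hp i) (hq i)]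
    rw [Finset.sum_congr rfl fun i _ => e i]
    set G := Real.log ((t + P) * (t + Q) + t * b) - Real.log (t + P) - Real.log (t + Q) with hG
    set θ := t * b / ((t + P) * (t + Q) + t * b) with hθ
    have hθ0 : 0 ≤ θ := by positivity
    have hlow : ∑ i, w i * (G - θ * ((p i - P) / (t + P) + (q i - Q) / (t + Q))) ≤
        ∑ i, w i * (Real.log ((t + p i) * (t + q i) + t * b) - Real.log (t + p i)
          - Real.log (t + q i)) :=
      Finset.sum_le_sum fun i _ =>
        mul_le_mul_of_nonneg_left (g_tangent ht hb (hp i) (hq i) hP0 hQ0) (hw i)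
    refine le_trans ?_ hlow
    have e2 : ∑ i, w i * (G - θ * ((p i - P) / (t + P) + (q i - Q) / (t + Q)))
        = G - θ * ((∑ i, w i * p i - P) / (t + P) + (∑ i, w i * q i - Q) / (t + Q)) := by
      have : ∀ i, w i * (G - θ * ((p i - P) / (t + P) + (q i - Q) / (t + Q)))
          = w i * G - θ * ((w i * p i - w i * P) / (t + P) + (w i * q i - w i * Q) / (t + Q)) :=
        fun i => by ring
      rw [Finset.sum_congr rfl fun i _ => this i, Finset.sum_sub_distrib, ← Finset.sum_mul, hw1,
        ← Finset.mul_sum, Finset.sum_add_distrib, ← Finset.sum_div, ← Finset.sum_div,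
        Finset.sum_sub_distrib, Finset.sum_sub_distrib, ← Finset.sum_mul, ← Finset.sum_mul, hw1]
      ring
    rw [e2]
    have h1 : (∑ i, w i * p i - P) / (t + P) ≤ 0 :=
      div_nonpos_of_nonpos_of_nonneg (by linarith) (by positivity)
    have h2 : (∑ i, w i * q i - Q) / (t + Q) ≤ 0 :=
      div_nonpos_of_nonpos_of_nonneg (by linarith) (by positivity)
    have h3 := mul_nonneg hθ0 (neg_nonneg.mpr (add_nonpos h1 h2))
    linarith

theorem K3_zero {p q : ℝ} (hp : 0 ≤ p) (hq : 0 ≤ q) : K3 0 p q = 0 := by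
  have hs : (0 + p + q) ^ 2 - 4 * (p * q) = (p - q) ^ 2 := by ring
  unfold K3 S2
  rw [hs, Real.sqrt_sq_eq_abs]
  rcases le_total p q with h | h
  · rw [abs_of_nonpos (by linarith)]
    have e1 : (0 + p + q + -(p - q)) / 2 = q := by ring
    have e2 : (0 + p + q - -(p - q)) / 2 = p := by ring
    rw [e1, e2]
    simp
  · rw [abs_of_nonneg (by linarith)]
    have e1 : (0 + p + q + (p - q)) / 2 = p := by ring
    have e2 : (0 + p + q - (p - q)) / 2 = q := by ring
    rw [e1, e2]
    simp

theorem K3_smul {w b p q : ℝ} (hw : 0 ≤ w) (hb : 0 ≤ b) (hp : 0 ≤ p) (hq : 0 ≤ q) :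
    K3 (w * b) (w * p) (w * q) = w * K3 b p q := by
  have hs : (w * b + w * p + w * q) ^ 2 - 4 * (w * p * (w * q))
      = w ^ 2 * ((b + p + q) ^ 2 - 4 * (p * q)) := by ring
  have hsq : Real.sqrt ((w * b + w * p + w * q) ^ 2 - 4 * (w * p * (w * q)))
      = w * Real.sqrt ((b + p + q) ^ 2 - 4 * (p * q)) := by
    rw [hs, Real.sqrt_mul (sq_nonneg w), Real.sqrt_sq hw]
  have e1 : lp (w * b) (w * p) (w * q) = w * lp b p q := by
    unfold lp; rw [hsq]; ring
  have e2 : lm (w * b) (w * p) (w * q) = w * lm b p q := by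
    unfold lm; rw [hsq]; ring
  unfold K3
  rw [S2_eq, S2_eq, e1, e2, Real.negMulLog_mul, Real.negMulLog_mul, Real.negMulLog_mul,
    Real.negMulLog_mul, Real.negMulLog_mul]
  have h := lp_add_lm b p q
  linear_combination Real.negMulLog w * h

theorem K3_sum_le {ι : Type} [Fintype ι] (b p q : ι → ℝ) (hb : ∀ i, 0 ≤ b i)
    (hp : ∀ i, 0 ≤ p i) (hq : ∀ i, 0 ≤ q i) :
    K3 (∑ i, b i) (∑ i, p i) (∑ i, q i) ≤ ∑ i, K3 (b i) (p i) (q i) := by
  have hB0 : 0 ≤ ∑ i, b i := Finset.sum_nonneg fun i _ => hb i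
  have hP0 : 0 ≤ ∑ i, p i := Finset.sum_nonneg fun i _ => hp i
  have hQ0 : 0 ≤ ∑ i, q i := Finset.sum_nonneg fun i _ => hq i
  rcases hB0.eq_or_lt with hB | hB
  · have hbi : ∀ i, b i = 0 := by
      intro i
      have := (Finset.sum_eq_zero_iff_of_nonneg fun i _ => hb i).mp hB.symm
      exact this i (Finset.mem_univ i)
    rw [← hB, K3_zero hP0 hQ0]
    refine (Finset.sum_nonneg fun i _ => ?_)
    rw [hbi i, K3_zero (hp i) (hq i)]
  · set B := ∑ i, b i with hBdef
    have hterm : ∀ i, K3 (b i) (p i) (q i) =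
        (b i / B) * K3 B (p i / (b i / B)) (q i / (b i / B)) := by
      intro i
      rcases (hb i).eq_or_lt with h0 | h0
      · rw [← h0, K3_zero (hp i) (hq i)]
        simp
      · have hw : 0 < b i / B := by positivity
        rw [← K3_smul hw.le hB.le (div_nonneg (hp i) hw.le) (div_nonneg (hq i) hw.le)]
        congr 1
        · field_simp
        · rw [mul_div_cancel₀ _ hw.ne']
        · rw [mul_div_cancel₀ _ hw.ne']
    rw [Finset.sum_congr rfl fun i _ => hterm i]
    have hle : ∀ (x : ι → ℝ) (hx : ∀ i, 0 ≤ x i), ∑ i, b i / B * (x i / (b i / B)) ≤ ∑ i, x i := by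
      intro x hx
      refine Finset.sum_le_sum fun i _ => ?_
      rcases (hb i).eq_or_lt with h0 | h0
      · rw [← h0]; simpa using hx i
      · have hw : 0 < b i / B := by positivity
        rw [mul_div_cancel₀ _ hw.ne']
    refine K3_jensen hB.le (fun i => b i / B) _ _ (fun i => div_nonneg (hb i) hB.le) ?_
      (fun i => div_nonneg (hp i) (div_nonneg (hb i) hB.le))
      (fun i => div_nonneg (hq i) (div_nonneg (hb i) hB.le)) (hle p hp) (hle q hq)
    rw [← Finset.sum_div, div_self hB.ne']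

theorem K3_mono {b p q q' : ℝ} (hb : 0 ≤ b) (hp : 0 ≤ p) (hq : 0 ≤ q) (hqq : q ≤ q') :
    K3 b p q' ≤ K3 b p q := by
  have h := K3_jensen (ι := Unit) hb (fun _ => 1) (fun _ => p) (fun _ => q) (fun _ => by norm_num)
    (by simp) (fun _ => hp) (fun _ => hq) (P := p) (Q := q') (by simp) (by simpa using hqq)
  simpa using h

end Crest.Agent.AD
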