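import Crest.Agent.AD.E3Defs
import Crest.Agent.AD.Int
import Crest.Agent.AD.Scal

set_option autoImplicit false
set_option linter.unusedVariables false
open Crest.Quantum Crest.MathPhysics.AmpDamp
open scoped ComplexOrder Kronecker

namespace Crest.Agent.AD

variable {d e : Type} [Fintype d] [Fintype e] [DecidableEq d] [DecidableEq e]

theorem vn_eq_sum {A : Matrix d d ℂ} (h : A.IsHermitian) :
    vnEntropy A = ∑ i, Real.negMulLog (h.eigenvalues i) := by
  unfold vnEntropy
  rw [dif_pos h]
  simp [Real.negMulLog, Finset.sum_neg_distrib]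

theorem trace_re_eq_sum {A : Matrix d d ℂ} (h : A.IsHermitian) :
    A.trace.re = ∑ i, h.eigenvalues i := by
  rw [h.trace_eq_sum_eigenvalues]
  simp

theorem trace_M3 (σ : Matrix (Bool × e) (Bool × e) ℂ) (α β κ : ℝ) :
    (M3 σ α β κ).trace.re = α * (block σ false false).trace.re
      + (β * (block σ true true).trace.re + κ * (block σ false false).trace.re) := by
  have : (M3 σ α β κ).trace = (α : ℂ) * (block σ false false).trace
      + ((β : ℂ) * (block σ true true).trace + (κ : ℂ) * (block σ false false).trace) := by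
    simp only [Matrix.trace, Matrix.diag_apply, M3, bm, Matrix.of_apply, Fintype.sum_prod_type,
      Fintype.sum_bool]
    simp only [Matrix.add_apply, Matrix.smul_apply, smul_eq_mul, Finset.mul_sum, if_true,
      ]
    simp [Finset.sum_add_distrib]
    ring
  rw [this]
  simp

/-- the three-block entropy inequality from the pointwise log-determinant inequality. -/
theorem E3_of_det {σ : Matrix (Bool × e) (Bool × e) ℂ} {α β κ : ℝ}
    (hα : 0 ≤ α) (hβ : 0 ≤ β) (hκ : 0 ≤ κ)
    (hdet :
    ∃ (hX : (block σ false false).IsHermitian) (hM : (M3 σ α β κ).IsHermitian)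
      (p q b : Bool × e → ℝ),
      (∀ k, 0 ≤ p k) ∧ (∀ k, 0 ≤ q k) ∧ (∀ k, 0 ≤ b k) ∧
      (∑ k, p k = κ * (block σ false false).trace.re) ∧
      (∑ k, q k = α * (block σ false false).trace.re) ∧
      (∑ k, b k = (block σ true true).trace.re) ∧
      (∑ k, Real.negMulLog (b k) = vnEntropy (block σ true true)) ∧
      (∀ i, 0 ≤ hX.eigenvalues i) ∧ (∀ i, 0 ≤ hM.eigenvalues i) ∧
      ∀ t : ℝ, 0 < t → (∑ i, Real.log (t + α * hX.eigenvalues i))
          + (∑ i, Real.log (t + κ * hX.eigenvalues i))
          + ∑ k : Bool × e, (Real.log ((t + p k) * (t + q k) + t * (β * b k))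
              - Real.log (t + p k) - Real.log (t + q k))
          ≤ ∑ i, Real.log (t + hM.eigenvalues i)) :
    S2 (β * (block σ true true).trace.re) (κ * (block σ false false).trace.re)
        (α * (block σ false false).trace.re)
      - Real.negMulLog ((M3 σ α β κ).trace.re)
      + (α + κ) * Sh (block σ false false) + β * Sh (block σ true true)
      ≤ Sh (M3 σ α β κ) := by
  obtain ⟨hX, hM, p, q, b, hp, hq, hb, hsp, hsq, hsb, hvb, hX0, hM0, hlog⟩ :=
    hdet
  set X := block σ false false with hXdef
  set Y := block σ true true with hYdef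
  set x := X.trace.re with hx
  set y := Y.trace.re with hy
  have hbk : ∀ k, 0 ≤ β * b k := fun k => mul_nonneg hβ (hb k)
  -- entropy inequality from the logarithmic one
  have main : 0 ≤ ∑ i, Real.negMulLog (hM.eigenvalues i)
      - ∑ i, Real.negMulLog (α * hX.eigenvalues i) - ∑ i, Real.negMulLog (κ * hX.eigenvalues i)
      - ∑ k, (Real.negMulLog (lp (β * b k) (p k) (q k)) + Real.negMulLog (lm (β * b k) (p k) (q k))
          - Real.negMulLog (p k) - Real.negMulLog (q k)) := by
    let c : (Bool × e) ⊕ (e ⊕ (e ⊕ ((Bool × e) × Fin 4))) → ℝ :=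
      Sum.elim (fun _ => 1) (Sum.elim (fun _ => -1) (Sum.elim (fun _ => -1)
        (fun z => ![-1, -1, 1, 1] z.2)))
    let l : (Bool × e) ⊕ (e ⊕ (e ⊕ ((Bool × e) × Fin 4))) → ℝ :=
      Sum.elim (fun i => hM.eigenvalues i) (Sum.elim (fun i => α * hX.eigenvalues i)
        (Sum.elim (fun i => κ * hX.eigenvalues i)
        (fun z => ![lp (β * b z.1) (p z.1) (q z.1), lm (β * b z.1) (p z.1) (q z.1),
          p z.1, q z.1] z.2)))
    have hsum : ∀ F : ℝ → ℝ, ∑ z, c z * F (l z) =
        ∑ i, F (hM.eigenvalues i) - ∑ i, F (α * hX.eigenvalues i)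
          - ∑ i, F (κ * hX.eigenvalues i)
          - ∑ k, (F (lp (β * b k) (p k) (q k)) + F (lm (β * b k) (p k) (q k))
            - F (p k) - F (q k)) := by
      intro F
      rw [Fintype.sum_sum_type, Fintype.sum_sum_type, Fintype.sum_sum_type,
        Fintype.sum_prod_type (f := fun z : (Bool × e) × Fin 4 =>
          c (Sum.inr (Sum.inr (Sum.inr z))) * F (l (Sum.inr (Sum.inr (Sum.inr z)))))]
      simp only [c, l, Sum.elim_inl, Sum.elim_inr, Fin.sum_univ_four]
      simp only [Matrix.cons_val_zero, Matrix.cons_val_one, Matrix.cons_val]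
      simp only [one_mul, neg_mul, Finset.sum_neg_distrib]
      have e1 : ∑ k, (-F (lp (β * b k) (p k) (q k)) + -F (lm (β * b k) (p k) (q k))
            + F (p k) + F (q k)) = -∑ k, (F (lp (β * b k) (p k) (q k))
              + F (lm (β * b k) (p k) (q k)) - F (p k) - F (q k)) := by
        rw [← Finset.sum_neg_distrib]
        exact Finset.sum_congr rfl fun k _ => by ring
      rw [e1]
      ring
    have key := int_lemma c l ?_ ?_ ?_ ?_
    · rw [hsum] at key
      exact key
    · rintro (i | i | i | ⟨k, j⟩)
      · exact hM0 i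
      · exact mul_nonneg hα (hX0 i)
      · exact mul_nonneg hκ (hX0 i)
      · fin_cases j <;>
          simp [l, lp_nonneg (hbk k) (hp k) (hq k), lm_nonneg (hbk k) (hp k) (hq k), hp k, hq k]
    · have := hsum (fun _ => 1)
      simp only [mul_one] at this
      rw [this]
      simp
      ring
    · have := hsum (fun x => x)
      rw [this, ← trace_re_eq_sum hM, trace_M3, ← Finset.mul_sum, ← Finset.mul_sum,
        ← trace_re_eq_sum hX]
      have e : ∀ k, (lp (β * b k) (p k) (q k) + lm (β * b k) (p k) (q k) - p k - q k) = β * b k :=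
        fun k => by rw [lp_add_lm]; ring
      rw [Finset.sum_congr rfl fun k _ => e k, ← Finset.mul_sum, hsb]
      ring
    · intro t ht
      have := hsum (fun x => Real.log (t + x))
      rw [this]
      have e : ∀ k, (Real.log (t + lp (β * b k) (p k) (q k))
          + Real.log (t + lm (β * b k) (p k) (q k))
          - Real.log (t + p k) - Real.log (t + q k)) =
          Real.log ((t + p k) * (t + q k) + t * (β * b k)) - Real.log (t + p k)
            - Real.log (t + q k) :=
        fun k => by rw [log_lp_lm ht (hbk k) (hp k) (hq k)]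
      rw [Finset.sum_congr rfl fun k _ => e k]
      have := hlog t ht
      linarith
  have hK := K3_sum_le (fun k => β * b k) p q hbk hp hq
  rw [← Finset.mul_sum, hsb, hsp, hsq] at hK
  simp only [K3, S2_eq] at hK
  have e1 : ∑ k, (Real.negMulLog (lp (β * b k) (p k) (q k))
        + Real.negMulLog (lm (β * b k) (p k) (q k))
        - Real.negMulLog (β * b k) - Real.negMulLog (p k) - Real.negMulLog (q k))
      = ∑ k, (Real.negMulLog (lp (β * b k) (p k) (q k))
        + Real.negMulLog (lm (β * b k) (p k) (q k))
        - Real.negMulLog (p k) - Real.negMulLog (q k)) - ∑ k, Real.negMulLog (β * b k) := by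
    rw [← Finset.sum_sub_distrib]
    exact Finset.sum_congr rfl fun k _ => by ring
  rw [e1] at hK
  have e2 : ∑ k, Real.negMulLog (β * b k) = y * Real.negMulLog β + β * vnEntropy Y := by
    rw [← hvb, ← hsb, Finset.sum_mul, Finset.mul_sum, ← Finset.sum_add_distrib]
    exact Finset.sum_congr rfl fun k _ => Real.negMulLog_mul _ _
  have e3 : ∀ a : ℝ, ∑ i, Real.negMulLog (a * hX.eigenvalues i)
      = x * Real.negMulLog a + a * vnEntropy X := by
    intro a
    rw [vn_eq_sum hX, hx, trace_re_eq_sum hX, Finset.sum_mul, Finset.mul_sum,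
      ← Finset.sum_add_distrib]
    exact Finset.sum_congr rfl fun k _ => Real.negMulLog_mul _ _
  rw [e3, e3, ← vn_eq_sum hM] at main
  rw [e2] at hK
  have m1 := Real.negMulLog_mul β y
  have m2 := Real.negMulLog_mul κ x
  have m3 := Real.negMulLog_mul α x
  unfold Sh
  rw [S2_eq]
  rw [← hx, ← hy]
  nlinarith [main, hK, m1, m2, m3]

end Crest.Agent.AD
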