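import Crest.Agent.AD.Defs

set_option autoImplicit false
open Crest.Quantum Crest.MathPhysics.AmpDamp
open scoped ComplexOrder Kronecker

namespace Crest.Agent.AD

variable {d e : Type} [Fintype d] [Fintype e] [DecidableEq d] [DecidableEq e]

/-- 2x2 block matrix indexed by `Bool × e` (rows/columns `false`, `true`). -/
def bm (A B C D : Matrix e e ℂ) : Matrix (Bool × e) (Bool × e) ℂ :=
  Matrix.of fun p q =>
    if p.1 = false then (if q.1 = false then A p.2 q.2 else B p.2 q.2)
    else (if q.1 = false then C p.2 q.2 else D p.2 q.2)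

/-- entropy normalised by the trace: `tr M * S(M / tr M)`. -/
noncomputable def Sh (M : Matrix d d ℂ) : ℝ := vnEntropy M - Real.negMulLog M.trace.re

/-- entropy of the pair with sum `b+p+q` and product `p q`. -/
noncomputable def S2 (b p q : ℝ) : ℝ :=
  Real.negMulLog (((b + p + q) + Real.sqrt ((b + p + q) ^ 2 - 4 * (p * q))) / 2)
    + Real.negMulLog (((b + p + q) - Real.sqrt ((b + p + q) ^ 2 - 4 * (p * q))) / 2)

noncomputable def K3 (b p q : ℝ) : ℝ :=
  S2 b p q - Real.negMulLog b - Real.negMulLog p - Real.negMulLog q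

/-- the three-block matrix `[[α X, √(αβ) Z], [√(αβ) Z*, β Y + κ X]]` -/
noncomputable def M3 (σ : Matrix (Bool × e) (Bool × e) ℂ) (α β κ : ℝ) :
    Matrix (Bool × e) (Bool × e) ℂ :=
  bm ((α : ℂ) • block σ false false) ((Real.sqrt (α * β) : ℂ) • block σ false true)
    ((Real.sqrt (α * β) : ℂ) • block σ true false)
    ((β : ℂ) • block σ true true + (κ : ℂ) • block σ false false)

end Crest.Agent.AD
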