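import Crest.Agent.AD.Main

set_option autoImplicit false
open Crest.Quantum Crest.MathPhysics.AmpDamp
open scoped ComplexOrder Kronecker

namespace Crest.Agent.AD

variable {d e : Type} [Fintype d] [Fintype e] [DecidableEq d] [DecidableEq e]

theorem single_ensemble {γ ν p : ℝ} (hγ : γ ∈ Set.Icc (0 : ℝ) 1) (hν : ν ∈ Set.Icc (0 : ℝ) 1)
    (hp : p ∈ Set.Icc (0 : ℝ) 1) :
    ∃ (m : ℕ) (q : Fin m → ℝ) (ρ : Fin m → Matrix Bool Bool ℂ), IsEnsemble q ρ ∧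
      holevoInfo (gadMap γ ν) q ρ = gadRate γ ν p := by
  refine ⟨2, fun _ => (1 : ℝ) / 2, fun a => psi p (if a = 0 then 1 else -1),
    ⟨fun _ => by norm_num, by simp, fun a => psi_density hp (by split_ifs <;> norm_num)⟩, ?_⟩
  unfold holevoInfo
  rw [ent_gad_diag hγ hν hp, gadRate_eq]
  have : ∀ a : Fin 2, vnEntropy (gadMap γ ν (psi p (if a = 0 then 1 else -1))) = gE γ ν p := by
    intro a
    exact ent_gad_psi hγ hν hp (by split_ifs <;> norm_num)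
  simp only [this, Fin.sum_univ_two]
  ring

theorem kron_density {A : Matrix d d ℂ} {B : Matrix e e ℂ} (hA : IsDensity A) (hB : IsDensity B) :
    IsDensity (A ⊗ₖ B) := by
  refine ⟨hA.1.kronecker hB.1, ?_⟩
  rw [Matrix.trace_kronecker, hA.2, hB.2, mul_one]

theorem prod_ensemble {γ ν : ℝ} (hγ : γ ∈ Set.Icc (0 : ℝ) 1) (hν : ν ∈ Set.Icc (0 : ℝ) 1)
    {Ψ : Matrix d d ℂ → Matrix e e ℂ} (hΨ : IsChannel Ψ)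
    {m₁ : ℕ} {q₁ : Fin m₁ → ℝ} {ρ₁ : Fin m₁ → Matrix Bool Bool ℂ}
    {m₂ : ℕ} {q₂ : Fin m₂ → ℝ} {ρ₂ : Fin m₂ → Matrix d d ℂ}
    (h₁ : IsEnsemble q₁ ρ₁) (h₂ : IsEnsemble q₂ ρ₂) :
    ∃ (m : ℕ) (q : Fin m → ℝ) (ρ : Fin m → Matrix (Bool × d) (Bool × d) ℂ), IsEnsemble q ρ ∧
        holevoInfo (gadMap γ ν) q₁ ρ₁ + holevoInfo Ψ q₂ ρ₂ ≤
          holevoInfo (qubitTensor (gadMap γ ν) Ψ) q ρ := by
  have hΦ := gad_channel hγ hν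
  obtain ⟨m, q, ρ, hens, hhol⟩ := ens_of_fintype (e := Bool × e) (ι := Fin m₁ × Fin m₂)
    (fun x => q₁ x.1 * q₂ x.2) (fun x => ρ₁ x.1 ⊗ₖ ρ₂ x.2)
    (fun x => mul_nonneg (h₁.1 _) (h₂.1 _))
    (by
      rw [Fintype.sum_prod_type]
      simp only
      simp only [← Finset.mul_sum, h₂.2.1, mul_one, h₁.2.1])
    (fun x => kron_density (h₁.2.2 _) (h₂.2.2 _))
  refine ⟨m, q, ρ, hens, le_of_eq ?_⟩
  rw [hhol]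
  have hk : (∑ x : Fin m₁ × Fin m₂, ((q₁ x.1 * q₂ x.2 : ℝ) : ℂ) •
      qubitTensor (gadMap γ ν) Ψ (ρ₁ x.1 ⊗ₖ ρ₂ x.2))
      = (∑ a, (q₁ a : ℂ) • gadMap γ ν (ρ₁ a)) ⊗ₖ (∑ b, (q₂ b : ℂ) • Ψ (ρ₂ b)) := by
    rw [Fintype.sum_prod_type]
    ext ⟨i, i'⟩ ⟨j, j'⟩
    simp only [tensor_kron hΨ, Matrix.sum_apply, Matrix.smul_apply, Matrix.kroneckerMap_apply,
      smul_eq_mul, Finset.sum_mul_sum]
    refine Finset.sum_congr rfl fun a _ => Finset.sum_congr rfl fun b _ => ?_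
    push_cast
    ring
  have d1 : IsDensity (∑ a, (q₁ a : ℂ) • gadMap γ ν (ρ₁ a)) :=
    density_sum h₁.1 h₁.2.1 fun a => chan_density hΦ (h₁.2.2 a)
  have d2 : IsDensity (∑ b, (q₂ b : ℂ) • Ψ (ρ₂ b)) :=
    density_sum h₂.1 h₂.2.1 fun b => chan_density hΨ (h₂.2.2 b)
  rw [hk, ent_kron d1 d2]
  have hs : (∑ x : Fin m₁ × Fin m₂, (q₁ x.1 * q₂ x.2) *
      vnEntropy (qubitTensor (gadMap γ ν) Ψ (ρ₁ x.1 ⊗ₖ ρ₂ x.2)))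
      = ∑ a, q₁ a * vnEntropy (gadMap γ ν (ρ₁ a)) + ∑ b, q₂ b * vnEntropy (Ψ (ρ₂ b)) := by
    rw [Fintype.sum_prod_type]
    have : ∀ (a : Fin m₁) (b : Fin m₂), (q₁ a * q₂ b) *
      vnEntropy (qubitTensor (gadMap γ ν) Ψ (ρ₁ a ⊗ₖ ρ₂ b))
      = (q₁ a * vnEntropy (gadMap γ ν (ρ₁ a))) * q₂ b + q₁ a * (q₂ b * vnEntropy (Ψ (ρ₂ b))) := by
      intro a b
      rw [tensor_kron hΨ, ent_kron (chan_density hΦ (h₁.2.2 a)) (chan_density hΨ (h₂.2.2 b))]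
      ring
    simp only [this, Finset.sum_add_distrib, ← Finset.mul_sum, h₂.2.1, mul_one, ← Finset.sum_mul,
      h₁.2.1, one_mul]
  rw [hs]
  unfold holevoInfo
  ring

/-- minimum output entropy -/
theorem min_entropy {γ ν : ℝ} (hγ : γ ∈ Set.Icc (0 : ℝ) 1) (hν : ν ∈ Set.Icc (0 : ℝ) 1)
    [Nonempty d] {Ψ : Matrix d d ℂ → Matrix e e ℂ} (hΨ : IsChannel Ψ)
    {ρ : Matrix (Bool × d) (Bool × d) ℂ} (h : IsDensity ρ) :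
    ∃ (ρ₁ : Matrix Bool Bool ℂ) (ρ₂ : Matrix d d ℂ), IsDensity ρ₁ ∧ IsDensity ρ₂ ∧
        vnEntropy (gadMap γ ν ρ₁) + vnEntropy (Ψ ρ₂) ≤ vnEntropy (qubitTensor (gadMap γ ν) Ψ ρ) := by
  have hstar := star_chan hγ hν hΨ h
  obtain ⟨t1, t0, hp0, hp1⟩ := trace_blocks h
  obtain ⟨Y0, hY0, e0⟩ := exists_normalised (block_posSemidef h.1 false)
  obtain ⟨Y1, hY1, e1⟩ := exists_normalised (block_posSemidef h.1 true)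
  have s0 : vnEntropy (Ψ (block ρ false false)) = (1 - pop ρ) * vnEntropy (Ψ Y0)
      + Real.negMulLog (1 - pop ρ) := by
    conv_lhs => rw [e0]
    rw [ent_chan_smul hΨ hY0 _ (by rw [t0]; linarith), t0]
  have s1 : vnEntropy (Ψ (block ρ true true)) = pop ρ * vnEntropy (Ψ Y1)
      + Real.negMulLog (pop ρ) := by
    conv_lhs => rw [e1]
    rw [ent_chan_smul hΨ hY1 _ (by rw [t1]; linarith), t1]
  rw [s0, s1, Real.binEntropy_eq_negMulLog_add_negMulLog_one_sub] at hstar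
  have hpI : pop ρ ∈ Set.Icc (0 : ℝ) 1 := ⟨hp0, hp1⟩
  have hpsi := ent_gad_psi (s := 1) hγ hν hpI (by norm_num)
  rcases le_total (vnEntropy (Ψ Y0)) (vnEntropy (Ψ Y1)) with hle | hle
  · refine ⟨psi (pop ρ) 1, Y0, psi_density hpI (by norm_num), hY0, ?_⟩
    rw [hpsi]
    nlinarith [mul_le_mul_of_nonneg_left hle hp0]
  · refine ⟨psi (pop ρ) 1, Y1, psi_density hpI (by norm_num), hY1, ?_⟩
    rw [hpsi]
    nlinarith [mul_le_mul_of_nonneg_left hle (by linarith : (0 : ℝ) ≤ 1 - pop ρ)]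

theorem part535 {γ ν : ℝ} (hγ : γ ∈ Set.Icc (0 : ℝ) 1) (hν : ν ∈ Set.Icc (0 : ℝ) 1)
    (d e : Type) [Fintype d] [Fintype e] [DecidableEq d] [DecidableEq e] [Nonempty d] [Nonempty e]
    (Ψ : Matrix d d ℂ → Matrix e e ℂ) (hΨ : IsChannel Ψ) :
    (∀ (m : ℕ) (q : Fin m → ℝ) (ρ : Fin m → Matrix (Bool × d) (Bool × d) ℂ), IsEnsemble q ρ →
      ∀ ε > (0 : ℝ), ∃ (m₁ : ℕ) (q₁ : Fin m₁ → ℝ) (ρ₁ : Fin m₁ → Matrix Bool Bool ℂ)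
        (m₂ : ℕ) (q₂ : Fin m₂ → ℝ) (ρ₂ : Fin m₂ → Matrix d d ℂ),
        IsEnsemble q₁ ρ₁ ∧ IsEnsemble q₂ ρ₂ ∧
          holevoInfo (qubitTensor (gadMap γ ν) Ψ) q ρ ≤
            holevoInfo (gadMap γ ν) q₁ ρ₁ + holevoInfo Ψ q₂ ρ₂ + ε) ∧
    (∀ (m₁ : ℕ) (q₁ : Fin m₁ → ℝ) (ρ₁ : Fin m₁ → Matrix Bool Bool ℂ)
      (m₂ : ℕ) (q₂ : Fin m₂ → ℝ) (ρ₂ : Fin m₂ → Matrix d d ℂ), IsEnsemble q₁ ρ₁ → IsEnsemble q₂ ρ₂ →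
      ∃ (m : ℕ) (q : Fin m → ℝ) (ρ : Fin m → Matrix (Bool × d) (Bool × d) ℂ), IsEnsemble q ρ ∧
        holevoInfo (gadMap γ ν) q₁ ρ₁ + holevoInfo Ψ q₂ ρ₂ ≤
          holevoInfo (qubitTensor (gadMap γ ν) Ψ) q ρ) ∧
    (∀ ρ : Matrix (Bool × d) (Bool × d) ℂ, IsDensity ρ → ∀ ε > (0 : ℝ),
      ∃ (ρ₁ : Matrix Bool Bool ℂ) (ρ₂ : Matrix d d ℂ), IsDensity ρ₁ ∧ IsDensity ρ₂ ∧
        vnEntropy (gadMap γ ν ρ₁) + vnEntropy (Ψ ρ₂) ≤ vnEntropy (qubitTensor (gadMap γ ν) Ψ ρ) + ε) ∧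
    (∀ (ρ₁ : Matrix Bool Bool ℂ) (ρ₂ : Matrix d d ℂ), IsDensity ρ₁ → IsDensity ρ₂ →
      ∃ ρ : Matrix (Bool × d) (Bool × d) ℂ, IsDensity ρ ∧
        vnEntropy (qubitTensor (gadMap γ ν) Ψ ρ) ≤ vnEntropy (gadMap γ ν ρ₁) + vnEntropy (Ψ ρ₂)) := by
  refine ⟨?_, ?_, ?_, ?_⟩
  · intro m q ρ h ε hε
    obtain ⟨p, hp, m₂, q₂, ρ₂, h2, hle⟩ := holevo_tensor_le hγ hν hΨ h
    obtain ⟨m₁, q₁, ρ₁, h1, he⟩ := single_ensemble hγ hν hp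
    exact ⟨m₁, q₁, ρ₁, m₂, q₂, ρ₂, h1, h2, by rw [he]; linarith⟩
  · intro m₁ q₁ ρ₁ m₂ q₂ ρ₂ h1 h2
    exact prod_ensemble hγ hν hΨ h1 h2
  · intro ρ h ε hε
    obtain ⟨ρ₁, ρ₂, h1, h2, hle⟩ := min_entropy hγ hν hΨ h
    exact ⟨ρ₁, ρ₂, h1, h2, by linarith⟩
  · intro ρ₁ ρ₂ h1 h2
    refine ⟨ρ₁ ⊗ₖ ρ₂, kron_density h1 h2, le_of_eq ?_⟩
    rw [tensor_kron hΨ, ent_kron (chan_density (gad_channel hγ hν) h1) (chan_density hΨ h2)]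

end Crest.Agent.AD
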