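import Crest.Agent.AD.Kron

set_option autoImplicit false
open Crest.Quantum Crest.MathPhysics.AmpDamp
open scoped ComplexOrder Kronecker

namespace Crest.Agent.AD

variable {d e : Type} [Fintype d] [Fintype e] [DecidableEq d] [DecidableEq e]

theorem eig_sum_eq_one {ρ : Matrix d d ℂ} (h : IsDensity ρ) :
    ∑ i, h.1.1.eigenvalues i = 1 := by
  have h1 := h.1.1.trace_eq_sum_eigenvalues
  have h3 : ρ.trace.re = 1 := by
    have := congrArg Complex.re h.2
    rwa [Complex.one_re] at this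
  have h2 := congrArg Complex.re h1
  rw [h3, Complex.re_sum] at h2
  exact h2.symm

theorem ent_nonneg {ρ : Matrix d d ℂ} (h : IsDensity ρ) : 0 ≤ vnEntropy ρ := by
  unfold vnEntropy
  rw [dif_pos h.1.1]
  rw [neg_nonneg]
  refine Finset.sum_nonpos fun i _ => ?_
  have h0 : 0 ≤ h.1.1.eigenvalues i := h.1.eigenvalues_nonneg i
  have h1 : h.1.1.eigenvalues i ≤ 1 := by
    rw [← eig_sum_eq_one h]
    exact Finset.single_le_sum (f := h.1.1.eigenvalues) (fun j _ => h.1.eigenvalues_nonneg j) (Finset.mem_univ i)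
  exact mul_nonpos_of_nonneg_of_nonpos h0 (Real.log_nonpos h0 h1)

theorem ent_reindex (f : d ≃ e) (ρ : Matrix d d ℂ) :
    vnEntropy (Matrix.reindex f f ρ) = vnEntropy ρ := by
  rw [Matrix.reindex_apply]
  exact vn_reindex f.symm ρ

theorem smul_charpoly {A : Matrix d d ℂ} (hA : A.IsHermitian) (c : ℝ) :
    ((c : ℂ) • A).charpoly = ∏ j, (Polynomial.X -
      Polynomial.C (((c * hA.eigenvalues j : ℝ)) : ℂ)) := by
  have eX : A = (hA.eigenvectorUnitary : Matrix d d ℂ) *
      Matrix.diagonal (fun i => ((hA.eigenvalues i : ℝ) : ℂ)) *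
      star (hA.eigenvectorUnitary : Matrix d d ℂ) := by
    conv_lhs => rw [hA.spectral_theorem, Unitary.conjStarAlgAut_apply]
    rfl
  have hXX : star (hA.eigenvectorUnitary : Matrix d d ℂ) * (hA.eigenvectorUnitary : Matrix d d ℂ)
    = 1 := Matrix.mem_unitaryGroup_iff'.mp hA.eigenvectorUnitary.2
  have e1 : (c : ℂ) • A = (hA.eigenvectorUnitary : Matrix d d ℂ) *
      Matrix.diagonal (fun i => (((c * hA.eigenvalues i : ℝ)) : ℂ)) *
      star (hA.eigenvectorUnitary : Matrix d d ℂ) := by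
    have : Matrix.diagonal (fun i => (((c * hA.eigenvalues i : ℝ)) : ℂ)) =
        (c : ℂ) • Matrix.diagonal (fun i => ((hA.eigenvalues i : ℝ) : ℂ)) := by
      rw [← Matrix.diagonal_smul]
      congr 1
      ext i
      simp
    rw [this, Matrix.mul_smul, Matrix.smul_mul, ← eX]
  rw [e1, Matrix.charpoly_mul_comm, ← mul_assoc, hXX]
  simp [Matrix.charpoly_diagonal]

theorem ent_smul {A : Matrix d d ℂ} (hA : A.PosSemidef) (c : ℝ) (hc : 0 ≤ c) :
    vnEntropy ((c : ℂ) • A) = c * vnEntropy A + Real.negMulLog c * A.trace.re := by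
  have hcA : ((c : ℂ) • A).IsHermitian := by
    unfold Matrix.IsHermitian
    rw [Matrix.conjTranspose_smul, hA.1.eq]
    simp
  rw [vn_of_charpoly hcA _ (smul_charpoly hA.1 c)]
  have tX : A.trace.re = ∑ i, hA.1.eigenvalues i := by
    rw [hA.1.trace_eq_sum_eigenvalues, Complex.re_sum]; rfl
  have eX : vnEntropy A = -∑ k, hA.1.eigenvalues k * Real.log (hA.1.eigenvalues k) := by
    unfold vnEntropy; rw [dif_pos hA.1]
  rw [tX, eX]
  have e1 : ∀ x : d, c * hA.1.eigenvalues x * Real.log (c * hA.1.eigenvalues x) =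
      c * (hA.1.eigenvalues x * Real.log (hA.1.eigenvalues x)) +
      (c * Real.log c) * hA.1.eigenvalues x := by
    intro k
    by_cases h1 : hA.1.eigenvalues k = 0
    · simp [h1]
    by_cases h2 : c = 0
    · simp [h2]
    · rw [Real.log_mul h2 h1]; ring
  simp only [e1]
  rw [Finset.sum_add_distrib, ← Finset.mul_sum, ← Finset.mul_sum]
  simp only [Real.negMulLog]
  ring

theorem ent_kron {A : Matrix d d ℂ} {B : Matrix e e ℂ} (hA : IsDensity A) (hB : IsDensity B) :
    vnEntropy (A ⊗ₖ B) = vnEntropy A + vnEntropy B := vn_kron_density hA hB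

end Crest.Agent.AD
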