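import Crest.Agent.AD.Defs

set_option autoImplicit false
open Crest.Quantum Crest.MathPhysics.AmpDamp
open scoped ComplexOrder Kronecker

namespace Crest.Agent.AD

/-! ### 2x2 matrices -/

theorem e2_binEntropy_sqrt (a : ℝ) :
    Real.binEntropy ((1 + Real.sqrt (1 - 4 * (a * (1 - a)))) / 2) = Real.binEntropy a := by
  have h : (1 - 4 * (a * (1 - a))) = (1 - 2 * a) ^ 2 := by ring
  rw [h, Real.sqrt_sq_eq_abs]
  rcases le_total 0 (1 - 2 * a) with h0 | h0
  · rw [abs_of_nonneg h0]
    have : (1 + (1 - 2 * a)) / 2 = 1 - a := by ring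
    rw [this, Real.binEntropy_one_sub]
  · rw [abs_of_nonpos h0]
    have : (1 + -(1 - 2 * a)) / 2 = a := by ring
    rw [this]

/-- entropy of a Hermitian 2x2 matrix of trace one -/
theorem e2_ent_two_herm {M : Matrix Bool Bool ℂ} (h : M.IsHermitian) (ht : M.trace = 1) :
    vnEntropy M = Real.binEntropy ((1 + Real.sqrt (1 - 4 * M.det.re)) / 2) := by
  have hsum : h.eigenvalues false + h.eigenvalues true = 1 := by
    have h1 := h.trace_eq_sum_eigenvalues
    rw [ht] at h1
    have h2 := congrArg Complex.re h1
    simp only [Fintype.sum_bool, Complex.one_re, Complex.add_re] at h2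
    have e1 : ∀ x : ℝ, ((x : ℂ)).re = x := fun x => Complex.ofReal_re x
    simp at h2
    linarith
  have hprod : M.det.re = h.eigenvalues false * h.eigenvalues true := by
    have h1 := h.det_eq_prod_eigenvalues
    rw [h1]
    simp [Fintype.prod_bool]
    ring
  have h1 : h.eigenvalues true = 1 - h.eigenvalues false := by linarith
  rw [hprod, h1, e2_binEntropy_sqrt]
  unfold vnEntropy
  rw [dif_pos h, Fintype.sum_bool, h1, Real.binEntropy]
  rw [Real.log_inv, Real.log_inv]
  ring

theorem ent_two {M : Matrix Bool Bool ℂ} (h : IsDensity M) :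
    vnEntropy M = Real.binEntropy ((1 + Real.sqrt (1 - 4 * M.det.re)) / 2) :=
  e2_ent_two_herm h.1.1 h.2

theorem e2_trace_bool (M : Matrix Bool Bool ℂ) : M.trace = M false false + M true true := by
  simp [Matrix.trace, add_comm]

theorem e2_det_bool (M : Matrix Bool Bool ℂ) :
    M.det = M false false * M true true - M false true * M true false := by
  have h : M.det = (Matrix.reindex finTwoEquiv.symm finTwoEquiv.symm M).det := by
    rw [Matrix.det_reindex_self]
  rw [h, Matrix.det_fin_two]
  simp [finTwoEquiv]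

theorem ent_two_le {M : Matrix Bool Bool ℂ} (h : IsDensity M) :
    vnEntropy M ≤ Real.binEntropy ((M true true).re) := by
  have hH : M.IsHermitian := h.1.1
  have ht := h.2
  rw [e2_trace_bool] at ht
  have hre : (M false false).re = 1 - (M true true).re := by
    have := congrArg Complex.re ht
    simp at this
    linarith
  have him0 : (M false false).im = 0 := by
    have := hH.apply false false
    have h2 := congrArg Complex.im this
    simp at h2
    linarith
  have him1 : (M true true).im = 0 := by
    have := hH.apply true true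
    have h2 := congrArg Complex.im this
    simp at h2
    linarith
  have hz : M true false = star (M false true) := (hH.apply true false).symm
  set q : ℝ := (M true true).re with hq
  have hdet : M.det.re = q * (1 - q) - Complex.normSq (M false true) := by
    rw [e2_det_bool, hz]
    simp only [Complex.sub_re, Complex.mul_re, Complex.star_def, Complex.conj_re, Complex.conj_im,
      him0, him1, hre, Complex.normSq_apply]
    ring
  have hdet0 : 0 ≤ M.det.re := by
    have := h.1.det_nonneg
    exact (Complex.le_def.1 this).1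
  rw [ent_two h, ← e2_binEntropy_sqrt q]
  have hle : M.det.re ≤ q * (1 - q) := by
    rw [hdet]; linarith [Complex.normSq_nonneg (M false true)]
  have hs : Real.sqrt (1 - 4 * (q * (1 - q))) ≤ Real.sqrt (1 - 4 * M.det.re) :=
    Real.sqrt_le_sqrt (by linarith)
  have hs1 : Real.sqrt (1 - 4 * M.det.re) ≤ 1 := by
    rw [Real.sqrt_le_one]; linarith
  have hs0 : 0 ≤ Real.sqrt (1 - 4 * (q * (1 - q))) := Real.sqrt_nonneg _
  apply Real.binEntropy_strictAntiOn.antitoneOn
  · constructor <;> linarith
  · constructor <;> linarith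
  · linarith

/-- the pure state of population `p` with sign `s = ±1` on the coherence -/
noncomputable def psi (p s : ℝ) : Matrix Bool Bool ℂ :=
  Matrix.of fun i j =>
    if i = false ∧ j = false then ((1 - p : ℝ) : ℂ)
    else if i = true ∧ j = true then ((p : ℝ) : ℂ)
    else ((s * Real.sqrt (p * (1 - p)) : ℝ) : ℂ)

theorem psi_density {p s : ℝ} (hp : p ∈ Set.Icc (0 : ℝ) 1) (hs : s ^ 2 = 1) :
    IsDensity (psi p s) := by
  obtain ⟨h0, h1⟩ := hp
  constructor
  · let v : Bool → ℂ := fun i => if i = false then ((Real.sqrt (1 - p) : ℝ) : ℂ)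
      else ((s * Real.sqrt p : ℝ) : ℂ)
    have : psi p s = Matrix.vecMulVec v (star v) := by
      have e0 : Real.sqrt (1 - p) * Real.sqrt (1 - p) = 1 - p := Real.mul_self_sqrt (by linarith)
      have e1 : Real.sqrt p * Real.sqrt p = p := Real.mul_self_sqrt h0
      have e2 : Real.sqrt (p * (1 - p)) = Real.sqrt p * Real.sqrt (1 - p) := Real.sqrt_mul h0 _
      ext i j
      rcases i with _ | _ <;> rcases j with _ | _ <;>
        simp only [psi, v, Matrix.of_apply, Matrix.vecMulVec_apply, Pi.star_apply, Complex.star_def,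
          and_self, if_true, Bool.true_eq_false, Bool.false_eq_true, if_false, and_false, false_and,
          Complex.conj_ofReal, ← Complex.ofReal_mul, Complex.ofReal_inj]
      · linarith
      · rw [e2]; ring
      · rw [e2]; ring
      · have : s * Real.sqrt p * (s * Real.sqrt p) = s ^ 2 * (Real.sqrt p * Real.sqrt p) := by ring
        rw [this, hs, e1]; ring
    rw [this]
    exact Matrix.posSemidef_vecMulVec_self_star v
  · rw [e2_trace_bool]
    simp [psi]

theorem e2_psi_herm (p s : ℝ) : (psi p s).IsHermitian := by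
  ext i j
  rcases i with _ | _ <;> rcases j with _ | _ <;>
    simp [psi, Matrix.conjTranspose_apply, Complex.conj_ofReal]

theorem e2_gad_herm {γ ν : ℝ} {M : Matrix Bool Bool ℂ} (h : M.IsHermitian) :
    (gadMap γ ν M).IsHermitian := by
  have hff := h.apply false false
  have htt := h.apply true true
  have hft := h.apply false true
  have htf := h.apply true false
  ext i j
  rcases i with _ | _ <;> rcases j with _ | _ <;>
    simp only [gadMap, Matrix.conjTranspose_apply, Matrix.of_apply, and_self, if_true,
      Bool.true_eq_false, Bool.false_eq_true, if_false, and_false, false_and, star_add, star_mul',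
      hff, htt, hft, htf, Complex.star_def, Complex.conj_ofReal]

theorem e2_gad_trace {γ ν : ℝ} {M : Matrix Bool Bool ℂ} (h : M.trace = 1) :
    (gadMap γ ν M).trace = 1 := by
  rw [e2_trace_bool] at h ⊢
  simp only [gadMap, Matrix.of_apply, and_self, if_true, Bool.true_eq_false, Bool.false_eq_true,
    if_false]
  push_cast
  linear_combination h

theorem ent_gad_psi {γ ν p s : ℝ} (hγ : γ ∈ Set.Icc (0 : ℝ) 1) (hν : ν ∈ Set.Icc (0 : ℝ) 1)
    (hp : p ∈ Set.Icc (0 : ℝ) 1) (hs : s ^ 2 = 1) :
    vnEntropy (gadMap γ ν (psi p s)) = gE γ ν p := by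
  rw [e2_ent_two_herm (e2_gad_herm (e2_psi_herm p s)) (e2_gad_trace (psi_density hp hs).2)]
  have hd : (gadMap γ ν (psi p s)).det.re = γ * ν * (1 - ν) + γ * (1 - γ) * (p - ν) ^ 2 := by
    rw [e2_det_bool]
    have e3 : Real.sqrt (1 - γ) * Real.sqrt (1 - γ) = 1 - γ :=
      Real.mul_self_sqrt (by linarith [hγ.2])
    have e4 : Real.sqrt (p * (1 - p)) * Real.sqrt (p * (1 - p)) = p * (1 - p) :=
      Real.mul_self_sqrt (mul_nonneg hp.1 (by linarith [hp.2]))
    simp only [gadMap, psi, Matrix.of_apply, and_self, if_true, Bool.true_eq_false,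
      Bool.false_eq_true, if_false, and_false, false_and, ← Complex.ofReal_mul,
      ← Complex.ofReal_add, ← Complex.ofReal_sub, Complex.ofReal_re]
    have : Real.sqrt (1 - γ) * (s * Real.sqrt (p * (1 - p))) *
        (Real.sqrt (1 - γ) * (s * Real.sqrt (p * (1 - p))))
        = s ^ 2 * (Real.sqrt (1 - γ) * Real.sqrt (1 - γ)) *
          (Real.sqrt (p * (1 - p)) * Real.sqrt (p * (1 - p))) := by ring
    rw [this, e3, e4, hs]
    ring
  rw [hd]
  rfl

theorem ent_gad_diag {γ ν p : ℝ} (hγ : γ ∈ Set.Icc (0 : ℝ) 1) (hν : ν ∈ Set.Icc (0 : ℝ) 1)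
    (hp : p ∈ Set.Icc (0 : ℝ) 1) :
    vnEntropy (∑ a : Fin 2, (((1 : ℝ) / 2 : ℝ) : ℂ) • gadMap γ ν (psi p (if a = 0 then 1 else -1)))
      = Real.binEntropy ((1 - γ) * p + γ * ν) := by
  set N := (∑ a : Fin 2, (((1 : ℝ) / 2 : ℝ) : ℂ) • gadMap γ ν (psi p (if a = 0 then 1 else -1)))
    with hN
  have hff : N false false = ((1 - ((1 - γ) * p + γ * ν) : ℝ) : ℂ) := by
    rw [hN, Fin.sum_univ_two]
    simp only [Matrix.add_apply, Matrix.smul_apply, gadMap, psi, Matrix.of_apply, and_self, if_true,
      Bool.true_eq_false, Bool.false_eq_true, if_false, smul_eq_mul]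
    push_cast
    ring
  have htt : N true true = (((1 - γ) * p + γ * ν : ℝ) : ℂ) := by
    rw [hN, Fin.sum_univ_two]
    simp only [Matrix.add_apply, Matrix.smul_apply, gadMap, psi, Matrix.of_apply, and_self, if_true,
      Bool.true_eq_false, Bool.false_eq_true, if_false, smul_eq_mul]
    push_cast
    ring
  have hft : N false true = 0 := by
    rw [hN, Fin.sum_univ_two]
    simp [Matrix.add_apply, Matrix.smul_apply, gadMap, psi, Matrix.of_apply]
  have htf : N true false = 0 := by
    rw [hN, Fin.sum_univ_two]
    simp [Matrix.add_apply, Matrix.smul_apply, gadMap, psi, Matrix.of_apply]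
  have hH : N.IsHermitian := by
    ext i j
    rcases i with _ | _ <;> rcases j with _ | _ <;>
      simp only [Matrix.conjTranspose_apply, hff, htt, hft, htf, Complex.star_def,
        Complex.conj_ofReal, map_zero]
  have htr : N.trace = 1 := by
    rw [e2_trace_bool, hff, htt]
    push_cast
    ring
  rw [e2_ent_two_herm hH htr]
  have hd : N.det.re = ((1 - γ) * p + γ * ν) * (1 - ((1 - γ) * p + γ * ν)) := by
    rw [e2_det_bool, hff, htt, hft, htf, mul_zero, sub_zero, ← Complex.ofReal_mul,
      Complex.ofReal_re]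
    ring
  rw [hd, e2_binEntropy_sqrt]

end Crest.Agent.AD
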