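import Crest.Agent.AD.Reduce
import Crest.Agent.AD.E3

set_option autoImplicit false
open Crest.Quantum Crest.MathPhysics.AmpDamp
open scoped ComplexOrder Kronecker

namespace Crest.Agent.AD

variable {d e : Type} [Fintype d] [Fintype e] [DecidableEq d] [DecidableEq e]

/-- the key inequality for the generalized amplitude-damping channel tensored with the identity -/
theorem star {γ ν : ℝ} (hγ : γ ∈ Set.Icc (0 : ℝ) 1) (hν : ν ∈ Set.Icc (0 : ℝ) 1)
    {σ : Matrix (Bool × e) (Bool × e) ℂ} (hσ : IsDensity σ) :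
    gE γ ν (pop σ) + (vnEntropy (block σ false false) + vnEntropy (block σ true true)
        - Real.binEntropy (pop σ))
      ≤ vnEntropy (qubitTensor (gadMap γ ν) (fun M => M) σ) :=
  star_of_E3 (fun _ hσ _ _ _ h1 h2 h3 => E3 hσ h1 h2 h3) hγ hν hσ

end Crest.Agent.AD
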