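import Crest.Agent.AD.Ent
import Crest.Agent.AD.Ent2
import Crest.Agent.AD.Kron
import Crest.Agent.AD.Chan
import Crest.Agent.AD.Chan2
import Crest.Agent.AD.Star

set_option autoImplicit false
open Crest.Quantum Crest.MathPhysics.AmpDamp
open scoped ComplexOrder Kronecker

namespace Crest.Agent.AD

variable {d e : Type} [Fintype d] [Fintype e] [DecidableEq d] [DecidableEq e]

/-- ensembles over an arbitrary finite index type can be re-indexed by `Fin m`. -/
theorem ens_of_fintype {ι : Type} [Fintype ι] (w : ι → ℝ) (τ : ι → Matrix d d ℂ)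
    (hw : ∀ i, 0 ≤ w i) (hw1 : ∑ i, w i = 1) (hτ : ∀ i, IsDensity (τ i)) :
    ∃ (m : ℕ) (q : Fin m → ℝ) (ρ : Fin m → Matrix d d ℂ), IsEnsemble q ρ ∧
      ∀ Ψ : Matrix d d ℂ → Matrix e e ℂ, holevoInfo Ψ q ρ
        = vnEntropy (∑ i, (w i : ℂ) • Ψ (τ i)) - ∑ i, w i * vnEntropy (Ψ (τ i)) := by
  classical
  let f := Fintype.equivFin ι
  refine ⟨Fintype.card ι, fun a => w (f.symm a), fun a => τ (f.symm a), ⟨fun a => hw _, ?_, fun a => hτ _⟩, ?_⟩
  · rw [← hw1]; exact Equiv.sum_comp f.symm w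
  · intro Ψ
    unfold holevoInfo
    congr 1
    · congr 1
      exact Equiv.sum_comp f.symm (fun i => (w i : ℂ) • Ψ (τ i))
    · exact Equiv.sum_comp f.symm (fun i => w i * vnEntropy (Ψ (τ i)))

/-- some density matrix -/
theorem exists_density [Nonempty d] : ∃ ρ : Matrix d d ℂ, IsDensity ρ := by
  classical
  obtain ⟨i⟩ := ‹Nonempty d›
  refine ⟨Matrix.diagonal (fun j => if j = i then 1 else 0), ?_, ?_⟩
  · apply Matrix.PosSemidef.diagonal
    intro j
    by_cases h : j = i
    · simp [h]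
    · simp [h]
  · simp [Matrix.trace_diagonal]

/-- normalised version of a positive semidefinite matrix -/
theorem exists_normalised [Nonempty d] {X : Matrix d d ℂ} (hX : X.PosSemidef) :
    ∃ Y : Matrix d d ℂ, IsDensity Y ∧ X = ((X.trace.re : ℝ) : ℂ) • Y := by
  obtain ⟨ρ0, h0⟩ := exists_density (d := d)
  have htr : 0 ≤ X.trace := hX.trace_nonneg
  have him : X.trace = ((X.trace.re : ℝ) : ℂ) := by
    rw [Complex.le_def] at htr
    apply Complex.ext <;> simp [← htr.2]
  by_cases h : X.trace.re = 0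
  · refine ⟨ρ0, h0, ?_⟩
    have : X = 0 := by
      rw [← hX.trace_eq_zero_iff, him, h]; simp
    rw [h]; simp [this]
  · have hpos : 0 < X.trace.re := by
      rw [Complex.le_def] at htr
      exact lt_of_le_of_ne htr.1 (Ne.symm h)
    refine ⟨(((X.trace.re)⁻¹ : ℝ) : ℂ) • X, ⟨?_, ?_⟩, ?_⟩
    · apply hX.smul
      rw [Complex.zero_le_real]
      positivity
    · rw [Matrix.trace_smul, him]
      simp only [smul_eq_mul, Complex.ofReal_re]
      rw [← Complex.ofReal_mul, inv_mul_cancel₀ h]; simp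
    · rw [smul_smul, ← Complex.ofReal_mul, mul_inv_cancel₀ h]; simp


theorem gadRate_continuousOn {γ ν : ℝ} (_hγ : γ ∈ Set.Icc (0 : ℝ) 1)
    (_hν : ν ∈ Set.Icc (0 : ℝ) 1) :
    ContinuousOn (gadRate γ ν) (Set.Icc (0 : ℝ) 1) := by
  apply Continuous.continuousOn
  unfold gadRate
  apply Continuous.sub
  · exact Real.binEntropy_continuous.comp (by fun_prop)
  · exact Real.binEntropy_continuous.comp (by fun_prop)

theorem block_posSemidef {M : Matrix (Bool × d) (Bool × d) ℂ} (h : M.PosSemidef) (s : Bool) :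
    (block M s s).PosSemidef := by
  have := h.submatrix (fun i : d => (s, i))
  exact this

theorem block_blockwise (Ψ : Matrix d d ℂ → Matrix e e ℂ) (M : Matrix (Bool × d) (Bool × d) ℂ)
    (s t : Bool) : block (blockwise (k := Bool) Ψ M) s t = Ψ (block M s t) := rfl

theorem trace_block_sum (M : Matrix (Bool × d) (Bool × d) ℂ) :
    M.trace = (block M false false).trace + (block M true true).trace := by
  simp only [Matrix.trace, Matrix.diag, block, Matrix.of_apply, Fintype.sum_prod_type,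
    Fintype.sum_bool]
  ring

theorem trace_re_of_posSemidef {X : Matrix d d ℂ} (hX : X.PosSemidef) :
    X.trace = ((X.trace.re : ℝ) : ℂ) ∧ 0 ≤ X.trace.re := by
  have htr : 0 ≤ X.trace := hX.trace_nonneg
  rw [Complex.le_def] at htr
  refine ⟨?_, htr.1⟩
  apply Complex.ext <;> simp [← htr.2]

theorem trace_blocks {M : Matrix (Bool × d) (Bool × d) ℂ} (h : IsDensity M) :
    (block M true true).trace.re = pop M ∧ (block M false false).trace.re = 1 - pop M ∧
      0 ≤ pop M ∧ pop M ≤ 1 := by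
  have h1 := (trace_re_of_posSemidef (block_posSemidef h.1 true)).2
  have h0 := (trace_re_of_posSemidef (block_posSemidef h.1 false)).2
  have hs := congrArg Complex.re (trace_block_sum M)
  rw [h.2, Complex.add_re, Complex.one_re] at hs
  unfold pop
  refine ⟨rfl, by linarith, h1, by linarith⟩

theorem pop_blockwise {Ψ : Matrix d d ℂ → Matrix e e ℂ} (hΨ : IsChannel Ψ)
    (M : Matrix (Bool × d) (Bool × d) ℂ) : pop (blockwise (k := Bool) Ψ M) = pop M := by
  unfold pop
  rw [block_blockwise, hΨ.2.2]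

/-- the key inequality for `Φ ⊗ Ψ` -/
theorem star_chan {γ ν : ℝ} (hγ : γ ∈ Set.Icc (0 : ℝ) 1) (hν : ν ∈ Set.Icc (0 : ℝ) 1)
    {Ψ : Matrix d d ℂ → Matrix e e ℂ} (hΨ : IsChannel Ψ)
    {ρ : Matrix (Bool × d) (Bool × d) ℂ} (h : IsDensity ρ) :
    gE γ ν (pop ρ) + (vnEntropy (Ψ (block ρ false false)) + vnEntropy (Ψ (block ρ true true))
        - Real.binEntropy (pop ρ))
      ≤ vnEntropy (qubitTensor (gadMap γ ν) Ψ ρ) := by
  have := star hγ hν (blockwise_density hΨ h)
  rw [pop_blockwise hΨ, block_blockwise, block_blockwise, ← qubitTensor_eq] at this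
  exact this

theorem ent_chan_smul {Ψ : Matrix d d ℂ → Matrix e e ℂ} (hΨ : IsChannel Ψ) {Y : Matrix d d ℂ}
    (hY : IsDensity Y) (c : ℝ) (hc : 0 ≤ c) :
    vnEntropy (Ψ ((c : ℂ) • Y)) = c * vnEntropy (Ψ Y) + Real.negMulLog c := by
  rw [hΨ.1.map_smul, ent_smul (chan_density hΨ hY).1 c hc, (chan_density hΨ hY).2]
  simp

theorem density_sum {m : ℕ} {q : Fin m → ℝ} {ρ : Fin m → Matrix d d ℂ} (hq : ∀ a, 0 ≤ q a)
    (hq1 : ∑ a, q a = 1) (h : ∀ a, IsDensity (ρ a)) : IsDensity (∑ a, (q a : ℂ) • ρ a) := by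
  constructor
  · apply Matrix.posSemidef_sum
    intro a _
    apply (h a).1.smul
    rw [Complex.zero_le_real]
    exact hq a
  · rw [Matrix.trace_sum]
    simp only [Matrix.trace_smul, (h _).2, smul_eq_mul, mul_one]
    rw [← Complex.ofReal_sum, hq1]; simp

theorem trL_sum {m : ℕ} (c : Fin m → ℂ) (M : Fin m → Matrix (Bool × e) (Bool × e) ℂ) :
    trL (∑ a, c a • M a) = ∑ a, c a • trL (M a) := by
  ext i j
  simp only [trL, block, Matrix.sum_apply, Matrix.smul_apply, Matrix.of_apply, smul_eq_mul,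
    Finset.mul_sum]
  rw [Finset.sum_comm]

theorem trR_sum {m : ℕ} (c : Fin m → ℂ) (M : Fin m → Matrix (Bool × e) (Bool × e) ℂ) :
    trR (∑ a, c a • M a) = ∑ a, c a • trR (M a) := by
  ext i j
  simp only [trR, block, Matrix.sum_apply, Matrix.smul_apply, Matrix.of_apply, smul_eq_mul,
    Finset.mul_sum, Matrix.trace, Matrix.diag]
  rw [Finset.sum_comm]

theorem trR_density {M : Matrix (Bool × e) (Bool × e) ℂ} (h : IsDensity M) : IsDensity (trR M) := by
  have hs : trR M = ∑ i : e, M.submatrix (fun s : Bool => (s, i)) (fun s : Bool => (s, i)) := by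
    ext s t
    simp [trR, block, Matrix.trace, Matrix.sum_apply]
  constructor
  · rw [hs]
    exact Matrix.posSemidef_sum _ fun i _ => h.1.submatrix _
  · rw [← h.2, trace_block_sum M]
    simp [trR, Matrix.trace, Fintype.sum_bool, add_comm]

theorem holevo_tensor_le {γ ν : ℝ} (hγ : γ ∈ Set.Icc (0 : ℝ) 1) (hν : ν ∈ Set.Icc (0 : ℝ) 1)
    [Nonempty d] {Ψ : Matrix d d ℂ → Matrix e e ℂ} (hΨ : IsChannel Ψ)
    {m : ℕ} {q : Fin m → ℝ} {ρ : Fin m → Matrix (Bool × d) (Bool × d) ℂ} (h : IsEnsemble q ρ) :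
    ∃ p ∈ Set.Icc (0 : ℝ) 1, ∃ (m₂ : ℕ) (q₂ : Fin m₂ → ℝ) (ρ₂ : Fin m₂ → Matrix d d ℂ),
      IsEnsemble q₂ ρ₂ ∧
      holevoInfo (qubitTensor (gadMap γ ν) Ψ) q ρ ≤ gadRate γ ν p + holevoInfo Ψ q₂ ρ₂ := by
  obtain ⟨hq0, hq1, hρ⟩ := h
  -- populations
  set p : Fin m → ℝ := fun a => pop (ρ a) with hp
  have hpI : ∀ a, p a ∈ Set.Icc (0 : ℝ) 1 := fun a =>
    ⟨(trace_blocks (hρ a)).2.2.1, (trace_blocks (hρ a)).2.2.2⟩
  set pb : ℝ := ∑ a, q a * p a with hpb
  have hconv := gE_convexOn hγ hν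
  have hpbI : pb ∈ Set.Icc (0 : ℝ) 1 := by
    have := (convex_Icc (0 : ℝ) 1).sum_mem (t := Finset.univ) (w := q) (z := p)
      (fun a _ => hq0 a) hq1 (fun a _ => hpI a)
    simpa [hpb, smul_eq_mul] using this
  have hJ : gE γ ν pb ≤ ∑ a, q a * gE γ ν (p a) := by
    have := hconv.map_sum_le (t := Finset.univ) (w := q) (p := p)
      (fun a _ => hq0 a) hq1 (fun a _ => hpI a)
    simpa [hpb, smul_eq_mul] using this
  -- the normalised blocks
  have hn : ∀ (a : Fin m) (s : Bool), ∃ Y : Matrix d d ℂ, IsDensity Y ∧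
      block (ρ a) s s = (((block (ρ a) s s).trace.re : ℝ) : ℂ) • Y := fun a s =>
    exists_normalised (block_posSemidef (hρ a).1 s)
  choose Y hY hYe using hn
  set t : Fin m → Bool → ℝ := fun a s => (block (ρ a) s s).trace.re with ht
  have ht1 : ∀ a, t a true = p a := fun a => rfl
  have ht0 : ∀ a, t a false = 1 - p a := fun a => (trace_blocks (hρ a)).2.1
  have htn : ∀ a s, 0 ≤ t a s := fun a s => (trace_re_of_posSemidef (block_posSemidef (hρ a).1 s)).2
  obtain ⟨m₂, q₂, ρ₂, hens, hhol⟩ := ens_of_fintype (e := e) (ι := Fin m × Bool)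
    (fun x => q x.1 * t x.1 x.2) (fun x => Y x.1 x.2)
    (fun x => mul_nonneg (hq0 _) (htn _ _))
    (by
      rw [Fintype.sum_prod_type]
      simp only [Fintype.sum_bool, ht1, ht0]
      refine Eq.trans (Finset.sum_congr rfl fun a _ => ?_) hq1
      ring)
    (fun x => hY _ _)
  refine ⟨pb, hpbI, m₂, q₂, ρ₂, hens, ?_⟩
  rw [hhol Ψ]
  -- entropies of blocks
  have hent : ∀ a s, vnEntropy (Ψ (block (ρ a) s s))
      = t a s * vnEntropy (Ψ (Y a s)) + Real.negMulLog (t a s) := by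
    intro a s
    conv_lhs => rw [hYe a s]
    exact ent_chan_smul hΨ (hY a s) _ (htn a s)
  -- the average output on the second system
  have hS2 : (∑ x : Fin m × Bool, ((q x.1 * t x.1 x.2 : ℝ) : ℂ) • Ψ (Y x.1 x.2))
      = ∑ a, (q a : ℂ) • (Ψ (block (ρ a) false false) + Ψ (block (ρ a) true true)) := by
    rw [Fintype.sum_prod_type]
    refine Finset.sum_congr rfl fun a _ => ?_
    have hb : ∀ s, Ψ (block (ρ a) s s) = ((t a s : ℝ) : ℂ) • Ψ (Y a s) := by
      intro s
      conv_lhs => rw [hYe a s]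
      rw [hΨ.1.map_smul]
    rw [Fintype.sum_bool, hb, hb, smul_add, smul_smul, smul_smul]
    push_cast
    rw [add_comm]
  have hS3 : (∑ x : Fin m × Bool, (q x.1 * t x.1 x.2) * vnEntropy (Ψ (Y x.1 x.2)))
      = ∑ a, q a * (vnEntropy (Ψ (block (ρ a) false false)) + vnEntropy (Ψ (block (ρ a) true true))
          - Real.binEntropy (p a)) := by
    rw [Fintype.sum_prod_type]
    refine Finset.sum_congr rfl fun a _ => ?_
    rw [Fintype.sum_bool, hent, hent, Real.binEntropy_eq_negMulLog_add_negMulLog_one_sub, ht1, ht0]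
    ring
  rw [hS2, hS3]
  -- the average output
  set Mb : Matrix (Bool × e) (Bool × e) ℂ := ∑ a, (q a : ℂ) • qubitTensor (gadMap γ ν) Ψ (ρ a) with hMb
  have hMd : IsDensity Mb := density_sum hq0 hq1 fun a => tensor_density hγ hν hΨ (hρ a)
  have hsub := ent_subadd hMd
  have hL : trL Mb = ∑ a, (q a : ℂ) • (Ψ (block (ρ a) false false) + Ψ (block (ρ a) true true)) := by
    rw [hMb, trL_sum]
    refine Finset.sum_congr rfl fun a _ => ?_
    rw [trL_tensor hΨ]
  have hR : (trR Mb true true).re = (1 - γ) * pb + γ * ν := by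
    rw [hMb, trR_sum, Matrix.sum_apply, Complex.re_sum]
    have : ∀ a, (((q a : ℂ) • trR (qubitTensor (gadMap γ ν) Ψ (ρ a))) true true).re
        = (1 - γ) * (q a * p a) + q a * (γ * ν) := by
      intro a
      rw [trR_tensor hΨ, Matrix.smul_apply, smul_eq_mul, Complex.re_ofReal_mul]
      have h1 : (gadMap γ ν (trR (ρ a)) true true)
          = ((γ * ν : ℝ) : ℂ) * (block (ρ a) false false).trace
            + ((1 - γ + γ * ν : ℝ) : ℂ) * (block (ρ a) true true).trace := by
        simp [gadMap, trR]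
      rw [h1, Complex.add_re, Complex.re_ofReal_mul, Complex.re_ofReal_mul]
      have e1 : (block (ρ a) true true).trace.re = p a := rfl
      have e0 : (block (ρ a) false false).trace.re = 1 - p a := (trace_blocks (hρ a)).2.1
      rw [e1, e0]
      ring
    rw [Finset.sum_congr rfl fun a _ => this a, Finset.sum_add_distrib, ← Finset.mul_sum,
      ← Finset.sum_mul, hq1, ← hpb]
    ring
  have hR2 := ent_two_le (trR_density hMd)
  rw [hR] at hR2
  have hstar : ∑ a, q a * gE γ ν (p a) + ∑ a, q a * (vnEntropy (Ψ (block (ρ a) false false))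
      + vnEntropy (Ψ (block (ρ a) true true)) - Real.binEntropy (p a))
      ≤ ∑ a, q a * vnEntropy (qubitTensor (gadMap γ ν) Ψ (ρ a)) := by
    rw [← Finset.sum_add_distrib]
    refine Finset.sum_le_sum fun a _ => ?_
    rw [← mul_add]
    exact mul_le_mul_of_nonneg_left (star_chan hγ hν hΨ (hρ a)) (hq0 a)
  unfold holevoInfo
  rw [← hMb, gadRate_eq, ← hL]
  linarith

end Crest.Agent.AD
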