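import Crest.Agent.AD.Ens

set_option autoImplicit false
open Crest.Quantum Crest.MathPhysics.AmpDamp
open scoped ComplexOrder Kronecker

namespace Crest.Agent.AD

variable {d e : Type} [Fintype d] [Fintype e] [DecidableEq d] [DecidableEq e]

theorem reindex_density (f : d ≃ e) {ρ : Matrix d d ℂ} (h : IsDensity ρ) :
    IsDensity (Matrix.reindex f f ρ) := by
  refine ⟨?_, ?_⟩
  · exact h.1.submatrix _
  · rw [← h.2]
    simp only [Matrix.trace, Matrix.diag, Matrix.reindex_apply, Matrix.submatrix_apply]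
    exact Equiv.sum_comp f.symm (fun i => ρ i i)

/-- the splitting equivalence -/
abbrev fS (n : ℕ) : Bool × (Fin n → Bool) ≃ (Fin (n + 1) → Bool) :=
  Fin.consEquiv (fun _ : Fin (n + 1) => Bool)

theorem holevo_power_succ {γ ν : ℝ} (n : ℕ) {m : ℕ}
    (q : Fin m → ℝ) (ρ : Fin m → Matrix (Fin (n + 1) → Bool) (Fin (n + 1) → Bool) ℂ) :
    holevoInfo (qubitPower (n + 1) (gadMap γ ν)) q ρ
      = holevoInfo (qubitTensor (gadMap γ ν) (qubitPower n (gadMap γ ν))) q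
          (fun a => Matrix.reindex (fS n).symm (fS n).symm (ρ a)) := by
  unfold holevoInfo
  have h1 : ∀ a, qubitPower (n + 1) (gadMap γ ν) (ρ a)
      = Matrix.reindex (fS n) (fS n) (qubitTensor (gadMap γ ν) (qubitPower n (gadMap γ ν))
          (Matrix.reindex (fS n).symm (fS n).symm (ρ a))) := fun a => power_succ _ n (ρ a)
  have h2 : (∑ a, (q a : ℂ) • qubitPower (n + 1) (gadMap γ ν) (ρ a))
      = Matrix.reindex (fS n) (fS n) (∑ a, (q a : ℂ) •
          qubitTensor (gadMap γ ν) (qubitPower n (gadMap γ ν))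
          (Matrix.reindex (fS n).symm (fS n).symm (ρ a))) := by
    ext i j
    simp only [h1, Matrix.sum_apply, Matrix.smul_apply, Matrix.reindex_apply,
      Matrix.submatrix_apply]
  rw [h2, ent_reindex]
  congr 1
  refine Finset.sum_congr rfl fun a _ => ?_
  rw [h1 a, ent_reindex]

theorem ent_unique [Unique d] {ρ : Matrix d d ℂ} (h : IsDensity ρ) : vnEntropy ρ = 0 := by
  have hh := h.1.isHermitian
  unfold vnEntropy
  rw [dif_pos hh]
  have htr := hh.trace_eq_sum_eigenvalues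
  rw [h.2, Fintype.sum_unique] at htr
  have h1 : hh.eigenvalues default = 1 := by
    have := congrArg Complex.re htr
    simpa using this.symm
  rw [Fintype.sum_unique, h1]
  simp

theorem holevo_zero {γ ν : ℝ} (hγ : γ ∈ Set.Icc (0 : ℝ) 1) (hν : ν ∈ Set.Icc (0 : ℝ) 1) {m : ℕ}
    {q : Fin m → ℝ} {ρ : Fin m → Matrix (Fin 0 → Bool) (Fin 0 → Bool) ℂ} (h : IsEnsemble q ρ) :
    holevoInfo (qubitPower 0 (gadMap γ ν)) q ρ = 0 := by
  have hc := power_channel hγ hν 0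
  unfold holevoInfo
  rw [ent_unique (density_sum h.1 h.2.1 fun a => chan_density hc (h.2.2 a))]
  have : ∀ a, vnEntropy (qubitPower 0 (gadMap γ ν) (ρ a)) = 0 := fun a =>
    ent_unique (chan_density hc (h.2.2 a))
  simp [this]

theorem power_upper {γ ν : ℝ} (hγ : γ ∈ Set.Icc (0 : ℝ) 1) (hν : ν ∈ Set.Icc (0 : ℝ) 1) {R : ℝ}
    (hR : ∀ p ∈ Set.Icc (0 : ℝ) 1, gadRate γ ν p ≤ R) (n : ℕ) :
    ∀ (m : ℕ) (q : Fin m → ℝ) (ρ : Fin m → Matrix (Fin n → Bool) (Fin n → Bool) ℂ),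
      IsEnsemble q ρ → holevoInfo (qubitPower n (gadMap γ ν)) q ρ ≤ n * R := by
  induction n with
  | zero =>
    intro m q ρ h
    rw [holevo_zero hγ hν h]; simp
  | succ n ih =>
    intro m q ρ h
    rw [holevo_power_succ]
    have h' : IsEnsemble q (fun a => Matrix.reindex (fS n).symm (fS n).symm (ρ a)) :=
      ⟨h.1, h.2.1, fun a => reindex_density _ (h.2.2 a)⟩
    obtain ⟨p, hp, m₂, q₂, ρ₂, h2, hle⟩ := holevo_tensor_le hγ hν (power_channel hγ hν n) h'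
    refine hle.trans ?_
    have := ih m₂ q₂ ρ₂ h2
    have := hR p hp
    push_cast
    linarith

theorem power_lower {γ ν : ℝ} (hγ : γ ∈ Set.Icc (0 : ℝ) 1) (hν : ν ∈ Set.Icc (0 : ℝ) 1) {p : ℝ}
    (hp : p ∈ Set.Icc (0 : ℝ) 1) (n : ℕ) :
    ∃ (m : ℕ) (q : Fin m → ℝ) (ρ : Fin m → Matrix (Fin n → Bool) (Fin n → Bool) ℂ),
      IsEnsemble q ρ ∧ n * gadRate γ ν p ≤ holevoInfo (qubitPower n (gadMap γ ν)) q ρ := by
  induction n with
  | zero =>
    obtain ⟨ρ0, h0⟩ := exists_density (d := Fin 0 → Bool)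
    have hens : IsEnsemble (fun _ : Fin 1 => (1 : ℝ)) (fun _ : Fin 1 => ρ0) :=
      ⟨fun _ => zero_le_one, by simp, fun _ => h0⟩
    refine ⟨1, _, _, hens, ?_⟩
    rw [holevo_zero hγ hν hens]; simp
  | succ n ih =>
    obtain ⟨m₂, q₂, ρ₂, h2, hle⟩ := ih
    obtain ⟨m₁, q₁, ρ₁, h1, he⟩ := single_ensemble hγ hν hp
    obtain ⟨m, q, ρ, h, hh⟩ := prod_ensemble hγ hν (power_channel hγ hν n) h1 h2
    refine ⟨m, q, fun a => Matrix.reindex (fS n) (fS n) (ρ a),
      ⟨h.1, h.2.1, fun a => reindex_density _ (h.2.2 a)⟩, ?_⟩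
    rw [holevo_power_succ]
    have : (fun a => Matrix.reindex (fS n).symm (fS n).symm (Matrix.reindex (fS n) (fS n) (ρ a)))
        = ρ := by
      funext a
      ext i j
      simp
    rw [this]
    rw [he] at hh
    push_cast
    linarith

theorem part534 (γ ν : ℝ) (hγ : γ ∈ Set.Icc (0 : ℝ) 1)
    (hν : ν ∈ Set.Icc (0 : ℝ) 1) (n : ℕ) :
    (∀ (m : ℕ) (q : Fin m → ℝ) (ρ : Fin m → Matrix (Fin n → Bool) (Fin n → Bool) ℂ),
        IsEnsemble q ρ → ∃ p ∈ Set.Icc (0 : ℝ) 1,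
          holevoInfo (qubitPower n (gadMap γ ν)) q ρ ≤ n * gadRate γ ν p) ∧
    (∀ p ∈ Set.Icc (0 : ℝ) 1, ∃ (m : ℕ) (q : Fin m → ℝ)
        (ρ : Fin m → Matrix (Fin n → Bool) (Fin n → Bool) ℂ),
        IsEnsemble q ρ ∧ n * gadRate γ ν p ≤ holevoInfo (qubitPower n (gadMap γ ν)) q ρ) := by
  constructor
  · obtain ⟨p, hp, hmax⟩ := isCompact_Icc.exists_isMaxOn (Set.nonempty_Icc.2 zero_le_one)
      (gadRate_continuousOn hγ hν)
    intro m q ρ h
    exact ⟨p, hp, power_upper hγ hν (fun x hx => hmax hx) n m q ρ h⟩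
  · intro p hp
    exact power_lower hγ hν hp n

end Crest.Agent.AD
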