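import Crest.Agent.AD.SuperAdd
import Crest.Agent.AD.Ent
import Crest.Agent.AD.Chan2

/-! Row 341: the key inequality `star'` for the generalized amplitude-damping channel from the
three-block inequality `E3`. -/

set_option autoImplicit false
open Crest.Quantum Crest.MathPhysics.AmpDamp
open scoped ComplexOrder Kronecker

namespace Crest.Agent.AD

variable {e : Type} [Fintype e] [DecidableEq e]

/-- the statement of the three-block inequality -/
def E3Prop (e : Type) [Fintype e] [DecidableEq e] : Prop :=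
  ∀ (σ : Matrix (Bool × e) (Bool × e) ℂ), σ.PosSemidef → ∀ (α β κ : ℝ), 0 ≤ α → 0 ≤ β → 0 ≤ κ →
    S2 (β * (block σ true true).trace.re) (κ * (block σ false false).trace.re)
        (α * (block σ false false).trace.re)
      - Real.negMulLog ((M3 σ α β κ).trace.re)
      + (α + κ) * Sh (block σ false false) + β * Sh (block σ true true)
      ≤ Sh (M3 σ α β κ)

/-- exchange of the two levels -/
def flipE (e : Type) : (Bool × e) ≃ (Bool × e) :=
  Equiv.prodCongr (Equiv.boolNot) (Equiv.refl e)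

theorem flipE_apply (p : Bool × e) : flipE e p = (!p.1, p.2) := rfl
theorem flipE_symm_apply (p : Bool × e) : (flipE e).symm p = (!p.1, p.2) := rfl

theorem M3_psd {σ : Matrix (Bool × e) (Bool × e) ℂ} (hσ : σ.PosSemidef) {α β κ : ℝ}
    (hα : 0 ≤ α) (hβ : 0 ≤ β) (hκ : 0 ≤ κ) : (M3 σ α β κ).PosSemidef := by
  set D : Matrix (Bool × e) (Bool × e) ℂ :=
    Matrix.diagonal (fun p => if p.1 = false then ((√α : ℝ) : ℂ) else ((√β : ℝ) : ℂ)) with hD
  set D2 : Matrix (Bool × e) (Bool × e) ℂ :=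
    Matrix.diagonal (fun p => if p.1 = false then (0 : ℂ) else ((√κ : ℝ) : ℂ)) with hD2
  set f : Bool × e → Bool × e := fun p => (false, p.2) with hf
  have h1 : (D * σ * D.conjTranspose).PosSemidef := hσ.mul_mul_conjTranspose_same D
  have h2 : (D2 * (σ.submatrix f f) * D2.conjTranspose).PosSemidef :=
    (hσ.submatrix f).mul_mul_conjTranspose_same D2
  have hDc : D.conjTranspose = D := by
    rw [hD, Matrix.diagonal_conjTranspose]
    congr 1
    ext p
    by_cases hp : p.1 = false <;> simp [hp]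
  have hD2c : D2.conjTranspose = D2 := by
    rw [hD2, Matrix.diagonal_conjTranspose]
    congr 1
    ext p
    by_cases hp : p.1 = false <;> simp [hp]
  have haa : ((√α : ℝ) : ℂ) * ((√α : ℝ) : ℂ) = (α : ℂ) := by
    rw [← Complex.ofReal_mul, Real.mul_self_sqrt hα]
  have hbb : ((√β : ℝ) : ℂ) * ((√β : ℝ) : ℂ) = (β : ℂ) := by
    rw [← Complex.ofReal_mul, Real.mul_self_sqrt hβ]
  have hkk : ((√κ : ℝ) : ℂ) * ((√κ : ℝ) : ℂ) = (κ : ℂ) := by
    rw [← Complex.ofReal_mul, Real.mul_self_sqrt hκ]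
  have hab : ((√(α * β) : ℝ) : ℂ) = ((√α : ℝ) : ℂ) * ((√β : ℝ) : ℂ) := by
    rw [← Complex.ofReal_mul, Real.sqrt_mul hα]
  have h3 : M3 σ α β κ = D * σ * D.conjTranspose + D2 * (σ.submatrix f f) * D2.conjTranspose := by
    rw [hDc, hD2c]
    ext ⟨s, i⟩ ⟨t, j⟩
    rw [Matrix.add_apply, hD, hD2, Matrix.mul_diagonal, Matrix.diagonal_mul, Matrix.mul_diagonal,
      Matrix.diagonal_mul]
    cases s <;> cases t <;> simp [M3, bm, block, hf, hab, ← haa, ← hbb, ← hkk] <;> ring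
  rw [h3]
  exact h1.add h2

theorem trace_bool_prod (M : Matrix (Bool × e) (Bool × e) ℂ) :
    M.trace = (block M false false).trace + (block M true true).trace := by
  simp only [Matrix.trace, Matrix.diag, block, Matrix.of_apply]
  rw [Fintype.sum_prod_type, Fintype.sum_bool, add_comm]

theorem M3_trace (σ : Matrix (Bool × e) (Bool × e) ℂ) (α β κ : ℝ) :
    (M3 σ α β κ).trace.re = α * (block σ false false).trace.re
      + β * (block σ true true).trace.re + κ * (block σ false false).trace.re := by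
  have h1 : block (M3 σ α β κ) false false = (α : ℂ) • block σ false false := by
    ext i j; simp [M3, bm, block]
  have h2 : block (M3 σ α β κ) true true =
      (β : ℂ) • block σ true true + (κ : ℂ) • block σ false false := by
    ext i j; simp [M3, bm, block]
  rw [trace_bool_prod, h1, h2, Matrix.trace_smul, Matrix.trace_add, Matrix.trace_smul,
    Matrix.trace_smul]
  simp only [smul_eq_mul, Complex.add_re, Complex.mul_re, Complex.ofReal_re, Complex.ofReal_im,
    zero_mul, sub_zero]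
  ring

/-- scaling of the two-level entropy. -/
theorem S2_hom {b p q w P0 : ℝ} (hw : 0 ≤ w) (hs : b + p + q = w) (hp : p * q = w ^ 2 * P0) :
    S2 b p q = w * Real.binEntropy ((1 + √(1 - 4 * P0)) / 2) + Real.negMulLog w := by
  unfold S2
  have h1 : √((b + p + q) ^ 2 - 4 * (p * q)) = w * √(1 - 4 * P0) := by
    rw [hs, hp]
    have : w ^ 2 - 4 * (w ^ 2 * P0) = w ^ 2 * (1 - 4 * P0) := by ring
    rw [this, Real.sqrt_mul (sq_nonneg w), Real.sqrt_sq hw]
  rw [h1, hs]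
  have e1 : (w + w * √(1 - 4 * P0)) / 2 = w * ((1 + √(1 - 4 * P0)) / 2) := by ring
  have e2 : (w - w * √(1 - 4 * P0)) / 2 = w * (1 - (1 + √(1 - 4 * P0)) / 2) := by ring
  rw [e1, e2, Real.negMulLog_mul, Real.negMulLog_mul,
    Real.binEntropy_eq_negMulLog_add_negMulLog_one_sub]
  ring

theorem Sh_flip {M : Matrix (Bool × e) (Bool × e) ℂ} :
    Sh (Matrix.reindex (flipE e) (flipE e) M) = Sh M := by
  unfold Sh
  rw [ent_reindex]
  congr 3
  simp only [Matrix.trace, Matrix.diag, Matrix.reindex_apply, Matrix.submatrix_apply]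
  exact Equiv.sum_comp (flipE e).symm (fun i => M i i)

theorem psd_flip {M : Matrix (Bool × e) (Bool × e) ℂ} (h : M.PosSemidef) :
    (Matrix.reindex (flipE e) (flipE e) M).PosSemidef := by
  rw [Matrix.reindex_apply]
  exact h.submatrix _

theorem block_flip (M : Matrix (Bool × e) (Bool × e) ℂ) (s t : Bool) :
    block (Matrix.reindex (flipE e) (flipE e) M) s t = block M (!s) (!t) := by
  ext i j
  simp [block, flipE_symm_apply]

/-- the output of the channel in block form -/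
theorem out_eq (γ ν : ℝ) (σ : Matrix (Bool × e) (Bool × e) ℂ) :
    qubitTensor (gadMap γ ν) (fun M => M) σ =
      bm (((1 - γ * ν : ℝ) : ℂ) • block σ false false + ((γ * (1 - ν) : ℝ) : ℂ) • block σ true true)
        (((√(1 - γ) : ℝ) : ℂ) • block σ false true)
        (((√(1 - γ) : ℝ) : ℂ) • block σ true false)
        (((γ * ν : ℝ) : ℂ) • block σ false false +
          ((1 - γ + γ * ν : ℝ) : ℂ) • block σ true true) := by
  ext ⟨s, i⟩ ⟨t, j⟩
  rw [tensor_apply]
  cases s <;> cases t <;> simp [bm]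

theorem out_split {γ ν : ℝ} (σ : Matrix (Bool × e) (Bool × e) ℂ) {α₁ β₁ α₂ β₂ w : ℝ}
    (hw0 : 0 ≤ w) (hw1 : w ≤ 1)
    (h1 : α₁ + α₂ = 1 - γ * ν) (h2 : β₁ + β₂ = 1 - γ * (1 - ν))
    (h3 : α₁ * β₁ = (w * √(1 - γ)) ^ 2) (h4 : β₂ * α₂ = ((1 - w) * √(1 - γ)) ^ 2) :
    qubitTensor (gadMap γ ν) (fun M => M) σ =
      M3 σ α₁ β₁ (γ * ν) + Matrix.reindex (flipE e) (flipE e)
        (M3 (Matrix.reindex (flipE e) (flipE e) σ) β₂ α₂ (γ * (1 - ν))) := by
  have s1 : √(α₁ * β₁) = w * √(1 - γ) := by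
    rw [h3, Real.sqrt_sq (mul_nonneg hw0 (Real.sqrt_nonneg _))]
  have s2 : √(β₂ * α₂) = (1 - w) * √(1 - γ) := by
    rw [h4, Real.sqrt_sq (mul_nonneg (by linarith) (Real.sqrt_nonneg _))]
  have ea : ((1 - γ * ν : ℝ) : ℂ) = (α₁ : ℂ) + (α₂ : ℂ) := by rw [← h1]; push_cast; ring
  have eb : ((1 - γ + γ * ν : ℝ) : ℂ) = (β₁ : ℂ) + (β₂ : ℂ) := by
    rw [← Complex.ofReal_add, h2]; congr 1; ring
  rw [out_eq, ea, eb]
  ext ⟨s, i⟩ ⟨t, j⟩
  rw [Matrix.add_apply]
  cases s <;> cases t <;>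
    simp only [bm, M3, Matrix.of_apply, Matrix.reindex_apply, Matrix.submatrix_apply,
      flipE_symm_apply, block, s1, s2, Matrix.add_apply, Matrix.smul_apply, smul_eq_mul,
      Bool.not_false, Bool.not_true, if_true, if_false, Bool.true_eq_false, reduceIte] <;>
    push_cast <;> ring

theorem star_of_params (hE : E3Prop e) {γ ν : ℝ} (hγ : γ ∈ Set.Icc (0 : ℝ) 1)
    (hν : ν ∈ Set.Icc (0 : ℝ) 1) {σ : Matrix (Bool × e) (Bool × e) ℂ} (hσ : IsDensity σ)
    {α₁ β₁ α₂ β₂ w : ℝ} (hw0 : 0 ≤ w) (hw1 : w ≤ 1)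
    (hα₁ : 0 ≤ α₁) (hβ₁ : 0 ≤ β₁) (hα₂ : 0 ≤ α₂) (hβ₂ : 0 ≤ β₂)
    (h1 : α₁ + α₂ = 1 - γ * ν) (h2 : β₁ + β₂ = 1 - γ * (1 - ν))
    (h3 : α₁ * β₁ = (w * √(1 - γ)) ^ 2) (h4 : β₂ * α₂ = ((1 - w) * √(1 - γ)) ^ 2)
    (h5 : α₁ * (1 - pop σ) + β₁ * pop σ + γ * ν * (1 - pop σ) = w)
    (h6 : γ * ν * (1 - pop σ) * (α₁ * (1 - pop σ)) =
      w ^ 2 * (γ * ν * (1 - ν) + γ * (1 - γ) * (pop σ - ν) ^ 2))
    (h7 : γ * (1 - ν) * pop σ * (β₂ * pop σ) =
      (1 - w) ^ 2 * (γ * ν * (1 - ν) + γ * (1 - γ) * (pop σ - ν) ^ 2)) :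
    gE γ ν (pop σ) + (vnEntropy (block σ false false) + vnEntropy (block σ true true)
        - Real.binEntropy (pop σ))
      ≤ vnEntropy (qubitTensor (gadMap γ ν) (fun M => M) σ) := by
  have hκ1 : 0 ≤ γ * ν := mul_nonneg hγ.1 hν.1
  have hκ2 : 0 ≤ γ * (1 - ν) := mul_nonneg hγ.1 (by linarith [hν.2])
  set σ' := Matrix.reindex (flipE e) (flipE e) σ with hσ'
  have hσ'p : σ'.PosSemidef := psd_flip hσ.1
  have hbff : block σ' false false = block σ true true := by rw [hσ', block_flip]; rfl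
  have hbtt : block σ' true true = block σ false false := by rw [hσ', block_flip]; rfl
  have hy : (block σ true true).trace.re = pop σ := rfl
  have hx : (block σ false false).trace.re = 1 - pop σ := by
    have := hσ.2
    rw [trace_bool_prod] at this
    have h := congrArg Complex.re this
    rw [Complex.add_re, Complex.one_re, hy] at h
    linarith
  have e1 := hE σ hσ.1 α₁ β₁ (γ * ν) hα₁ hβ₁ hκ1
  have e2 := hE σ' hσ'p β₂ α₂ (γ * (1 - ν)) hβ₂ hα₂ hκ2
  rw [M3_trace] at e1 e2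
  rw [hbff, hbtt] at e2
  rw [hx, hy] at e1 e2
  have t1 : α₁ * (1 - pop σ) + β₁ * pop σ + γ * ν * (1 - pop σ) = w := h5
  have t2 : β₂ * pop σ + α₂ * (1 - pop σ) + γ * (1 - ν) * pop σ = 1 - w := by
    rw [← h5]
    have q1 : α₂ = 1 - γ * ν - α₁ := by linarith
    have q2 : β₂ = 1 - γ * (1 - ν) - β₁ := by linarith
    rw [q1, q2]; ring
  rw [t1, S2_hom hw0 (by rw [← t1]; ring) h6] at e1
  rw [t2, S2_hom (w := 1 - w) (by linarith) (by rw [← t2]; ring) h7] at e2
  have hsup := Sh_superadd (M3_psd hσ.1 hα₁ hβ₁ hκ1) (psd_flip (M3_psd hσ'p hβ₂ hα₂ hκ2))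
  rw [Sh_flip, ← out_split σ hw0 hw1 h1 h2 h3 h4] at hsup
  have hout : Sh (qubitTensor (gadMap γ ν) (fun M => M) σ)
      = vnEntropy (qubitTensor (gadMap γ ν) (fun M => M) σ) := by
    have ht : (qubitTensor (gadMap γ ν) (fun M => M) σ).trace.re = 1 := by
      rw [out_split σ hw0 hw1 h1 h2 h3 h4, Matrix.trace_add, Complex.add_re, M3_trace]
      have ht2 : (Matrix.reindex (flipE e) (flipE e) (M3 σ' β₂ α₂ (γ * (1 - ν)))).trace
          = (M3 σ' β₂ α₂ (γ * (1 - ν))).trace := by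
        simp only [Matrix.trace, Matrix.diag, Matrix.reindex_apply, Matrix.submatrix_apply]
        exact Equiv.sum_comp (flipE e).symm (fun i => (M3 σ' β₂ α₂ (γ * (1 - ν))) i i)
      rw [ht2, M3_trace, hbff, hbtt, hx, hy, t1, t2]
      ring
    unfold Sh
    rw [ht]; simp
  have hbin : Real.binEntropy (pop σ) =
      Real.negMulLog (1 - pop σ) + Real.negMulLog (pop σ) := by
    rw [Real.binEntropy_eq_negMulLog_add_negMulLog_one_sub]; ring
  have hX : Sh (block σ false false) = vnEntropy (block σ false false)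
      - Real.negMulLog (1 - pop σ) := by unfold Sh; rw [hx]
  have hY : Sh (block σ true true) = vnEntropy (block σ true true)
      - Real.negMulLog (pop σ) := by unfold Sh; rw [hy]
  rw [hout] at hsup
  rw [hbin]
  unfold gE
  set G := Real.binEntropy
    ((1 + √(1 - 4 * (γ * ν * (1 - ν) + γ * (1 - γ) * (pop σ - ν) ^ 2))) / 2) with hG
  have hcX : (α₁ + γ * ν) * Sh (block σ false false) + α₂ * Sh (block σ false false)
      = Sh (block σ false false) := by
    have : α₁ + γ * ν + α₂ = 1 := by linarith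
    rw [← add_mul, this, one_mul]
  have hcY : (β₂ + γ * (1 - ν)) * Sh (block σ true true) + β₁ * Sh (block σ true true)
      = Sh (block σ true true) := by
    have : β₂ + γ * (1 - ν) + β₁ = 1 := by linarith
    rw [← add_mul, this, one_mul]
  nlinarith [e1, e2, hsup, hcX, hcY, hX, hY]

theorem star_of_E3 (hE : E3Prop e) {γ ν : ℝ} (hγ : γ ∈ Set.Icc (0 : ℝ) 1)
    (hν : ν ∈ Set.Icc (0 : ℝ) 1) {σ : Matrix (Bool × e) (Bool × e) ℂ} (hσ : IsDensity σ) :
    gE γ ν (pop σ) + (vnEntropy (block σ false false) + vnEntropy (block σ true true)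
        - Real.binEntropy (pop σ))
      ≤ vnEntropy (qubitTensor (gadMap γ ν) (fun M => M) σ) := by
  have hbp : ∀ s : Bool, (block σ s s).PosSemidef := by
    intro s
    have : block σ s s = σ.submatrix (fun i => (s, i)) (fun i => (s, i)) := rfl
    rw [this]
    exact hσ.1.submatrix _
  have hy0 : 0 ≤ pop σ := trace_re_nonneg (hbp true)
  have hx0 : 0 ≤ 1 - pop σ := by
    have hx : (block σ false false).trace.re = 1 - pop σ := by
      have := hσ.2
      rw [trace_bool_prod] at this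
      have h := congrArg Complex.re this
      rw [Complex.add_re, Complex.one_re] at h
      have hy : (block σ true true).trace.re = pop σ := rfl
      rw [hy] at h
      linarith
    rw [← hx]
    exact trace_re_nonneg (hbp false)
  obtain ⟨hγ0, hγ1⟩ := hγ
  obtain ⟨hν0, hν1⟩ := hν
  have hc2 : √(1 - γ) ^ 2 = 1 - γ := Real.sq_sqrt (by linarith)
  by_cases hb : γ * (1 - ν) = 0
  · refine star_of_params hE ⟨hγ0, hγ1⟩ ⟨hν0, hν1⟩ hσ (α₁ := 1 - γ * ν) (β₁ := 1) (α₂ := 0)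
      (β₂ := 0) (w := 1) zero_le_one le_rfl ?_ zero_le_one le_rfl le_rfl (by ring) ?_ ?_ ?_ ?_ ?_ ?_
    · have : γ * ν ≤ 1 := by nlinarith
      linarith
    · rw [hb]; ring
    · rw [one_mul, hc2]; linarith
    · ring
    · ring
    · linear_combination (-(1 - γ) * (pop σ) ^ 2 + 2 * (-γ * ν) * pop σ * (1 - pop σ)
        - (pop σ) ^ 2 * (γ * ν)) * hb
    · rw [hb]; ring
  by_cases ha : γ * ν = 0
  · refine star_of_params hE ⟨hγ0, hγ1⟩ ⟨hν0, hν1⟩ hσ (α₁ := 0) (β₁ := 0) (α₂ := 1)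
      (β₂ := 1 - γ * (1 - ν)) (w := 0) le_rfl zero_le_one le_rfl le_rfl zero_le_one ?_ ?_ ?_ ?_ ?_
      ?_ ?_ ?_
    · have : γ * (1 - ν) ≤ 1 := by nlinarith
      linarith
    · rw [ha]; ring
    · ring
    · ring
    · rw [sub_zero, one_mul, hc2]; linarith
    · rw [ha]; ring
    · rw [ha]; ring
    · linear_combination (-(1 - γ * ν) * (1 - pop σ) ^ 2
        - 2 * (γ * (1 - ν)) * (1 - pop σ) * pop σ) * ha
  have hb0 : 0 ≤ γ * (1 - ν) := mul_nonneg hγ0 (by linarith)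
  have ha0 : 0 ≤ γ * ν := mul_nonneg hγ0 hν0
  set y := pop σ with hy
  set P := γ * ν * (1 - ν) + γ * (1 - γ) * (y - ν) ^ 2 with hP
  have hP0 : 0 < P := by
    have h1 : 0 < γ := lt_of_le_of_ne hγ0 (fun h => hb (by rw [← h]; ring))
    have h2 : 0 < ν := lt_of_le_of_ne hν0 (fun h => ha (by rw [← h]; ring))
    have h3 : 0 < 1 - ν := lt_of_le_of_ne (by linarith) (fun h => hb (by rw [← h]; ring))
    have h4 : 0 < γ * ν * (1 - ν) := mul_pos (mul_pos h1 h2) h3
    have h5 : 0 ≤ γ * (1 - γ) * (y - ν) ^ 2 :=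
      mul_nonneg (mul_nonneg hγ0 (by linarith)) (sq_nonneg _)
    rw [hP]; linarith
  have hPne : P ≠ 0 := hP0.ne'
  set m11 := (1 - γ * ν) * (1 - y) + γ * (1 - ν) * y with hm11
  set m22 := γ * ν * (1 - y) + (1 - γ * (1 - ν)) * y with hm22
  have ha1 : 0 ≤ 1 - γ * ν := by nlinarith
  have hb1 : 0 ≤ 1 - γ * (1 - ν) := by nlinarith
  have hm11' : 0 ≤ m11 := add_nonneg (mul_nonneg ha1 hx0) (mul_nonneg hb0 hy0)
  have hm22' : 0 ≤ m22 := add_nonneg (mul_nonneg ha0 hx0) (mul_nonneg hb1 hy0)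
  have k1 : 1 - γ * ν * (1 - y) * m11 / P = γ * (1 - ν) * y * m22 / P := by
    rw [eq_div_iff hPne, sub_mul, div_mul_cancel₀ _ hPne, one_mul, hP, hm11, hm22]; ring
  have hc0 : 0 ≤ 1 - γ := by linarith
  refine star_of_params hE ⟨hγ0, hγ1⟩ ⟨hν0, hν1⟩ hσ
    (α₁ := γ * ν * m11 ^ 2 / P) (β₁ := γ * ν * (1 - y) ^ 2 * (1 - γ) / P)
    (α₂ := γ * (1 - ν) * y ^ 2 * (1 - γ) / P)
    (β₂ := γ * (1 - ν) * m22 ^ 2 / P) (w := γ * ν * (1 - y) * m11 / P) ?_ ?_ ?_ ?_ ?_ ?_ ?_ ?_ ?_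
    ?_ ?_ ?_ ?_
  · positivity
  · have : 0 ≤ γ * (1 - ν) * y * m22 / P := by positivity
    linarith
  · positivity
  · positivity
  · positivity
  · positivity
  · rw [← add_div, div_eq_iff hPne, hP, hm11]; ring
  · rw [← add_div, div_eq_iff hPne, hP, hm22]; ring
  · rw [mul_pow, hc2]; field_simp
  · rw [k1, mul_pow, hc2]; field_simp
  · rw [← hy]
    have : m11 ^ 2 + (1 - y) * y * (1 - γ) + P = m11 := by rw [hP, hm11]; ring
    field_simp
    linear_combination (γ * ν * (1 - y)) * this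
  · rw [← hy, ← hP]; field_simp
  · rw [← hy, ← hP, k1]; field_simp

end Crest.Agent.AD
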