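import Mathlib
import Crest.Agent.AD.Klein
import Crest.Agent.AD.E3Defs

set_option autoImplicit false
set_option linter.unusedSectionVars false

namespace Crest.Agent.AD

open Matrix Crest.Quantum
open scoped ComplexOrder BigOperators

variable {d : Type} [Fintype d] [DecidableEq d]

/-- Klein against the eigenbasis of a larger operator: for `0 ≤ A ≤ N` and a scale `c > 0`,
`S(A) ≤ -∑ a_j log m_j - tr A log c + c tr N - tr A`. -/
theorem klein_scale {A B : Matrix d d ℂ} (hA : A.PosSemidef) (hB : B.PosSemidef)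
    {c : ℝ} (hc : 0 < c) :
    vnEntropy A ≤ -(∑ j, ((star ((hA.add hB).1.eigenvectorUnitary : Matrix d d ℂ) * A *
        ((hA.add hB).1.eigenvectorUnitary : Matrix d d ℂ)) j j).re
        * Real.log ((hA.add hB).1.eigenvalues j)) - A.trace.re * Real.log c +
      (c * (A + B).trace.re - A.trace.re) := by
  have hN := hA.add hB
  set V := hN.1.eigenvectorUnitary with hV
  set mu := hN.1.eigenvalues with hmu
  have hm0 : ∀ j, 0 ≤ mu j := fun j => hN.eigenvalues_nonneg j
  have hAp : (star (V : Matrix d d ℂ) * A * (V : Matrix d d ℂ)).PosSemidef := by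
    have := hA.conjTranspose_mul_mul_same (V : Matrix d d ℂ)
    simpa [star_eq_conjTranspose] using this
  have hBp : (star (V : Matrix d d ℂ) * B * (V : Matrix d d ℂ)).PosSemidef := by
    have := hB.conjTranspose_mul_mul_same (V : Matrix d d ℂ)
    simpa [star_eq_conjTranspose] using this
  have ha0 : ∀ j, 0 ≤ ((star (V : Matrix d d ℂ) * A * (V : Matrix d d ℂ)) j j).re := by
    intro j
    exact (Complex.le_def.mp (hAp.diag_nonneg (i := j))).1
  have hb0 : ∀ j, 0 ≤ ((star (V : Matrix d d ℂ) * B * (V : Matrix d d ℂ)) j j).re := by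
    intro j
    exact (Complex.le_def.mp (hBp.diag_nonneg (i := j))).1
  have hab : ∀ j, ((star (V : Matrix d d ℂ) * A * (V : Matrix d d ℂ)) j j).re +
      ((star (V : Matrix d d ℂ) * B * (V : Matrix d d ℂ)) j j).re = mu j := by
    intro j
    have h1 := diag_conj_eig hN.1 j
    rw [Matrix.mul_add, Matrix.add_mul, Matrix.add_apply] at h1
    have h2 := congrArg Complex.re h1
    rw [Complex.add_re, Complex.ofReal_re] at h2
    exact h2
  have hz : ∀ j, mu j = 0 →
      ((star (V : Matrix d d ℂ) * A * (V : Matrix d d ℂ)) j j).re = 0 := by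
    intro j h
    have h1 := hab j
    have h2 := ha0 j
    have h3 := hb0 j
    linarith
  have key := klein A hA V (fun j => c * mu j) (fun j => mul_nonneg hc.le (hm0 j)) (by
    intro j h
    rcases mul_eq_zero.mp h with h1 | h1
    · exact absurd h1 hc.ne'
    · exact hz j h1)
  have e1 : ∑ j, ((star (V : Matrix d d ℂ) * A * (V : Matrix d d ℂ)) j j).re
      * Real.log (c * mu j) = ∑ j, ((star (V : Matrix d d ℂ) * A * (V : Matrix d d ℂ)) j j).re
      * Real.log (mu j) + (∑ j, ((star (V : Matrix d d ℂ) * A * (V : Matrix d d ℂ)) j j).re)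
        * Real.log c := by
    rw [Finset.sum_mul, ← Finset.sum_add_distrib]
    refine Finset.sum_congr rfl fun j _ => ?_
    by_cases h : mu j = 0
    · rw [hz j h]; simp
    · rw [Real.log_mul hc.ne' h]; ring
  have e2 : ∑ j, ((star (V : Matrix d d ℂ) * A * (V : Matrix d d ℂ)) j j).re = A.trace.re := by
    rw [← Complex.re_sum]
    have : ∑ j, (star (V : Matrix d d ℂ) * A * (V : Matrix d d ℂ)) j j =
      (star (V : Matrix d d ℂ) * A * (V : Matrix d d ℂ)).trace := rfl
    rw [this, Matrix.trace_mul_comm, ← Matrix.mul_assoc]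
    have : (V : Matrix d d ℂ) * star (V : Matrix d d ℂ) = 1 := mem_unitaryGroup_iff.mp V.2
    rw [this, Matrix.one_mul]
  have e3 : ∑ j, c * mu j = c * (A + B).trace.re := by
    rw [← Finset.mul_sum, hN.1.trace_eq_sum_eigenvalues, Complex.re_sum]; rfl
  rw [e1, e2, e3] at key
  linarith

theorem trace_re_nonneg {A : Matrix d d ℂ} (hA : A.PosSemidef) : 0 ≤ A.trace.re :=
  (Complex.le_def.mp hA.trace_nonneg).1

theorem psd_trace_zero {A : Matrix d d ℂ} (hA : A.PosSemidef) (h : A.trace.re = 0) : A = 0 := by
  have h1 : A.trace = 0 := by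
    apply Complex.ext
    · simpa using h
    · have := (Complex.le_def.mp hA.trace_nonneg).2
      simpa using this.symm
  exact hA.trace_eq_zero_iff.mp h1

theorem vn_zero : vnEntropy (0 : Matrix d d ℂ) = 0 := by
  have : (0 : Matrix d d ℂ) = diagonal (fun _ => ((0 : ℝ) : ℂ)) := by simp
  rw [this, vn_diagonal]
  simp

theorem Sh_zero : Sh (0 : Matrix d d ℂ) = 0 := by
  unfold Sh; rw [vn_zero]; simp

theorem Sh_superadd {A B : Matrix d d ℂ} (hA : A.PosSemidef) (hB : B.PosSemidef) :
    Sh A + Sh B ≤ Sh (A + B) := by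
  rcases (trace_re_nonneg hA).eq_or_lt with ha | ha
  · rw [psd_trace_zero hA ha.symm, Sh_zero, zero_add, zero_add]
  rcases (trace_re_nonneg hB).eq_or_lt with hb | hb
  · rw [psd_trace_zero hB hb.symm, Sh_zero, add_zero, add_zero]
  set a := A.trace.re with had
  set b := B.trace.re with hbd
  have hab : (A + B).trace.re = a + b := by rw [Matrix.trace_add, Complex.add_re]
  have hN := hA.add hB
  have kA := klein_scale hA hB (c := a / (a + b)) (by positivity)
  have kB0 := klein_scale hB hA (c := b / (a + b)) (by positivity)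
  have hba : (B + A).trace.re = a + b := by rw [Matrix.trace_add, Complex.add_re, add_comm]
  rw [hab] at kA
  rw [hba] at kB0
  -- put B in the same basis
  have kB : vnEntropy B ≤ -(∑ j, ((star (hN.1.eigenvectorUnitary : Matrix d d ℂ) * B *
        (hN.1.eigenvectorUnitary : Matrix d d ℂ)) j j).re
        * Real.log (hN.1.eigenvalues j)) - b * Real.log (b / (a + b)) +
      (b / (a + b) * (a + b) - b) := by
    have hcomm : B + A = A + B := add_comm B A
    have gen : ∀ (N : Matrix d d ℂ) (h1 : N.IsHermitian) (h2 : (B + A).IsHermitian),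
        N = B + A → 
        (∑ j, ((star (h1.eigenvectorUnitary : Matrix d d ℂ) * B *
        (h1.eigenvectorUnitary : Matrix d d ℂ)) j j).re * Real.log (h1.eigenvalues j)) =
        (∑ j, ((star (h2.eigenvectorUnitary : Matrix d d ℂ) * B *
        (h2.eigenvectorUnitary : Matrix d d ℂ)) j j).re * Real.log (h2.eigenvalues j)) := by
      intro N h1 h2 h3
      subst h3
      rfl
    rw [gen (A + B) hN.1 (hB.add hA).1 hcomm.symm]
    exact kB0
  have e1 : a / (a + b) * (a + b) = a := by field_simp
  have e2 : b / (a + b) * (a + b) = b := by field_simp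
  rw [e1] at kA
  rw [e2] at kB
  rw [Real.log_div ha.ne' (by positivity)] at kA
  rw [Real.log_div hb.ne' (by positivity)] at kB
  have hs : vnEntropy (A + B) = -∑ j, hN.1.eigenvalues j * Real.log (hN.1.eigenvalues j) := by
    unfold vnEntropy; rw [dif_pos hN.1]
  have hsum : (∑ j, ((star (hN.1.eigenvectorUnitary : Matrix d d ℂ) * A *
        (hN.1.eigenvectorUnitary : Matrix d d ℂ)) j j).re * Real.log (hN.1.eigenvalues j)) +
      (∑ j, ((star (hN.1.eigenvectorUnitary : Matrix d d ℂ) * B *
        (hN.1.eigenvectorUnitary : Matrix d d ℂ)) j j).re * Real.log (hN.1.eigenvalues j)) =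
      ∑ j, hN.1.eigenvalues j * Real.log (hN.1.eigenvalues j) := by
    rw [← Finset.sum_add_distrib]
    refine Finset.sum_congr rfl fun j _ => ?_
    have h1 := diag_conj_eig hN.1 j
    rw [Matrix.mul_add, Matrix.add_mul, Matrix.add_apply] at h1
    have h2 := congrArg Complex.re h1
    rw [Complex.add_re, Complex.ofReal_re] at h2
    rw [← h2]; ring
  unfold Sh
  rw [hs, hab]
  simp only [Real.negMulLog]
  rw [← had, ← hbd]
  nlinarith [kA, kB, hsum]

end Crest.Agent.AD
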