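import Mathlib

set_option autoImplicit false

namespace Crest.Agent.AD

/-- A logarithmic inequality for all positive shifts transfers to the entropy function. -/
theorem transfer {ι : Type*} (s : Finset ι) (c a : ι → ℝ) (ha : ∀ i ∈ s, 0 ≤ a i)
    (hc : ∑ i ∈ s, c i = 0) (hca : ∑ i ∈ s, c i * a i = 0)
    (hlog : ∀ t : ℝ, 0 < t → 0 ≤ ∑ i ∈ s, c i * Real.log (t + a i)) :
    0 ≤ ∑ i ∈ s, c i * Real.negMulLog (a i) := by
  set H : ℝ → ℝ := fun t => ∑ i ∈ s, c i * ((t + a i) * Real.log (t + a i)) with hH
  have hcont : Continuous H := by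
    refine continuous_finsetSum _ fun i _ => ?_
    exact continuous_const.mul (Real.continuous_mul_log.comp (continuous_id.add continuous_const))
  have hderiv : ∀ t : ℝ, 0 < t → HasDerivAt H (∑ i ∈ s, c i * (Real.log (t + a i) + 1)) t := by
    intro t ht
    refine HasDerivAt.fun_sum fun i hi => ?_
    have h1 : t + a i ≠ 0 := by have := ha i hi; positivity
    have h2 := (Real.hasDerivAt_mul_log h1).comp_add_const t (a i)
    exact h2.const_mul _
  have hmono : MonotoneOn H (Set.Ici 0) := by
    refine monotoneOn_of_deriv_nonneg (convex_Ici 0) hcont.continuousOn ?_ ?_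
    · intro t ht
      rw [interior_Ici] at ht
      exact (hderiv t ht).differentiableAt.differentiableWithinAt
    · intro t ht
      rw [interior_Ici] at ht
      rw [(hderiv t ht).deriv]
      simp only [mul_add, mul_one, Finset.sum_add_distrib, hc, add_zero]
      exact hlog t ht
  have hterm : ∀ t : ℝ, 0 < t → ∀ i ∈ s,
      c i * ((t + a i) * (Real.log (t + a i) - Real.log t) - a i) ≤ |c i| * (a i ^ 2) / t := by
    intro t ht i hi
    have hai := ha i hi
    have hta : 0 < t + a i := by positivity
    have hlogeq : Real.log (t + a i) - Real.log t = Real.log ((t + a i) / t) := by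
      rw [Real.log_div hta.ne' ht.ne']
    have hup : Real.log ((t + a i) / t) ≤ (t + a i) / t - 1 :=
      Real.log_le_sub_one_of_pos (by positivity)
    have hlo : 1 - ((t + a i) / t)⁻¹ ≤ Real.log ((t + a i) / t) :=
      Real.one_sub_inv_le_log_of_pos (by positivity)
    have h1 : 0 ≤ (t + a i) * (Real.log (t + a i) - Real.log t) - a i := by
      rw [hlogeq]
      have := mul_le_mul_of_nonneg_left hlo hta.le
      have h3 : (t + a i) * (1 - ((t + a i) / t)⁻¹) = a i := by
        field_simp
        ring
      linarith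
    have h2 : (t + a i) * (Real.log (t + a i) - Real.log t) - a i ≤ a i ^ 2 / t := by
      rw [hlogeq]
      have := mul_le_mul_of_nonneg_left hup hta.le
      have h3 : (t + a i) * ((t + a i) / t - 1) = a i + a i ^ 2 / t := by
        field_simp
        ring
      linarith
    calc c i * ((t + a i) * (Real.log (t + a i) - Real.log t) - a i)
        ≤ |c i| * ((t + a i) * (Real.log (t + a i) - Real.log t) - a i) :=
          mul_le_mul_of_nonneg_right (le_abs_self _) h1
      _ ≤ |c i| * (a i ^ 2 / t) := mul_le_mul_of_nonneg_left h2 (abs_nonneg _)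
      _ = |c i| * (a i ^ 2) / t := by ring
  have hbound : ∀ t : ℝ, 0 < t → H t ≤ (∑ i ∈ s, |c i| * (a i ^ 2)) / t := by
    intro t ht
    have heq : H t = ∑ i ∈ s, c i * ((t + a i) * (Real.log (t + a i) - Real.log t) - a i) := by
      have : ∑ i ∈ s, c i * ((t + a i) * (Real.log (t + a i) - Real.log t) - a i)
          = ∑ i ∈ s, (c i * ((t + a i) * Real.log (t + a i)) - t * Real.log t * c i
              - Real.log t * (c i * a i) - c i * a i) :=
        Finset.sum_congr rfl fun i _ => by ring
      rw [this, Finset.sum_sub_distrib, Finset.sum_sub_distrib, Finset.sum_sub_distrib,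
        ← Finset.mul_sum, ← Finset.mul_sum, hc, hca]
      simp [hH]
    rw [heq, Finset.sum_div]
    exact Finset.sum_le_sum fun i hi => hterm t ht i hi
  have hC : 0 ≤ ∑ i ∈ s, |c i| * (a i ^ 2) := Finset.sum_nonneg fun i _ => by positivity
  have h0 : H 0 ≤ 0 := by
    by_contra hcon
    push Not at hcon
    set C := ∑ i ∈ s, |c i| * (a i ^ 2) with hCdef
    have ht : 0 < (C + 1) / H 0 := by positivity
    have h1 := hmono (Set.mem_Ici.mpr le_rfl) (Set.mem_Ici.mpr ht.le) ht.le
    have h2 := hbound _ ht
    have h3 : C / ((C + 1) / H 0) = C * H 0 / (C + 1) := by field_simp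
    rw [h3] at h2
    have h4 : H 0 ≤ C * H 0 / (C + 1) := h1.trans h2
    rw [le_div_iff₀ (by positivity)] at h4
    nlinarith
  have : H 0 = - ∑ i ∈ s, c i * Real.negMulLog (a i) := by
    simp only [hH, zero_add, Real.negMulLog, ← Finset.sum_neg_distrib]
    exact Finset.sum_congr rfl fun i _ => by ring
  linarith

end Crest.Agent.AD
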